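import Vale.Agent.Helper10.Cnt

/-!
# Positional counts as cardinalities

The positional count `cnt` along a clock modulo `m` which advances by one at the letters
satisfying `tick`, started in the class of `k`, equals the number of positions `i` of the word
whose letter satisfies `sp` and for which `k` plus the number of ticking letters strictly
before `i` is congruent to `x` modulo `m`.
-/

namespace Vale.Agent.Helper7

open Vale.Agent.Helper10

theorem cnt_eq_card {α : Type} {m : ℕ} [NeZero m] (tick sp : α → Prop) [DecidablePred tick]
    [DecidablePred sp] (x k : ℕ) (w : List α) :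
    cnt (fun a => if tick a then (1 : ZMod m) else 0) sp (x : ZMod m) (k : ZMod m) w
      = (Finset.univ.filter (fun i : Fin w.length => sp (w.get i) ∧
          k + (w.take i).countP (fun a => decide (tick a)) ≡ x [MOD m])).card := by
  induction w generalizing k with
  | nil => simp [cnt]
  | cons a w ih =>
    rw [cnt, Finset.card_filter]
    have hlen : (a :: w).length = w.length + 1 := rfl
    have e1 : (∑ i : Fin (a :: w).length,
        (if (sp ((a :: w).get i) ∧
          k + ((a :: w).take i).countP (fun a => decide (tick a)) ≡ x [MOD m]) then 1 else 0))
        = (if (sp a ∧ k ≡ x [MOD m]) then 1 else 0)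
          + ∑ j : Fin w.length, (if (sp (w.get j) ∧
              (k + if tick a then 1 else 0) + (w.take j).countP (fun a => decide (tick a))
                ≡ x [MOD m]) then 1 else 0) := by
      refine (Fin.sum_univ_succ (n := w.length)
        (f := fun i : Fin (w.length + 1) => (if (sp ((a :: w).get i) ∧
          k + ((a :: w).take i).countP (fun a => decide (tick a)) ≡ x [MOD m])
            then (1 : ℕ) else 0))).trans ?_
      congr 1
      refine Finset.sum_congr rfl (fun j _ => ?_)
      have e2 : ((a :: w).take ((j.succ : Fin (w.length + 1)) : ℕ)).countP
          (fun a => decide (tick a))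
          = (w.take j).countP (fun a => decide (tick a)) + if tick a then 1 else 0 := by
        rw [Fin.val_succ, List.take_succ_cons, List.countP_cons]
        simp
      have e3 : (a :: w).get (j.succ : Fin (w.length + 1)) = w.get j := rfl
      rw [e2, e3]
      have e4 : k + ((w.take j).countP (fun a => decide (tick a)) + if tick a then 1 else 0)
          = (k + if tick a then 1 else 0) + (w.take j).countP (fun a => decide (tick a)) := by
        ring
      rw [e4]
    rw [e1]
    have e5 : ((k : ZMod m) + (if tick a then (1 : ZMod m) else 0))
        = (((k + if tick a then 1 else 0 : ℕ) : ℕ) : ZMod m) := by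
      by_cases ht : tick a
      · simp [ht]
      · simp [ht]
    rw [e5, ih (k + if tick a then 1 else 0), Finset.card_filter]
    congr 1
    have e6 : ((k : ZMod m) = (x : ZMod m)) ↔ k ≡ x [MOD m] :=
      ZMod.natCast_eq_natCast_iff k x m
    by_cases h1 : sp a
    · by_cases h2 : k ≡ x [MOD m]
      · rw [if_pos ⟨h1, e6.2 h2⟩, if_pos ⟨h1, h2⟩]
      · rw [if_neg (fun h => h2 (e6.1 h.2)), if_neg (fun h => h2 h.2)]
    · rw [if_neg (fun h => h1 h.1), if_neg (fun h => h1 h.1)]

end Vale.Agent.Helper7
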