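import Vale.Agent.Helper10.GStat

/-!
# Lifting an automaton with marked transitions along a letter map, and padding

If the letters of `α` are mapped to optional letters of `β`, an automaton over `β` with marked
transitions is lifted to `α`: a letter with no image acts trivially and is never marked.  The
lifted automaton counts the marked transitions of the image word, and counter-freeness of the
sink automaton is inherited.  Consequently the number of marked transitions along the image
word followed by a fixed suffix is a statistic all of whose residues have star height at most
one.
-/

namespace Vale.Agent.Helper7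

open Vale.Agent.Helper10

section lift

variable {I α β : Type} (δ : I → β → I) (bad : I → β → Bool) (h : α → Option β)

/-- the lifted transition function: a letter with no image acts trivially -/
def liftStep : I → α → I := fun q a =>
  match h a with
  | some b => δ q b
  | none => q

/-- the lifted marking: a letter with no image is never marked -/
def liftBad : I → α → Bool := fun q a =>
  match h a with
  | some b => bad q b
  | none => false

theorem liftStep_some (q : I) (a : α) (b : β) (hb : h a = some b) :
    liftStep δ h q a = δ q b := by
  unfold liftStep
  rw [hb]

theorem liftStep_none (q : I) (a : α) (hb : h a = none) :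
    liftStep δ h q a = q := by
  unfold liftStep
  rw [hb]

theorem liftBad_some (q : I) (a : α) (b : β) (hb : h a = some b) :
    liftBad bad h q a = bad q b := by
  unfold liftBad
  rw [hb]

theorem liftBad_none (q : I) (a : α) (hb : h a = none) :
    liftBad bad h q a = false := by
  unfold liftBad
  rw [hb]

theorem liftStep_run : ∀ (w : List α) (q : I),
    run (liftStep δ h) q w = run δ q (w.filterMap h) := by
  intro w
  induction w with
  | nil => intro q; rfl
  | cons a w ih =>
    intro q
    rw [run_cons, ih]
    cases hb : h a with
    | none => rw [liftStep_none δ h q a hb, List.filterMap_cons_none hb]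
    | some b => rw [liftStep_some δ h q a b hb, List.filterMap_cons_some hb, run_cons]

theorem liftBad_bcount : ∀ (w : List α) (q : I),
    bcount (liftStep δ h) (liftBad bad h) q w = bcount δ bad q (w.filterMap h) := by
  intro w
  induction w with
  | nil => intro q; rfl
  | cons a w ih =>
    intro q
    rw [bcount, ih]
    cases hb : h a with
    | none =>
      rw [liftStep_none δ h q a hb, liftBad_none bad h q a hb, List.filterMap_cons_none hb]
      simp
    | some b =>
      rw [liftStep_some δ h q a b hb, liftBad_some bad h q a b hb,
        List.filterMap_cons_some hb, bcount]

theorem liftOpt_some (o : Option I) (a : α) (b : β) (hb : h a = some b) :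
    gOpt (liftStep δ h) (liftBad bad h) o a = gOpt δ bad o b := by
  cases o with
  | none => rfl
  | some i =>
    show (if liftBad bad h i a = true then none else some (liftStep δ h i a)) =
      (if bad i b = true then none else some (δ i b))
    rw [liftStep_some δ h i a b hb, liftBad_some bad h i a b hb]

theorem liftOpt_none (o : Option I) (a : α) (hb : h a = none) :
    gOpt (liftStep δ h) (liftBad bad h) o a = o := by
  cases o with
  | none => rfl
  | some i =>
    show (if liftBad bad h i a = true then none else some (liftStep δ h i a)) = some i
    rw [liftStep_none δ h i a hb, liftBad_none bad h i a hb]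
    simp

theorem liftOpt_run : ∀ (w : List α) (o : Option I),
    run (gOpt (liftStep δ h) (liftBad bad h)) o w = run (gOpt δ bad) o (w.filterMap h) := by
  intro w
  induction w with
  | nil => intro o; rfl
  | cons a w ih =>
    intro o
    rw [run_cons, ih]
    cases hb : h a with
    | none => rw [liftOpt_none δ bad h o a hb, List.filterMap_cons_none hb]
    | some b => rw [liftOpt_some δ bad h o a b hb, List.filterMap_cons_some hb, run_cons]

theorem liftOpt_cf (hcf : CounterFree (gOpt δ bad)) :
    CounterFree (gOpt (liftStep δ h) (liftBad bad h)) := by
  intro w q n hn hq
  have e : (fun x => run (gOpt (liftStep δ h) (liftBad bad h)) x w)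
      = (fun x => run (gOpt δ bad) x (w.filterMap h)) := by
    funext x
    exact liftOpt_run δ bad h w x
  rw [e] at hq
  rw [liftOpt_run]
  exact hcf (w.filterMap h) q n hn hq

theorem lift_h0 (i0 : I) (h0 : ∀ i b, bad i b = true → δ i b = i0) :
    ∀ i a, liftBad bad h i a = true → liftStep δ h i a = i0 := by
  intro i a hb
  cases hh : h a with
  | none =>
    rw [liftBad_none bad h i a hh] at hb
    exact absurd hb (by simp)
  | some b =>
    rw [liftBad_some bad h i a b hh] at hb
    rw [liftStep_some δ h i a b hh]
    exact h0 i b hb

/-- the number of marked transitions along the image of a word followed by a fixed suffix: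
all its residues have star height at most one -/
theorem bcount_lift_meas_aux [Finite I] [Finite α] (i0 : I)
    (h0 : ∀ i b, bad i b = true → δ i b = i0)
    (hcf : CounterFree (gOpt δ bad)) (z : List β) (i : I) :
    Meas (fun w : List α => ((bcount δ bad i (w.filterMap h ++ z) : ℕ) : ℤ)) := by
  intro e _ r
  have h1 := gstat_gsh (liftStep δ h) (liftBad bad h) i0 e (liftOpt_cf δ bad h hcf)
    (lift_h0 δ bad h i0 h0) i (fun p => p.1 + (bcount δ bad p.2 z : ZMod e) = r)
  refine h1.congr (fun w => ?_)
  show (bcount (liftStep δ h) (liftBad bad h) i w : ZMod e)
      + (bcount δ bad (run (liftStep δ h) i w) z : ZMod e) = r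
    ↔ (((bcount δ bad i (w.filterMap h ++ z) : ℕ) : ℤ) : ZMod e) = r
  rw [liftBad_bcount, liftStep_run, bcount_append, Int.cast_natCast, Nat.cast_add]

end lift

/-- the number of marked transitions along the image of a word followed by a fixed suffix:
all its residues have star height at most one -/
theorem bcount_lift_meas {I α β : Type} [Finite I] [Finite α] (δ : I → β → I)
    (bad : I → β → Bool) (i0 : I) (h0 : ∀ i b, bad i b = true → δ i b = i0)
    (hcf : CounterFree (gOpt δ bad)) (h : α → Option β) (z : List β) (i : I) :
    Meas (fun w : List α => ((bcount δ bad i (w.filterMap h ++ z) : ℕ) : ℤ)) :=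
  bcount_lift_meas_aux δ bad h i0 h0 hcf z i

end Vale.Agent.Helper7
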