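import Mathlib

/-! Definitions for the area-law statement (P356). -/

namespace Vale.Agent.Helper7.AreaDefs

open Matrix

/-- `ActsOn X h`: the operator `h` on the tensor product of copies of `ℂ^q` over the sites `Λ`
(written as a matrix in the product basis indexed by configurations `Λ → Fin q`) acts on the
tensor factors in `X` and as the identity elsewhere: the entry `h σ τ` vanishes unless `σ` and
`τ` agree outside `X`, and then it depends only on the restrictions of `σ` and `τ` to `X`. -/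
def ActsOn {Λ : Type} {q : ℕ} (X : Finset Λ) (h : Matrix (Λ → Fin q) (Λ → Fin q) ℂ) : Prop :=
  (∀ σ τ, (∃ x, x ∉ X ∧ σ x ≠ τ x) → h σ τ = 0) ∧
  (∀ σ τ σ' τ', (∀ x ∈ X, σ x = σ' x) → (∀ x ∈ X, τ x = τ' x) →
    (∀ x, x ∉ X → σ x = τ x) → (∀ x, x ∉ X → σ' x = τ' x) → h σ τ = h σ' τ')

/-- The configuration on all sites that is `α` on `A` and `β` outside `A`. -/
def glue {Λ : Type} [DecidableEq Λ] {q : ℕ} (A : Finset Λ)
    (α : {x // x ∈ A} → Fin q) (β : {x // x ∉ A} → Fin q) : Λ → Fin q :=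
  fun x => if h : x ∈ A then α ⟨x, h⟩ else β ⟨x, h⟩

/-- The reduced density matrix on the region `A` of the vector `Ω` (partial trace of
`|Ω⟩⟨Ω|` over the sites outside `A`): `ρ_A(α, α') = ∑_β Ω(α, β) * conj Ω(α', β)`. -/
def reduced {Λ : Type} [Fintype Λ] [DecidableEq Λ] {q : ℕ} (A : Finset Λ)
    (Ω : (Λ → Fin q) → ℂ) :
    Matrix ({x // x ∈ A} → Fin q) ({x // x ∈ A} → Fin q) ℂ :=
  fun α α' => ∑ β : {x // x ∉ A} → Fin q, Ω (glue A α β) * star (Ω (glue A α' β))

/-- The von Neumann entropy `-Tr ρ log ρ` of a Hermitian matrix `ρ`: the sum of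
`-λ log λ` over the eigenvalues `λ` of `ρ` (with multiplicity; natural logarithm, `0 log 0 = 0`). -/
noncomputable def entropy {n : Type} [Fintype n] [DecidableEq n] (ρ : Matrix n n ℂ) : ℝ :=
  if h : ρ.IsHermitian then ∑ i, Real.negMulLog (h.eigenvalues i) else 0

/-- The `ℓ¹` distance on the square lattice `{0, …, L-1}²`. -/
def dist1 {L : ℕ} (x y : Fin L × Fin L) : ℕ :=
  Nat.dist (x.1 : ℕ) (y.1 : ℕ) + Nat.dist (x.2 : ℕ) (y.2 : ℕ)

/-- The edge boundary of `A`: the pairs `(x, y)` of lattice sites with `x ∈ A`, `y ∉ A` at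
`ℓ¹` distance one. -/
def boundary {L : ℕ} (A : Finset (Fin L × Fin L)) :
    Finset ((Fin L × Fin L) × (Fin L × Fin L)) :=
  Finset.univ.filter fun p => p.1 ∈ A ∧ p.2 ∉ A ∧ dist1 p.1 p.2 = 1

end Vale.Agent.Helper7.AreaDefs
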