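import Mathlib

/-! Polynomial spectral projections of Hermitian matrices (helper file for P356). -/

namespace Vale.Agent.Helper7.AreaSpec

open Polynomial Matrix

variable {n : Type} [Fintype n] [DecidableEq n]

/-- A polynomial vanishing at all eigenvalues of a Hermitian matrix annihilates it. -/
theorem aeval_eq_zero {A : Matrix n n ℂ} (hA : A.IsHermitian) (p : ℂ[X])
    (hp : ∀ i, p.eval ((hA.eigenvalues i : ℝ) : ℂ) = 0) : aeval A p = 0 := by
  have h1 := hA.spectral_theorem
  have h2 : aeval A p = (Unitary.conjStarAlgAut ℂ _ hA.eigenvectorUnitary)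
      (aeval (diagonal (RCLike.ofReal ∘ hA.eigenvalues : n → ℂ)) p) := by
    conv_lhs => rw [h1]
    exact aeval_algHom_apply (Unitary.conjStarAlgAut ℂ _ hA.eigenvectorUnitary) _ p
  have h3 : aeval (diagonal (RCLike.ofReal ∘ hA.eigenvalues : n → ℂ)) p = 0 := by
    have h4 : (diagonal (RCLike.ofReal ∘ hA.eigenvalues : n → ℂ) : Matrix n n ℂ)
        = Matrix.diagonalAlgHom ℂ (RCLike.ofReal ∘ hA.eigenvalues : n → ℂ) := rfl
    rw [h4, aeval_algHom_apply]
    have h5 : aeval (RCLike.ofReal ∘ hA.eigenvalues : n → ℂ) p = 0 := by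
      funext i
      have := aeval_algHom_apply (Pi.evalAlgHom ℂ (fun _ : n => ℂ) i)
        (RCLike.ofReal ∘ hA.eigenvalues : n → ℂ) p
      simp only [Pi.evalAlgHom_apply, Function.comp_apply] at this
      rw [← this]
      simpa [Polynomial.aeval_def, Polynomial.eval₂_eq_eval_map] using hp i
    rw [h5, map_zero]
  rw [h2, h3, map_zero]

/-- For a Hermitian matrix `A` and a scalar `κ` there is a polynomial `p` with `p(κ) = 1` such
that `p(A)` maps everything into the `κ`-eigenspace of `A`. -/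
theorem exists_poly {A : Matrix n n ℂ} (hA : A.IsHermitian) (κ : ℂ) :
    ∃ p : ℂ[X], p.eval κ = 1 ∧ A * aeval A p = κ • aeval A p := by
  classical
  set S : Finset ℂ := (Finset.univ.image fun i => ((hA.eigenvalues i : ℝ) : ℂ)).erase κ with hS
  have hne : ∏ μ ∈ S, (κ - μ) ≠ 0 := by
    rw [Finset.prod_ne_zero_iff]
    intro μ hμ
    have : μ ≠ κ := (Finset.mem_erase.mp hμ).1
    exact sub_ne_zero.mpr (Ne.symm this)
  refine ⟨C (∏ μ ∈ S, (κ - μ))⁻¹ * ∏ μ ∈ S, (X - C μ), ?_, ?_⟩
  · simp only [eval_mul, eval_C, eval_prod, eval_sub, eval_X]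
    exact inv_mul_cancel₀ hne
  · set p : ℂ[X] := C (∏ μ ∈ S, (κ - μ))⁻¹ * ∏ μ ∈ S, (X - C μ) with hp
    have h0 : aeval A ((X - C κ) * p) = 0 := by
      apply aeval_eq_zero hA
      intro i
      by_cases hi : ((hA.eigenvalues i : ℝ) : ℂ) = κ
      · simp [hi]
      · have hmem : ((hA.eigenvalues i : ℝ) : ℂ) ∈ S := by
          rw [hS]
          exact Finset.mem_erase.mpr ⟨hi, Finset.mem_image.mpr ⟨i, Finset.mem_univ _, rfl⟩⟩
        have : (∏ μ ∈ S, (X - C μ)).eval ((hA.eigenvalues i : ℝ) : ℂ) = 0 := by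
          rw [eval_prod]
          exact Finset.prod_eq_zero hmem (by simp)
        simp [hp, this]
    have h1 : aeval A ((X - C κ) * p) = A * aeval A p - κ • aeval A p := by
      simp [sub_mul, Algebra.smul_def]
    rw [h1] at h0
    exact sub_eq_zero.mp h0

/-- A polynomial in `A` acts on an eigenvector by evaluation. -/
theorem aeval_mulVec {A : Matrix n n ℂ} {κ : ℂ} {v : n → ℂ} (hv : A *ᵥ v = κ • v) (p : ℂ[X]) :
    (aeval A p) *ᵥ v = p.eval κ • v := by
  induction p using Polynomial.induction_on' with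
  | add p q hp hq => simp [Matrix.add_mulVec, hp, hq, add_smul]
  | monomial k a =>
    have hk : ∀ k : ℕ, (A ^ k) *ᵥ v = κ ^ k • v := by
      intro k
      induction k with
      | zero => simp
      | succ k ih =>
        rw [pow_succ, ← Matrix.mulVec_mulVec, hv, Matrix.mulVec_smul, ih, smul_smul, pow_succ,
          mul_comm]
    simp only [aeval_monomial, eval_monomial]
    rw [Algebra.algebraMap_eq_smul_one, Matrix.smul_mul, Matrix.one_mul, Matrix.smul_mulVec, hk,
      smul_smul]

end Vale.Agent.Helper7.AreaSpec
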