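import Mathlib
import Vale.Agent.Helper7.AreaDefs
import Vale.Agent.Helper7.AreaSpec

/-! Operators acting on a set of tensor factors, and the Schmidt-rank bound (helper for P356). -/

namespace Vale.Agent.Helper7.AreaAlg

open Vale.Agent.Helper7.AreaDefs Vale.Agent.Helper7.AreaSpec Matrix Polynomial

variable {Λ : Type} [Fintype Λ] [DecidableEq Λ] {q : ℕ}

/-- `ρ` on `X`, `σ` elsewhere. -/
def patch (X : Finset Λ) (ρ σ : Λ → Fin q) : Λ → Fin q := fun x => if x ∈ X then ρ x else σ x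

theorem actsOn_zero (X : Finset Λ) : ActsOn X (0 : Matrix (Λ → Fin q) (Λ → Fin q) ℂ) :=
  ⟨fun _ _ _ => rfl, fun _ _ _ _ _ _ _ _ => rfl⟩

theorem actsOn_one (X : Finset Λ) : ActsOn X (1 : Matrix (Λ → Fin q) (Λ → Fin q) ℂ) := by
  refine ⟨?_, ?_⟩
  · rintro σ τ ⟨x, -, hx⟩
    rw [Matrix.one_apply_ne]
    rintro rfl
    exact hx rfl
  · intro σ τ σ' τ' h1 h2 h3 h4
    have : σ = τ ↔ σ' = τ' := by
      constructor
      · intro e
        funext x
        by_cases hx : x ∈ X
        · rw [← h1 x hx, ← h2 x hx, e]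
        · exact h4 x hx
      · intro e
        funext x
        by_cases hx : x ∈ X
        · rw [h1 x hx, h2 x hx, e]
        · exact h3 x hx
    simp only [Matrix.one_apply, this]

theorem actsOn_add {X : Finset Λ} {h h' : Matrix (Λ → Fin q) (Λ → Fin q) ℂ}
    (a : ActsOn X h) (a' : ActsOn X h') : ActsOn X (h + h') := by
  refine ⟨fun σ τ hx => ?_, fun σ τ σ' τ' h1 h2 h3 h4 => ?_⟩
  · rw [Matrix.add_apply, a.1 σ τ hx, a'.1 σ τ hx, add_zero]
  · rw [Matrix.add_apply, Matrix.add_apply, a.2 σ τ σ' τ' h1 h2 h3 h4,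
      a'.2 σ τ σ' τ' h1 h2 h3 h4]

theorem actsOn_smul {X : Finset Λ} (c : ℂ) {h : Matrix (Λ → Fin q) (Λ → Fin q) ℂ}
    (a : ActsOn X h) : ActsOn X (c • h) := by
  refine ⟨fun σ τ hx => ?_, fun σ τ σ' τ' h1 h2 h3 h4 => ?_⟩
  · rw [Matrix.smul_apply, a.1 σ τ hx, smul_zero]
  · rw [Matrix.smul_apply, Matrix.smul_apply, a.2 σ τ σ' τ' h1 h2 h3 h4]

theorem actsOn_sum {ι : Type} {X : Finset Λ} (s : Finset ι)
    (f : ι → Matrix (Λ → Fin q) (Λ → Fin q) ℂ) (hf : ∀ i ∈ s, ActsOn X (f i)) :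
    ActsOn X (∑ i ∈ s, f i) :=
  Finset.sum_induction f (fun M => ActsOn X M) (fun _ _ => actsOn_add) (actsOn_zero X) hf

theorem actsOn_mul {X : Finset Λ} {h h' : Matrix (Λ → Fin q) (Λ → Fin q) ℂ}
    (a : ActsOn X h) (a' : ActsOn X h') : ActsOn X (h * h') := by
  refine ⟨fun σ τ hx => ?_, fun σ τ σ' τ' h1 h2 h3 h4 => ?_⟩
  · obtain ⟨x, hxX, hx⟩ := hx
    rw [Matrix.mul_apply]
    apply Finset.sum_eq_zero
    intro ρ _
    by_cases hρ : σ x = ρ x
    · rw [a'.1 ρ τ ⟨x, hxX, fun e => hx (hρ.trans e)⟩, mul_zero]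
    · rw [a.1 σ ρ ⟨x, hxX, hρ⟩, zero_mul]
  · rw [Matrix.mul_apply, Matrix.mul_apply]
    have hL : ∀ (s t : Λ → Fin q), ∑ ρ, h s ρ * h' ρ t =
        ∑ ρ ∈ Finset.univ.filter (fun ρ : Λ → Fin q => ∀ x, x ∉ X → s x = ρ x),
          h s ρ * h' ρ t := by
      intro s t
      symm
      apply Finset.sum_filter_of_ne
      intro ρ _ hne
      by_contra hcon
      push_neg at hcon
      obtain ⟨x, hxX, hx⟩ := hcon
      exact hne (by rw [a.1 s ρ ⟨x, hxX, hx⟩, zero_mul])
    rw [hL σ τ, hL σ' τ']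
    apply Finset.sum_nbij' (fun ρ => patch X ρ σ') (fun ρ => patch X ρ σ)
    · intro ρ hρ
      simp only [Finset.mem_filter, Finset.mem_univ, true_and] at hρ ⊢
      intro x hx
      simp [patch, hx]
    · intro ρ hρ
      simp only [Finset.mem_filter, Finset.mem_univ, true_and] at hρ ⊢
      intro x hx
      simp [patch, hx]
    · intro ρ hρ
      simp only [Finset.mem_filter, Finset.mem_univ, true_and] at hρ
      funext x
      by_cases hx : x ∈ X
      · simp [patch, hx]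
      · simp [patch, hx, hρ x hx]
    · intro ρ hρ
      simp only [Finset.mem_filter, Finset.mem_univ, true_and] at hρ
      funext x
      by_cases hx : x ∈ X
      · simp [patch, hx]
      · simp [patch, hx, hρ x hx]
    · intro ρ hρ
      simp only [Finset.mem_filter, Finset.mem_univ, true_and] at hρ
      rw [a.2 σ ρ σ' (patch X ρ σ') h1 (fun x hx => by simp [patch, hx]) hρ
          (fun x hx => by simp [patch, hx]),
        a'.2 ρ τ (patch X ρ σ') τ' (fun x hx => by simp [patch, hx]) h2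
          (fun x hx => (hρ x hx).symm.trans (h3 x hx))
          (fun x hx => by simp only [patch, hx, if_false]; exact h4 x hx)]

theorem actsOn_mono {X Y : Finset Λ} (hXY : X ⊆ Y) {h : Matrix (Λ → Fin q) (Λ → Fin q) ℂ}
    (a : ActsOn X h) : ActsOn Y h := by
  refine ⟨?_, ?_⟩
  · rintro σ τ ⟨x, hxY, hx⟩
    exact a.1 σ τ ⟨x, fun hxX => hxY (hXY hxX), hx⟩
  · intro σ τ σ' τ' h1 h2 h3 h4
    by_cases hc : ∀ x, x ∉ X → σ x = τ x
    · apply a.2 σ τ σ' τ' (fun x hx => h1 x (hXY hx)) (fun x hx => h2 x (hXY hx)) hc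
      intro x hx
      by_cases hxY : x ∈ Y
      · rw [← h1 x hxY, ← h2 x hxY]
        exact hc x hx
      · exact h4 x hxY
    · push_neg at hc
      obtain ⟨x, hxX, hx⟩ := hc
      have hxY : x ∈ Y := by
        by_contra hxY
        exact hx (h3 x hxY)
      rw [a.1 σ τ ⟨x, hxX, hx⟩,
        a.1 σ' τ' ⟨x, hxX, by rw [← h1 x hxY, ← h2 x hxY]; exact hx⟩]

/-- The operators acting on `X` form a subalgebra. -/
def actsOnSub (X : Finset Λ) : Subalgebra ℂ (Matrix (Λ → Fin q) (Λ → Fin q) ℂ) where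
  carrier := {h | ActsOn X h}
  mul_mem' := fun a b => actsOn_mul a b
  add_mem' := fun a b => actsOn_add a b
  one_mem' := actsOn_one X
  zero_mem' := actsOn_zero X
  algebraMap_mem' := fun c => by
    rw [Algebra.algebraMap_eq_smul_one]
    exact actsOn_smul c (actsOn_one X)

theorem actsOn_aeval {X : Finset Λ} {K : Matrix (Λ → Fin q) (Λ → Fin q) ℂ} (a : ActsOn X K)
    (p : ℂ[X]) : ActsOn X (aeval K p) := by
  have h1 : aeval K p ∈ Algebra.adjoin ℂ {K} := Polynomial.aeval_mem_adjoin_singleton ℂ K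
  have h2 : Algebra.adjoin ℂ {K} ≤ actsOnSub X := by
    apply Algebra.adjoin_le
    intro z hz
    rw [Set.mem_singleton_iff] at hz
    subst hz
    exact a
  exact h2 h1

theorem commute_aeval {n : Type} [Fintype n] [DecidableEq n] {Y K : Matrix n n ℂ}
    (h : Commute Y K) (p : ℂ[X]) : Commute Y (aeval K p) := by
  have h1 : aeval K p ∈ Algebra.adjoin ℂ {K} := Polynomial.aeval_mem_adjoin_singleton ℂ K
  have h2 : Algebra.adjoin ℂ {K} ≤ Subalgebra.centralizer ℂ {Y} := by
    apply Algebra.adjoin_le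
    intro z hz
    rw [Set.mem_singleton_iff] at hz
    subst hz
    rw [SetLike.mem_coe, Subalgebra.mem_centralizer_iff]
    intro g hg
    rw [Set.mem_singleton_iff] at hg
    subst hg
    exact h.eq
  have h3 := h2 h1
  rw [Subalgebra.mem_centralizer_iff] at h3
  exact h3 Y rfl

/-! ### Restrictions and gluing -/

/-- Restriction of a configuration to `A`. -/
def rA (A : Finset Λ) (σ : Λ → Fin q) : {x // x ∈ A} → Fin q := fun x => σ x.1

/-- Restriction of a configuration to the complement of `A`. -/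
def rB (A : Finset Λ) (σ : Λ → Fin q) : {x // x ∉ A} → Fin q := fun x => σ x.1

theorem glue_mem (A : Finset Λ) (α : {x // x ∈ A} → Fin q) (β : {x // x ∉ A} → Fin q) {x : Λ}
    (hx : x ∈ A) : glue A α β x = α ⟨x, hx⟩ := by
  simp [glue, hx]

theorem glue_not_mem (A : Finset Λ) (α : {x // x ∈ A} → Fin q) (β : {x // x ∉ A} → Fin q)
    {x : Λ} (hx : x ∉ A) : glue A α β x = β ⟨x, hx⟩ := by
  simp [glue, hx]

theorem glue_restrict (A : Finset Λ) (σ : Λ → Fin q) : glue A (rA A σ) (rB A σ) = σ := by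
  funext x
  by_cases hx : x ∈ A
  · rw [glue_mem A _ _ hx]; rfl
  · rw [glue_not_mem A _ _ hx]; rfl

/-- A product of an operator on `A` and an operator on the complement, applied to a basis
vector, is a product vector. -/
theorem prod_structure (A : Finset Λ) {PA PB : Matrix (Λ → Fin q) (Λ → Fin q) ℂ}
    (aA : ActsOn A PA) (aB : ActsOn Aᶜ PB) (σ0 : Λ → Fin q) :
    ∃ (f : ({x // x ∈ A} → Fin q) → ℂ) (g : ({x // x ∉ A} → Fin q) → ℂ),
      ∀ α β, (PA * PB) (glue A α β) σ0 = f α * g β := by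
  refine ⟨fun α => PA (glue A α (rB A σ0)) σ0, fun β => PB (glue A (rA A σ0) β) σ0,
    fun α β => ?_⟩
  rw [Matrix.mul_apply]
  rw [Finset.sum_eq_single (glue A (rA A σ0) β)]
  · congr 1
    apply aA.2
    · intro x hx
      rw [glue_mem A _ _ hx, glue_mem A _ _ hx]
    · intro x hx
      rw [glue_mem A _ _ hx]; rfl
    · intro x hx
      rw [glue_not_mem A _ _ hx, glue_not_mem A _ _ hx]
    · intro x hx
      rw [glue_not_mem A _ _ hx]; rfl
  · intro ρ _ hρ
    by_cases h1 : ∀ x, x ∉ A → glue A α β x = ρ x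
    · have h2 : ∃ x, x ∈ A ∧ ρ x ≠ σ0 x := by
        by_contra hcon
        push_neg at hcon
        apply hρ
        funext x
        by_cases hx : x ∈ A
        · rw [glue_mem A _ _ hx, hcon x hx]; rfl
        · rw [← h1 x hx, glue_not_mem A _ _ hx, glue_not_mem A _ _ hx]
      obtain ⟨x, hxA, hx⟩ := h2
      rw [aB.1 ρ σ0 ⟨x, by simpa using hxA, hx⟩, mul_zero]
    · push_neg at h1
      obtain ⟨x, hxA, hx⟩ := h1
      rw [aA.1 _ ρ ⟨x, hxA, hx⟩, zero_mul]
  · intro h
    exact absurd (Finset.mem_univ _) h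

/-- Reindexing the sum defining the action of an operator on `N`. -/
theorem sum_reindex (N : Finset Λ) {T : Matrix (Λ → Fin q) (Λ → Fin q) ℂ} (aT : ActsOn N T)
    (σ : Λ → Fin q) (F : (Λ → Fin q) → ℂ) :
    ∑ τ, T σ τ * F τ = ∑ ν : {x // x ∈ N} → Fin q,
      T σ (glue N ν (rB N σ)) * F (glue N ν (rB N σ)) := by
  have hinj : ∀ ν ∈ (Finset.univ : Finset ({x // x ∈ N} → Fin q)), ∀ ν' ∈ Finset.univ,
      glue N ν (rB N σ) = glue N ν' (rB N σ) → ν = ν' := by
    intro ν _ ν' _ e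
    funext x
    have := congrFun e x.1
    rw [glue_mem N _ _ x.2, glue_mem N _ _ x.2] at this
    exact this
  rw [← Finset.sum_image (f := fun τ => T σ τ * F τ) hinj]
  symm
  apply Finset.sum_subset (Finset.subset_univ _)
  intro τ _ hτ
  have h1 : ∃ x, x ∉ N ∧ σ x ≠ τ x := by
    by_contra hcon
    push_neg at hcon
    apply hτ
    rw [Finset.mem_image]
    refine ⟨rA N τ, Finset.mem_univ _, ?_⟩
    funext x
    by_cases hx : x ∈ N
    · rw [glue_mem N _ _ hx]; rfl
    · rw [glue_not_mem N _ _ hx]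
      exact hcon x hx
  rw [aT.1 σ τ h1, zero_mul]

theorem rank_add_le' {m n : Type} [Fintype m] [Fintype n] (M M' : Matrix m n ℂ) :
    (M + M').rank ≤ M.rank + M'.rank := by
  unfold Matrix.rank
  rw [Matrix.mulVecLin_add]
  calc Module.finrank ℂ (LinearMap.range (M.mulVecLin + M'.mulVecLin))
      ≤ Module.finrank ℂ ↥(LinearMap.range M.mulVecLin ⊔ LinearMap.range M'.mulVecLin) :=
        Submodule.finrank_mono (LinearMap.range_add_le _ _)
    _ ≤ _ := Submodule.finrank_add_le_finrank_add_finrank _ _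

theorem rank_sum_le {m n ι : Type} [Fintype m] [Fintype n] (s : Finset ι) (u : ι → m → ℂ)
    (v : ι → n → ℂ) : (∑ i ∈ s, Matrix.vecMulVec (u i) (v i)).rank ≤ s.card := by
  classical
  induction s using Finset.induction_on with
  | empty => simp
  | insert a s ha ih =>
    rw [Finset.sum_insert ha, Finset.card_insert_of_notMem ha]
    calc _ ≤ (Matrix.vecMulVec (u a) (v a)).rank + (∑ i ∈ s, Matrix.vecMulVec (u i) (v i)).rank :=
          rank_add_le' _ _
      _ ≤ 1 + s.card := add_le_add (Matrix.rank_vecMulVec_le _ _) ih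
      _ = s.card + 1 := add_comm _ _

/-- The matrix of a vector with respect to the bipartition `A | Aᶜ`. -/
def mat (A : Finset Λ) (Ω : (Λ → Fin q) → ℂ) :
    Matrix ({x // x ∈ A} → Fin q) ({x // x ∉ A} → Fin q) ℂ :=
  Matrix.of fun α β => Ω (glue A α β)

/-- An operator on `N` applied to a product vector has Schmidt rank at most `q ^ (2 |N|)`. -/
theorem rank_prod (A N : Finset Λ) {T : Matrix (Λ → Fin q) (Λ → Fin q) ℂ} (aT : ActsOn N T)
    (σ0 : Λ → Fin q) (φ : (Λ → Fin q) → ℂ)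
    (f : ({x // x ∈ A} → Fin q) → ℂ) (g : ({x // x ∉ A} → Fin q) → ℂ)
    (hφ : ∀ α β, φ (glue A α β) = f α * g β) :
    (mat A (T *ᵥ φ)).rank ≤ q ^ (2 * N.card) := by
  classical
  -- coefficients of `T`
  let c : ({x // x ∈ N} → Fin q) → ({x // x ∈ N} → Fin q) → ℂ :=
    fun μ ν => T (glue N μ (rB N σ0)) (glue N ν (rB N σ0))
  let updA : ({x // x ∈ A} → Fin q) → ({x // x ∈ N} → Fin q) → ({x // x ∈ A} → Fin q) :=
    fun α ν x => if h : x.1 ∈ N then ν ⟨x.1, h⟩ else α x
  let updB : ({x // x ∉ A} → Fin q) → ({x // x ∈ N} → Fin q) → ({x // x ∉ A} → Fin q) :=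
    fun β ν x => if h : x.1 ∈ N then ν ⟨x.1, h⟩ else β x
  let a : ({x // x ∈ N} → Fin q) → ({x // x ∈ A} → Fin q) → ℂ :=
    fun μ α => if ∀ (x : Λ) (hN : x ∈ N) (hA : x ∈ A), α ⟨x, hA⟩ = μ ⟨x, hN⟩ then 1 else 0
  let b : ({x // x ∈ N} → Fin q) → ({x // x ∉ A} → Fin q) → ℂ :=
    fun μ β => if ∀ (x : Λ) (hN : x ∈ N) (hA : x ∉ A), β ⟨x, hA⟩ = μ ⟨x, hN⟩ then 1 else 0
  have hT : ∀ α β ν, T (glue A α β) (glue N ν (rB N (glue A α β)))
      = c (rA N (glue A α β)) ν := by
    intro α β ν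
    apply aT.2
    · intro x hx
      rw [glue_mem N _ _ hx]; rfl
    · intro x hx
      rw [glue_mem N _ _ hx, glue_mem N _ _ hx]
    · intro x hx
      rw [glue_not_mem N _ _ hx]; rfl
    · intro x hx
      rw [glue_not_mem N _ _ hx, glue_not_mem N _ _ hx]
  have hglue : ∀ α β ν, glue N ν (rB N (glue A α β)) = glue A (updA α ν) (updB β ν) := by
    intro α β ν
    funext x
    by_cases hN : x ∈ N
    · by_cases hA : x ∈ A
      · rw [glue_mem N _ _ hN, glue_mem A _ _ hA]
        simp only [updA, hN, dif_pos]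
      · rw [glue_mem N _ _ hN, glue_not_mem A _ _ hA]
        simp only [updB, hN, dif_pos]
    · by_cases hA : x ∈ A
      · rw [glue_not_mem N _ _ hN, glue_mem A _ _ hA]
        simp only [updA, hN, dif_neg, not_false_iff, rB]
        rw [glue_mem A _ _ hA]
      · rw [glue_not_mem N _ _ hN, glue_not_mem A _ _ hA]
        simp only [updB, hN, dif_neg, not_false_iff, rB]
        rw [glue_not_mem A _ _ hA]
  have hind : ∀ α β μ, (if rA N (glue A α β) = μ then (1 : ℂ) else 0) = a μ α * b μ β := by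
    intro α β μ
    by_cases h1 : rA N (glue A α β) = μ
    · have ha : ∀ (x : Λ) (hN : x ∈ N) (hA : x ∈ A), α ⟨x, hA⟩ = μ ⟨x, hN⟩ := by
        intro x hN hA
        have := congrFun h1 ⟨x, hN⟩
        simp only [rA] at this
        rw [glue_mem A _ _ hA] at this
        exact this
      have hb : ∀ (x : Λ) (hN : x ∈ N) (hA : x ∉ A), β ⟨x, hA⟩ = μ ⟨x, hN⟩ := by
        intro x hN hA
        have := congrFun h1 ⟨x, hN⟩
        simp only [rA] at this
        rw [glue_not_mem A _ _ hA] at this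
        exact this
      simp only [a, b, h1, if_true, if_pos ha, if_pos hb, mul_one]
    · have : ¬ ((∀ (x : Λ) (hN : x ∈ N) (hA : x ∈ A), α ⟨x, hA⟩ = μ ⟨x, hN⟩) ∧
          (∀ (x : Λ) (hN : x ∈ N) (hA : x ∉ A), β ⟨x, hA⟩ = μ ⟨x, hN⟩)) := by
        rintro ⟨ha, hb⟩
        apply h1
        funext x
        simp only [rA]
        by_cases hA : x.1 ∈ A
        · rw [glue_mem A _ _ hA]; exact ha x.1 x.2 hA
        · rw [glue_not_mem A _ _ hA]; exact hb x.1 x.2 hA
      simp only [a, b, h1, if_false]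
      by_cases ha : ∀ (x : Λ) (hN : x ∈ N) (hA : x ∈ A), α ⟨x, hA⟩ = μ ⟨x, hN⟩
      · have hb : ¬ ∀ (x : Λ) (hN : x ∈ N) (hA : x ∉ A), β ⟨x, hA⟩ = μ ⟨x, hN⟩ :=
          fun hb => this ⟨ha, hb⟩
        rw [if_neg hb, mul_zero]
      · rw [if_neg ha, zero_mul]
  have hM : mat A (T *ᵥ φ) = ∑ p ∈ (Finset.univ :
      Finset (({x // x ∈ N} → Fin q) × ({x // x ∈ N} → Fin q))),
      Matrix.vecMulVec (fun α => a p.1 α * c p.1 p.2 * f (updA α p.2))
        (fun β => b p.1 β * g (updB β p.2)) := by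
    ext α β
    rw [Matrix.sum_apply]
    simp only [mat, Matrix.of_apply, Matrix.vecMulVec_apply]
    rw [Matrix.mulVec, dotProduct, sum_reindex N aT]
    rw [Fintype.sum_prod_type]
    have hstep : ∀ ν, T (glue A α β) (glue N ν (rB N (glue A α β))) *
        φ (glue N ν (rB N (glue A α β))) =
        ∑ μ, a μ α * c μ ν * f (updA α ν) * (b μ β * g (updB β ν)) := by
      intro ν
      rw [hT, hglue, hφ]
      have : ∀ μ, a μ α * c μ ν * f (updA α ν) * (b μ β * g (updB β ν))
          = (if rA N (glue A α β) = μ then c μ ν * (f (updA α ν) * g (updB β ν)) else 0) := by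
        intro μ
        have h2 := hind α β μ
        by_cases h1 : rA N (glue A α β) = μ
        · rw [if_pos h1] at h2 ⊢
          calc a μ α * c μ ν * f (updA α ν) * (b μ β * g (updB β ν))
              = (a μ α * b μ β) * (c μ ν * (f (updA α ν) * g (updB β ν))) := by ring
            _ = _ := by rw [← h2, one_mul]
        · rw [if_neg h1] at h2 ⊢
          calc a μ α * c μ ν * f (updA α ν) * (b μ β * g (updB β ν))
              = (a μ α * b μ β) * (c μ ν * (f (updA α ν) * g (updB β ν))) := by ring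
            _ = _ := by rw [← h2, zero_mul]
      rw [Finset.sum_congr rfl (fun μ _ => this μ), Finset.sum_ite_eq]
      simp
    rw [Finset.sum_congr rfl (fun ν _ => hstep ν), Finset.sum_comm]
  rw [hM]
  refine le_trans (rank_sum_le _ _ _) ?_
  rw [Finset.card_univ, Fintype.card_prod, Fintype.card_fun, Fintype.card_fin, Fintype.card_coe]
  apply le_of_eq
  ring

end Vale.Agent.Helper7.AreaAlg
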