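import Mathlib
import Vale.Agent.Helper7.AreaDefs
import Vale.Agent.Helper7.AreaAlg

/-! Operators acting on complementary sets of tensor factors commute (helper for P356). -/

namespace Vale.Agent.Helper7.AreaCut

open Vale.Agent.Helper7.AreaDefs Vale.Agent.Helper7.AreaAlg Matrix

variable {Λ : Type} [Fintype Λ] [DecidableEq Λ] {q : ℕ}

theorem mul_apply_disjoint (A : Finset Λ) {h h' : Matrix (Λ → Fin q) (Λ → Fin q) ℂ}
    (a : ActsOn A h) (a' : ActsOn Aᶜ h') (σ τ : Λ → Fin q) :
    (h * h') σ τ = h σ (glue A (rA A τ) (rB A σ)) * h' (glue A (rA A τ) (rB A σ)) τ := by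
  rw [Matrix.mul_apply]
  apply Finset.sum_eq_single
  · intro ρ _ hρ
    by_cases h1 : ∀ x, x ∉ A → σ x = ρ x
    · have h2 : ∃ x, x ∈ A ∧ ρ x ≠ τ x := by
        by_contra hcon
        push_neg at hcon
        apply hρ
        funext x
        by_cases hx : x ∈ A
        · rw [glue_mem A _ _ hx, hcon x hx]; rfl
        · rw [glue_not_mem A _ _ hx, ← h1 x hx]; rfl
      obtain ⟨x, hxA, hx⟩ := h2
      rw [a'.1 ρ τ ⟨x, by simpa using hxA, hx⟩, mul_zero]
    · push_neg at h1
      obtain ⟨x, hxA, hx⟩ := h1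
      rw [a.1 σ ρ ⟨x, hxA, hx⟩, zero_mul]
  · intro hn
    exact absurd (Finset.mem_univ _) hn

theorem mul_apply_disjoint' (A : Finset Λ) {h h' : Matrix (Λ → Fin q) (Λ → Fin q) ℂ}
    (a : ActsOn A h) (a' : ActsOn Aᶜ h') (σ τ : Λ → Fin q) :
    (h' * h) σ τ = h' σ (glue A (rA A σ) (rB A τ)) * h (glue A (rA A σ) (rB A τ)) τ := by
  rw [Matrix.mul_apply]
  apply Finset.sum_eq_single
  · intro ρ _ hρ
    by_cases h1 : ∀ x, x ∉ A → ρ x = τ x
    · have h2 : ∃ x, x ∈ A ∧ σ x ≠ ρ x := by
        by_contra hcon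
        push_neg at hcon
        apply hρ
        funext x
        by_cases hx : x ∈ A
        · rw [glue_mem A _ _ hx, ← hcon x hx]; rfl
        · rw [glue_not_mem A _ _ hx, h1 x hx]; rfl
      obtain ⟨x, hxA, hx⟩ := h2
      rw [a'.1 σ ρ ⟨x, by simpa using hxA, hx⟩, zero_mul]
    · push_neg at h1
      obtain ⟨x, hxA, hx⟩ := h1
      rw [a.1 ρ τ ⟨x, hxA, hx⟩, mul_zero]
  · intro hn
    exact absurd (Finset.mem_univ _) hn

/-- Operators acting on `A` and on the complement of `A` commute. -/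
theorem commute_of_disjoint (A : Finset Λ) {h h' : Matrix (Λ → Fin q) (Λ → Fin q) ℂ}
    (a : ActsOn A h) (a' : ActsOn Aᶜ h') : Commute h h' := by
  show h * h' = h' * h
  ext σ τ
  rw [mul_apply_disjoint A a a', mul_apply_disjoint' A a a', mul_comm]
  congr 1
  · apply a'.2
    · intro x hx
      have hxA : x ∉ A := by simpa using hx
      rw [glue_not_mem A _ _ hxA]; rfl
    · intro x hx
      have hxA : x ∉ A := by simpa using hx
      rw [glue_not_mem A _ _ hxA]; rfl
    · intro x hx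
      have hxA : x ∈ A := by simpa using hx
      rw [glue_mem A _ _ hxA]; rfl
    · intro x hx
      have hxA : x ∈ A := by simpa using hx
      rw [glue_mem A _ _ hxA]; rfl
  · apply a.2
    · intro x hx
      rw [glue_mem A _ _ hx]; rfl
    · intro x hx
      rw [glue_mem A _ _ hx]; rfl
    · intro x hx
      rw [glue_not_mem A _ _ hx]; rfl
    · intro x hx
      rw [glue_not_mem A _ _ hx]; rfl

end Vale.Agent.Helper7.AreaCut
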