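import Mathlib
import Vale.Agent.Helper7.AreaDefs

/-! Entropy of a density matrix is at most the logarithm of its rank (helper file for P356). -/

namespace Vale.Agent.Helper7.AreaEnt

open Vale.Agent.Helper7.AreaDefs Matrix
open scoped ComplexOrder

theorem negMulLog_le {x r : ℝ} (hx : 0 < x) (hr : 0 < r) :
    Real.negMulLog x ≤ x * Real.log r + r⁻¹ - x := by
  have h1 := Real.one_sub_inv_le_log_of_pos (mul_pos hx hr)
  rw [Real.log_mul hx.ne' hr.ne'] at h1
  have h2 : x * (1 - (x * r)⁻¹) ≤ x * (Real.log x + Real.log r) :=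
    mul_le_mul_of_nonneg_left h1 hx.le
  have h3 : x * (1 - (x * r)⁻¹) = x - r⁻¹ := by
    field_simp
  rw [h3] at h2
  unfold Real.negMulLog
  nlinarith

/-- Entropy bound for nonnegative numbers summing to one with at most `D` nonzero terms. -/
theorem sum_negMulLog_le {ι : Type} [Fintype ι] (lam : ι → ℝ) (h0 : ∀ i, 0 ≤ lam i)
    (h1 : ∑ i, lam i = 1) (D : ℕ) (hD : Fintype.card {i // lam i ≠ 0} ≤ D) :
    ∑ i, Real.negMulLog (lam i) ≤ Real.log D := by
  classical
  set s : Finset ι := Finset.univ.filter fun i => lam i ≠ 0 with hs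
  have hcard : s.card = Fintype.card {i // lam i ≠ 0} := by
    rw [Fintype.card_subtype]
  have hsum1 : ∑ i ∈ s, lam i = 1 := by
    rw [← h1]
    apply Finset.sum_subset (Finset.subset_univ _)
    intro i _ hi
    simp only [hs, Finset.mem_filter, Finset.mem_univ, true_and, not_not] at hi
    exact hi
  have hpos : 0 < s.card := by
    rw [Finset.card_pos]
    by_contra hne
    rw [Finset.not_nonempty_iff_eq_empty] at hne
    rw [hne, Finset.sum_empty] at hsum1
    exact zero_ne_one hsum1
  have hr : (0 : ℝ) < s.card := by exact_mod_cast hpos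
  have hsum2 : ∑ i, Real.negMulLog (lam i) = ∑ i ∈ s, Real.negMulLog (lam i) := by
    symm
    apply Finset.sum_subset (Finset.subset_univ _)
    intro i _ hi
    simp only [hs, Finset.mem_filter, Finset.mem_univ, true_and, not_not] at hi
    rw [hi, Real.negMulLog_zero]
  have hle : ∑ i ∈ s, Real.negMulLog (lam i) ≤
      ∑ i ∈ s, (lam i * Real.log s.card + (s.card : ℝ)⁻¹ - lam i) := by
    apply Finset.sum_le_sum
    intro i hi
    simp only [hs, Finset.mem_filter, Finset.mem_univ, true_and] at hi
    exact negMulLog_le (lt_of_le_of_ne (h0 i) (Ne.symm hi)) hr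
  have heq : ∑ i ∈ s, (lam i * Real.log s.card + (s.card : ℝ)⁻¹ - lam i) = Real.log s.card := by
    rw [Finset.sum_sub_distrib, Finset.sum_add_distrib, ← Finset.sum_mul, hsum1, Finset.sum_const,
      nsmul_eq_mul, mul_inv_cancel₀ hr.ne']
    ring
  have hmono : Real.log s.card ≤ Real.log D := by
    apply Real.log_le_log hr
    have : s.card ≤ D := by rw [hcard]; exact hD
    exact_mod_cast this
  linarith [hsum2 ▸ hle]

/-- The entropy of `M Mᴴ` (of trace one) is at most the logarithm of any bound on the rank of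
`M`. -/
theorem entropy_le_log {m n : Type} [Fintype m] [Fintype n] [DecidableEq m] [DecidableEq n]
    (M : Matrix m n ℂ) (htr : (M * Mᴴ).trace = 1) (D : ℕ) (hD : M.rank ≤ D) :
    entropy (M * Mᴴ) ≤ Real.log D := by
  have hpsd : (M * Mᴴ).PosSemidef := Matrix.posSemidef_self_mul_conjTranspose M
  have hH : (M * Mᴴ).IsHermitian := hpsd.isHermitian
  unfold entropy
  rw [dif_pos hH]
  apply sum_negMulLog_le
  · intro i
    exact hpsd.eigenvalues_nonneg i
  · have h1 := hH.trace_eq_sum_eigenvalues
    rw [htr] at h1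
    have h2 : ((∑ i, hH.eigenvalues i : ℝ) : ℂ) = 1 := by
      rw [h1]; push_cast; rfl
    exact_mod_cast h2
  · rw [← hH.rank_eq_card_non_zero_eigs]
    exact le_trans (Matrix.rank_mul_le_left M Mᴴ) hD

end Vale.Agent.Helper7.AreaEnt
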