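import Mathlib
import Vale.Agent.Helper7.AreaDefs
import Vale.Agent.Helper7.AreaSpec
import Vale.Agent.Helper7.AreaAlg
import Vale.Agent.Helper7.AreaEnt

/-! Schmidt rank and entropy bound for a nondegenerate eigenvector of `HA + HB + K` with
commuting parts (helper for P356). -/

namespace Vale.Agent.Helper7.AreaMain

open Vale.Agent.Helper7.AreaDefs Vale.Agent.Helper7.AreaSpec Vale.Agent.Helper7.AreaAlg
open Vale.Agent.Helper7.AreaEnt Matrix Polynomial

variable {Λ : Type} [Fintype Λ] [DecidableEq Λ] {q : ℕ}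

theorem rank_bound (A N : Finset Λ) (HA HB K : Matrix (Λ → Fin q) (Λ → Fin q) ℂ)
    (hHA : HA.IsHermitian) (hHB : HB.IsHermitian) (hK : K.IsHermitian)
    (aA : ActsOn A HA) (aB : ActsOn Aᶜ HB) (aK : ActsOn N K)
    (c1 : Commute HA K) (c2 : Commute HB K) (c3 : Commute HA HB)
    (E0 : ℂ) (Ω : (Λ → Fin q) → ℂ)
    (hΩ : (HA + HB + K) *ᵥ Ω = E0 • Ω) (hne : Ω ≠ 0)
    (hsimple : ∀ v, (HA + HB + K) *ᵥ v = E0 • v → ∃ c : ℂ, v = c • Ω) :
    (mat A Ω).rank ≤ q ^ (2 * N.card) := by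
  have eig : ∀ Y : Matrix (Λ → Fin q) (Λ → Fin q) ℂ, Commute Y (HA + HB + K) →
      ∃ e : ℂ, Y *ᵥ Ω = e • Ω := by
    intro Y hY
    apply hsimple
    rw [Matrix.mulVec_mulVec, ← hY.eq, ← Matrix.mulVec_mulVec, hΩ, Matrix.mulVec_smul]
  have cA : Commute HA (HA + HB + K) := ((Commute.refl HA).add_right c3).add_right c1
  have cB : Commute HB (HA + HB + K) := (c3.symm.add_right (Commute.refl HB)).add_right c2
  have cK : Commute K (HA + HB + K) := (c1.symm.add_right c2.symm).add_right (Commute.refl K)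
  obtain ⟨eA, hA⟩ := eig HA cA
  obtain ⟨eB, hB⟩ := eig HB cB
  obtain ⟨κ, hκ⟩ := eig K cK
  have hE : E0 = eA + eB + κ := by
    have h1 : (eA + eB + κ) • Ω = E0 • Ω := by
      rw [← hΩ, Matrix.add_mulVec, Matrix.add_mulVec, hA, hB, hκ, add_smul, add_smul]
    obtain ⟨σ, hσ⟩ : ∃ σ, Ω σ ≠ 0 := by
      by_contra hcon
      push_neg at hcon
      exact hne (funext hcon)
    have h2 := congrFun h1 σ
    simp only [Pi.smul_apply, smul_eq_mul] at h2
    exact (mul_right_cancel₀ hσ h2).symm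
  obtain ⟨pA, hpA1, hpA2⟩ := exists_poly hHA eA
  obtain ⟨pB, hpB1, hpB2⟩ := exists_poly hHB eB
  obtain ⟨pK, hpK1, hpK2⟩ := exists_poly hK κ
  have hPAΩ : (aeval HA pA) *ᵥ Ω = Ω := by rw [aeval_mulVec hA, hpA1, one_smul]
  have hPBΩ : (aeval HB pB) *ᵥ Ω = Ω := by rw [aeval_mulVec hB, hpB1, one_smul]
  have hTΩ : (aeval K pK) *ᵥ Ω = Ω := by rw [aeval_mulVec hκ, hpK1, one_smul]
  have hPΩ : (aeval K pK * (aeval HA pA * aeval HB pB)) *ᵥ Ω = Ω := by
    rw [← Matrix.mulVec_mulVec, ← Matrix.mulVec_mulVec, hPBΩ, hPAΩ, hTΩ]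
  have hHP : (HA + HB + K) * (aeval K pK * (aeval HA pA * aeval HB pB))
      = E0 • (aeval K pK * (aeval HA pA * aeval HB pB)) := by
    have h1 : HA * (aeval K pK * (aeval HA pA * aeval HB pB))
        = eA • (aeval K pK * (aeval HA pA * aeval HB pB)) := by
      have cT : Commute HA (aeval K pK) := commute_aeval c1 pK
      calc HA * (aeval K pK * (aeval HA pA * aeval HB pB))
          = aeval K pK * ((HA * aeval HA pA) * aeval HB pB) := by
            rw [← mul_assoc, cT.eq, mul_assoc, mul_assoc]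
        _ = eA • (aeval K pK * (aeval HA pA * aeval HB pB)) := by
            rw [hpA2, Matrix.smul_mul, Matrix.mul_smul]
    have h2 : HB * (aeval K pK * (aeval HA pA * aeval HB pB))
        = eB • (aeval K pK * (aeval HA pA * aeval HB pB)) := by
      have cT : Commute HB (aeval K pK) := commute_aeval c2 pK
      have cPA : Commute HB (aeval HA pA) := commute_aeval c3.symm pA
      calc HB * (aeval K pK * (aeval HA pA * aeval HB pB))
          = aeval K pK * (aeval HA pA * (HB * aeval HB pB)) := by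
            rw [← mul_assoc, cT.eq, mul_assoc, ← mul_assoc HB, cPA.eq, mul_assoc]
        _ = eB • (aeval K pK * (aeval HA pA * aeval HB pB)) := by
            rw [hpB2, Matrix.mul_smul, Matrix.mul_smul]
    have h3 : K * (aeval K pK * (aeval HA pA * aeval HB pB))
        = κ • (aeval K pK * (aeval HA pA * aeval HB pB)) := by
      rw [← mul_assoc, hpK2, Matrix.smul_mul]
    rw [add_mul, add_mul, h1, h2, h3, hE, add_smul, add_smul]
  obtain ⟨σ0, hσ0⟩ : ∃ σ0, (fun τ => (aeval K pK * (aeval HA pA * aeval HB pB)) τ σ0) ≠ 0 := by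
    by_contra hcon
    push_neg at hcon
    have h0 : aeval K pK * (aeval HA pA * aeval HB pB) = 0 := by
      ext σ τ
      exact congrFun (hcon τ) σ
    rw [h0, Matrix.zero_mulVec] at hPΩ
    exact hne hPΩ.symm
  have hcol : ∀ (M : Matrix (Λ → Fin q) (Λ → Fin q) ℂ) (P : Matrix (Λ → Fin q) (Λ → Fin q) ℂ)
      (σ0 : Λ → Fin q), M *ᵥ (fun τ => P τ σ0) = fun τ => (M * P) τ σ0 := by
    intro M P σ0
    funext τ
    simp [Matrix.mulVec, dotProduct, Matrix.mul_apply]
  obtain ⟨c, hc⟩ := hsimple (fun τ => (aeval K pK * (aeval HA pA * aeval HB pB)) τ σ0) (by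
    rw [hcol, hHP]
    funext τ
    simp)
  have hc0 : c ≠ 0 := by
    rintro rfl
    rw [zero_smul] at hc
    exact hσ0 hc
  have aPA : ActsOn A (aeval HA pA) := actsOn_aeval aA pA
  have aPB : ActsOn Aᶜ (aeval HB pB) := actsOn_aeval aB pB
  have aT : ActsOn N (aeval K pK) := actsOn_aeval aK pK
  obtain ⟨f, g, hfg⟩ := prod_structure A aPA aPB σ0
  have hΩφ : Ω = (aeval K pK) *ᵥ (c⁻¹ • fun τ => (aeval HA pA * aeval HB pB) τ σ0) := by
    rw [Matrix.mulVec_smul, hcol, hc, smul_smul, inv_mul_cancel₀ hc0, one_smul]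
  rw [hΩφ]
  apply rank_prod A N aT σ0 _ (fun α => c⁻¹ * f α) g
  intro α β
  simp only [Pi.smul_apply, smul_eq_mul]
  rw [hfg]
  ring

/-- The reduced density matrix is `M Mᴴ` for the matrix `M` of the vector. -/
theorem reduced_eq (A : Finset Λ) (Ω : (Λ → Fin q) → ℂ) :
    reduced A Ω = mat A Ω * (mat A Ω)ᴴ := by
  ext α α'
  simp [reduced, mat, Matrix.mul_apply, Matrix.conjTranspose_apply]

theorem trace_reduced (A : Finset Λ) (Ω : (Λ → Fin q) → ℂ)
    (hnorm : ∑ σ, Complex.normSq (Ω σ) = 1) : (mat A Ω * (mat A Ω)ᴴ).trace = 1 := by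
  have h1 : (mat A Ω * (mat A Ω)ᴴ).trace
      = ∑ α, ∑ β, ((Complex.normSq (Ω (glue A α β)) : ℝ) : ℂ) := by
    simp only [Matrix.trace, Matrix.diag, Matrix.mul_apply, Matrix.conjTranspose_apply, mat,
      Matrix.of_apply]
    apply Finset.sum_congr rfl
    intro α _
    apply Finset.sum_congr rfl
    intro β _
    rw [Complex.star_def, Complex.mul_conj]
  have h2 : ∑ α, ∑ β, ((Complex.normSq (Ω (glue A α β)) : ℝ) : ℂ)
      = ∑ σ, ((Complex.normSq (Ω σ) : ℝ) : ℂ) := by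
    rw [← Fintype.sum_prod_type']
    exact Equiv.sum_comp (Equiv.piEquivPiSubtypeProd (fun x => x ∈ A) (fun _ => Fin q)).symm
      (fun σ => ((Complex.normSq (Ω σ) : ℝ) : ℂ))
  rw [h1, h2, ← Complex.ofReal_sum, hnorm, Complex.ofReal_one]

/-- Entropy bound: `S(A) ≤ 2 |N| log q`. -/
theorem entropy_bound (A N : Finset Λ) (HA HB K : Matrix (Λ → Fin q) (Λ → Fin q) ℂ)
    (hHA : HA.IsHermitian) (hHB : HB.IsHermitian) (hK : K.IsHermitian)
    (aA : ActsOn A HA) (aB : ActsOn Aᶜ HB) (aK : ActsOn N K)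
    (c1 : Commute HA K) (c2 : Commute HB K) (c3 : Commute HA HB)
    (E0 : ℂ) (Ω : (Λ → Fin q) → ℂ)
    (hΩ : (HA + HB + K) *ᵥ Ω = E0 • Ω) (hnorm : ∑ σ, Complex.normSq (Ω σ) = 1)
    (hsimple : ∀ v, (HA + HB + K) *ᵥ v = E0 • v → ∃ c : ℂ, v = c • Ω) :
    entropy (reduced A Ω) ≤ 2 * (N.card : ℝ) * Real.log q := by
  have hne : Ω ≠ 0 := by
    rintro rfl
    simp at hnorm
  have h1 := rank_bound A N HA HB K hHA hHB hK aA aB aK c1 c2 c3 E0 Ω hΩ hne hsimple
  have h2 := entropy_le_log (mat A Ω) (trace_reduced A Ω hnorm) _ h1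
  rw [reduced_eq]
  refine le_trans h2 (le_of_eq ?_)
  push_cast
  rw [Real.log_pow]
  push_cast
  ring

end Vale.Agent.Helper7.AreaMain
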