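import Mathlib
import Vale.Agent.Helper7.AreaDefs
import Vale.Agent.Helper7.AreaSpec
import Vale.Agent.Helper7.AreaAlg
import Vale.Agent.Helper7.AreaEnt
import Vale.Agent.Helper7.AreaMain

/-! Schmidt rank and entropy bound for eigenvectors of `HA + HB + K` with commuting parts when
the eigenvalue has multiplicity at most `m` (helper for P356). -/

namespace Vale.Agent.Helper7.AreaDeg

open Vale.Agent.Helper7.AreaDefs Vale.Agent.Helper7.AreaSpec Vale.Agent.Helper7.AreaAlg
open Vale.Agent.Helper7.AreaEnt Vale.Agent.Helper7.AreaMain Matrix Polynomial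

/-- A subadditive cost that does not increase under scaling is at most `m * D` on the span of a
set of vectors of cost at most `D`, when that span has dimension at most `m`. -/
theorem cost_le {V : Type} [AddCommGroup V] [Module ℂ V] [FiniteDimensional ℂ V] (r : V → ℕ)
    (hr0 : r 0 = 0) (hadd : ∀ x y, r (x + y) ≤ r x + r y) (hsmul : ∀ (c : ℂ) x, r (c • x) ≤ r x)
    (S : Set V) (D m : ℕ) (hS : ∀ s ∈ S, r s ≤ D)
    (hm : Module.finrank ℂ (Submodule.span ℂ S) ≤ m) (x : V) (hx : x ∈ Submodule.span ℂ S) :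
    r x ≤ m * D := by
  classical
  obtain ⟨b, hbS, hspan, hli⟩ := exists_linearIndependent ℂ S
  have hfin : b.Finite := hli.setFinite
  have hcard : hfin.toFinset.card ≤ m := by
    have inst : Fintype b := hfin.fintype
    have h1 := finrank_span_set_eq_card (R := ℂ) (s := b) hli
    have h2 : b.toFinset.card = hfin.toFinset.card := by
      congr 1
      ext y
      simp
    rw [hspan] at h1
    omega
  have hx' : x ∈ Submodule.span ℂ (hfin.toFinset : Set V) := by
    rw [Set.Finite.coe_toFinset, hspan]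
    exact hx
  obtain ⟨f, -, hf⟩ := Submodule.mem_span_finset.mp hx'
  rw [← hf]
  calc r (∑ a ∈ hfin.toFinset, f a • a) ≤ ∑ a ∈ hfin.toFinset, r (f a • a) :=
        Finset.le_sum_of_subadditive r hr0.le hadd _ _
    _ ≤ ∑ a ∈ hfin.toFinset, D := by
        apply Finset.sum_le_sum
        intro a ha
        exact le_trans (hsmul _ _) (hS a (hbS (hfin.mem_toFinset.mp ha)))
    _ = hfin.toFinset.card * D := by rw [Finset.sum_const, smul_eq_mul]
    _ ≤ m * D := Nat.mul_le_mul_right D hcard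

section spec

variable {n : Type} [Fintype n] [DecidableEq n]

/-- Polynomial spectral projections of a Hermitian matrix: they sum to the identity and each maps
into an eigenspace. -/
theorem exists_family {A : Matrix n n ℂ} (hA : A.IsHermitian) :
    ∃ (S : Finset ℂ) (p : ℂ → ℂ[X]), (∑ e ∈ S, aeval A (p e) = 1) ∧
      ∀ e, A * aeval A (p e) = e • aeval A (p e) := by
  classical
  set S : Finset ℂ := Finset.univ.image fun i => ((hA.eigenvalues i : ℝ) : ℂ) with hS
  let p : ℂ → ℂ[X] := fun e => C (∏ μ ∈ S.erase e, (e - μ))⁻¹ * ∏ μ ∈ S.erase e, (X - C μ)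
  have hpe : ∀ e, (p e).eval e = 1 := by
    intro e
    have hne : ∏ μ ∈ S.erase e, (e - μ) ≠ 0 := by
      rw [Finset.prod_ne_zero_iff]
      intro μ hμ
      exact sub_ne_zero.mpr (Ne.symm (Finset.mem_erase.mp hμ).1)
    simp only [p, eval_mul, eval_C, eval_prod, eval_sub, eval_X]
    exact inv_mul_cancel₀ hne
  have hpz : ∀ e e', e' ∈ S → e' ≠ e → (p e).eval e' = 0 := by
    intro e e' he' hne
    have hmem : e' ∈ S.erase e := Finset.mem_erase.mpr ⟨hne, he'⟩
    have h0 : (∏ μ ∈ S.erase e, (X - C μ)).eval e' = 0 := by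
      rw [eval_prod]
      exact Finset.prod_eq_zero hmem (by simp)
    simp only [p, eval_mul, h0, mul_zero]
  have hmemS : ∀ i, ((hA.eigenvalues i : ℝ) : ℂ) ∈ S := fun i =>
    Finset.mem_image.mpr ⟨i, Finset.mem_univ _, rfl⟩
  refine ⟨S, p, ?_, ?_⟩
  · have h0 : aeval A (∑ e ∈ S, p e - 1) = 0 := by
      apply aeval_eq_zero hA
      intro i
      rw [eval_sub, eval_finsetSum, eval_one, Finset.sum_eq_single_of_mem _ (hmemS i), hpe,
        sub_self]
      intro e _ hne
      exact hpz e _ (hmemS i) (Ne.symm hne)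
    rw [map_sub, map_sum, map_one] at h0
    exact sub_eq_zero.mp h0
  · intro e
    have h0 : aeval A ((X - C e) * p e) = 0 := by
      apply aeval_eq_zero hA
      intro i
      by_cases hi : ((hA.eigenvalues i : ℝ) : ℂ) = e
      · simp [hi]
      · rw [eval_mul, hpz e _ (hmemS i) hi, mul_zero]
    have h1 : aeval A ((X - C e) * p e) = A * aeval A (p e) - e • aeval A (p e) := by
      simp [sub_mul, Algebra.smul_def]
    rw [h1] at h0
    exact sub_eq_zero.mp h0

end spec

variable {Λ : Type} [Fintype Λ] [DecidableEq Λ] {q : ℕ}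

theorem mat_zero (A : Finset Λ) : mat A (0 : (Λ → Fin q) → ℂ) = 0 := by
  ext α β
  simp [mat]

theorem mat_add (A : Finset Λ) (x y : (Λ → Fin q) → ℂ) : mat A (x + y) = mat A x + mat A y := by
  ext α β
  simp [mat]

theorem mat_smul (A : Finset Λ) (c : ℂ) (x : (Λ → Fin q) → ℂ) : mat A (c • x) = c • mat A x := by
  ext α β
  simp [mat]

theorem rank_smul_le' {m n : Type} [Fintype m] [Fintype n] [DecidableEq m] (c : ℂ)
    (M : Matrix m n ℂ) : (c • M).rank ≤ M.rank := by
  have h : c • M = (c • (1 : Matrix m m ℂ)) * M := by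
    rw [Matrix.smul_mul, Matrix.one_mul]
  rw [h]
  exact Matrix.rank_mul_le_right _ _

/-- Schmidt rank bound: if the `E0`-eigenspace of `HA + HB + K` lies in the span of `m` vectors,
every `E0`-eigenvector has Schmidt rank at most `m q ^ (2 |N|)` across `A`. -/
theorem rank_bound_deg (A N : Finset Λ) (HA HB K : Matrix (Λ → Fin q) (Λ → Fin q) ℂ)
    (hHA : HA.IsHermitian) (hHB : HB.IsHermitian) (hK : K.IsHermitian)
    (aA : ActsOn A HA) (aB : ActsOn Aᶜ HB) (aK : ActsOn N K)
    (c1 : Commute HA K) (c2 : Commute HB K) (c3 : Commute HA HB)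
    (E0 : ℂ) (m : ℕ) (w : Fin m → (Λ → Fin q) → ℂ)
    (hspan : ∀ v, (HA + HB + K) *ᵥ v = E0 • v → ∃ c : Fin m → ℂ, v = ∑ i, c i • w i)
    (Ω : (Λ → Fin q) → ℂ) (hΩ : (HA + HB + K) *ᵥ Ω = E0 • Ω) :
    (mat A Ω).rank ≤ m * q ^ (2 * N.card) := by
  classical
  obtain ⟨SA, pA, hsA, heA⟩ := exists_family hHA
  obtain ⟨SB, pB, hsB, heB⟩ := exists_family hHB
  obtain ⟨SK, pK, hsK, heK⟩ := exists_family hK
  have hHP : ∀ a b k : ℂ, (HA + HB + K) * (aeval K (pK k) * (aeval HA (pA a) * aeval HB (pB b)))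
      = (a + b + k) • (aeval K (pK k) * (aeval HA (pA a) * aeval HB (pB b))) := by
    intro a b k
    have h1 : HA * (aeval K (pK k) * (aeval HA (pA a) * aeval HB (pB b)))
        = a • (aeval K (pK k) * (aeval HA (pA a) * aeval HB (pB b))) := by
      have cT : Commute HA (aeval K (pK k)) := commute_aeval c1 (pK k)
      calc HA * (aeval K (pK k) * (aeval HA (pA a) * aeval HB (pB b)))
          = aeval K (pK k) * ((HA * aeval HA (pA a)) * aeval HB (pB b)) := by
            rw [← mul_assoc, cT.eq, mul_assoc, mul_assoc]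
        _ = a • (aeval K (pK k) * (aeval HA (pA a) * aeval HB (pB b))) := by
            rw [heA, Matrix.smul_mul, Matrix.mul_smul]
    have h2 : HB * (aeval K (pK k) * (aeval HA (pA a) * aeval HB (pB b)))
        = b • (aeval K (pK k) * (aeval HA (pA a) * aeval HB (pB b))) := by
      have cT : Commute HB (aeval K (pK k)) := commute_aeval c2 (pK k)
      have cPA : Commute HB (aeval HA (pA a)) := commute_aeval c3.symm (pA a)
      calc HB * (aeval K (pK k) * (aeval HA (pA a) * aeval HB (pB b)))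
          = aeval K (pK k) * (aeval HA (pA a) * (HB * aeval HB (pB b))) := by
            rw [← mul_assoc, cT.eq, mul_assoc, ← mul_assoc HB, cPA.eq, mul_assoc]
        _ = b • (aeval K (pK k) * (aeval HA (pA a) * aeval HB (pB b))) := by
            rw [heB, Matrix.mul_smul, Matrix.mul_smul]
    have h3 : K * (aeval K (pK k) * (aeval HA (pA a) * aeval HB (pB b)))
        = k • (aeval K (pK k) * (aeval HA (pA a) * aeval HB (pB b))) := by
      rw [← mul_assoc, heK, Matrix.smul_mul]
    rw [add_mul, add_mul, h1, h2, h3, add_smul, add_smul]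
  have cHK : Commute (HA + HB + K) K := (c1.add_left c2).add_left (Commute.refl K)
  have cHA : Commute (HA + HB + K) HA := ((Commute.refl HA).add_left c3.symm).add_left c1.symm
  have cHB : Commute (HA + HB + K) HB := (c3.add_left (Commute.refl HB)).add_left c2.symm
  have hPH : ∀ a b k : ℂ, Commute (HA + HB + K)
      (aeval K (pK k) * (aeval HA (pA a) * aeval HB (pB b))) := fun a b k =>
    (commute_aeval cHK (pK k)).mul_right
      ((commute_aeval cHA (pA a)).mul_right (commute_aeval cHB (pB b)))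
  have hcol : ∀ (M P : Matrix (Λ → Fin q) (Λ → Fin q) ℂ) (σ0 : Λ → Fin q),
      M *ᵥ (fun τ => P τ σ0) = fun τ => (M * P) τ σ0 := by
    intro M P σ0
    funext τ
    simp [Matrix.mulVec, dotProduct, Matrix.mul_apply]
  let S : Set ((Λ → Fin q) → ℂ) := {x | ∃ (a b k : ℂ) (σ0 : Λ → Fin q), a + b + k = E0 ∧
    x = fun τ => (aeval K (pK k) * (aeval HA (pA a) * aeval HB (pB b))) τ σ0}
  have hSeig : ∀ x ∈ S, (HA + HB + K) *ᵥ x = E0 • x := by
    rintro x ⟨a, b, k, σ0, hsum, rfl⟩
    rw [hcol, hHP, hsum]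
    funext τ
    simp
  have hSrank : ∀ x ∈ S, (mat A x).rank ≤ q ^ (2 * N.card) := by
    rintro x ⟨a, b, k, σ0, -, rfl⟩
    have aPA : ActsOn A (aeval HA (pA a)) := actsOn_aeval aA (pA a)
    have aPB : ActsOn Aᶜ (aeval HB (pB b)) := actsOn_aeval aB (pB b)
    have aT : ActsOn N (aeval K (pK k)) := actsOn_aeval aK (pK k)
    obtain ⟨f, g, hfg⟩ := prod_structure A aPA aPB σ0
    rw [← hcol]
    exact rank_prod A N aT σ0 _ f g hfg
  have hres : ∑ a ∈ SA, ∑ b ∈ SB, ∑ k ∈ SK,
      aeval K (pK k) * (aeval HA (pA a) * aeval HB (pB b)) = 1 := by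
    simp_rw [← Finset.sum_mul, hsK, one_mul, ← Finset.mul_sum, hsB, mul_one, hsA]
  have hΩS : Ω ∈ Submodule.span ℂ S := by
    have h1 : Ω = ∑ a ∈ SA, ∑ b ∈ SB, ∑ k ∈ SK,
        (aeval K (pK k) * (aeval HA (pA a) * aeval HB (pB b))) *ᵥ Ω := by
      conv_lhs => rw [← Matrix.one_mulVec Ω, ← hres]
      simp only [Matrix.sum_mulVec]
    rw [h1]
    refine Submodule.sum_mem _ fun a _ => Submodule.sum_mem _ fun b _ =>
      Submodule.sum_mem _ fun k _ => ?_
    by_cases hs : a + b + k = E0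
    · have h2 : (aeval K (pK k) * (aeval HA (pA a) * aeval HB (pB b))) *ᵥ Ω
          = ∑ σ, Ω σ • (fun τ => (aeval K (pK k) * (aeval HA (pA a) * aeval HB (pB b))) τ σ) := by
        funext τ
        simp [Matrix.mulVec, dotProduct, mul_comm]
      rw [h2]
      exact Submodule.sum_mem _ fun σ _ =>
        Submodule.smul_mem _ _ (Submodule.subset_span ⟨a, b, k, σ, hs, rfl⟩)
    · have h3 : (HA + HB + K) *ᵥ ((aeval K (pK k) * (aeval HA (pA a) * aeval HB (pB b))) *ᵥ Ω)
          = (a + b + k) • ((aeval K (pK k) * (aeval HA (pA a) * aeval HB (pB b))) *ᵥ Ω) := by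
        rw [Matrix.mulVec_mulVec, hHP, Matrix.smul_mulVec]
      have h4 : (HA + HB + K) *ᵥ ((aeval K (pK k) * (aeval HA (pA a) * aeval HB (pB b))) *ᵥ Ω)
          = E0 • ((aeval K (pK k) * (aeval HA (pA a) * aeval HB (pB b))) *ᵥ Ω) := by
        rw [Matrix.mulVec_mulVec, (hPH a b k).eq, ← Matrix.mulVec_mulVec, hΩ, Matrix.mulVec_smul]
      have h5 : (a + b + k - E0) •
          ((aeval K (pK k) * (aeval HA (pA a) * aeval HB (pB b))) *ᵥ Ω) = 0 := by
        rw [sub_smul, ← h3, ← h4, sub_self]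
      rcases smul_eq_zero.mp h5 with h | h
      · exact absurd (sub_eq_zero.mp h) hs
      · rw [h]
        exact Submodule.zero_mem _
  have hdim : Module.finrank ℂ (Submodule.span ℂ S) ≤ m := by
    have hle : Submodule.span ℂ S ≤ Submodule.span ℂ (Set.range w) := by
      apply Submodule.span_le.mpr
      intro x hx
      obtain ⟨c, hc⟩ := hspan x (hSeig x hx)
      rw [SetLike.mem_coe, hc]
      exact Submodule.sum_mem _ fun i _ =>
        Submodule.smul_mem _ _ (Submodule.subset_span ⟨i, rfl⟩)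
    calc Module.finrank ℂ (Submodule.span ℂ S)
        ≤ Module.finrank ℂ (Submodule.span ℂ (Set.range w)) := Submodule.finrank_mono hle
      _ ≤ Fintype.card (Fin m) := finrank_range_le_card w
      _ = m := Fintype.card_fin m
  exact cost_le (fun x => (mat A x).rank) (by simp [mat_zero])
    (fun x y => by rw [mat_add]; exact rank_add_le' _ _)
    (fun c x => by rw [mat_smul]; exact rank_smul_le' c _) S _ m hSrank hdim Ω hΩS

/-- Entropy bound: `S(A) ≤ log m + 2 |N| log q`. -/
theorem entropy_bound_deg (A N : Finset Λ) (HA HB K : Matrix (Λ → Fin q) (Λ → Fin q) ℂ)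
    (hHA : HA.IsHermitian) (hHB : HB.IsHermitian) (hK : K.IsHermitian)
    (aA : ActsOn A HA) (aB : ActsOn Aᶜ HB) (aK : ActsOn N K)
    (c1 : Commute HA K) (c2 : Commute HB K) (c3 : Commute HA HB)
    (E0 : ℂ) (m : ℕ) (w : Fin m → (Λ → Fin q) → ℂ)
    (hspan : ∀ v, (HA + HB + K) *ᵥ v = E0 • v → ∃ c : Fin m → ℂ, v = ∑ i, c i • w i)
    (Ω : (Λ → Fin q) → ℂ) (hΩ : (HA + HB + K) *ᵥ Ω = E0 • Ω)
    (hnorm : ∑ σ, Complex.normSq (Ω σ) = 1) :
    entropy (reduced A Ω) ≤ Real.log m + 2 * (N.card : ℝ) * Real.log q := by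
  have h1 := rank_bound_deg A N HA HB K hHA hHB hK aA aB aK c1 c2 c3 E0 m w hspan Ω hΩ
  have h2 := entropy_le_log (mat A Ω) (trace_reduced A Ω hnorm) _ h1
  rw [reduced_eq]
  refine le_trans h2 ?_
  have hlm : 0 ≤ Real.log (m : ℝ) := Real.log_natCast_nonneg m
  have hlq : 0 ≤ Real.log (q : ℝ) := Real.log_natCast_nonneg q
  have hN : (0 : ℝ) ≤ 2 * (N.card : ℝ) * Real.log q := by positivity
  push_cast
  by_cases hm : (m : ℝ) = 0
  · rw [hm, zero_mul, Real.log_zero]
    linarith
  · by_cases hq : ((q : ℝ) ^ (2 * N.card)) = 0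
    · rw [hq, mul_zero, Real.log_zero]
      linarith
    · rw [Real.log_mul hm hq, Real.log_pow]
      push_cast
      exact le_refl _

end Vale.Agent.Helper7.AreaDeg
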