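import Mathlib
import Vale.Agent.Helper7.AreaDefs

/-! Lattice geometry for the area law (P356): sites of crossing sets are near boundary edges. -/

namespace Vale.Agent.Helper7.AreaGeom

open Vale.Agent.Helper7.AreaDefs

variable {L : ℕ}

theorem dist1_self (x : Fin L × Fin L) : dist1 x x = 0 := by
  simp [dist1]

theorem dist1_comm (x y : Fin L × Fin L) : dist1 x y = dist1 y x := by
  simp [dist1, Nat.dist_comm]

theorem dist1_triangle (x y z : Fin L × Fin L) : dist1 x z ≤ dist1 x y + dist1 y z := by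
  unfold dist1 Nat.dist
  omega

theorem eq_of_dist1_eq_zero {x y : Fin L × Fin L} (h : dist1 x y = 0) : x = y := by
  unfold dist1 Nat.dist at h
  apply Prod.ext <;> apply Fin.ext <;> omega

/-- A site different from `y` has a neighbour which is closer to `y`. -/
theorem exists_closer {x y : Fin L × Fin L} (h : x ≠ y) :
    ∃ z : Fin L × Fin L, dist1 x z = 1 ∧ dist1 z y + 1 = dist1 x y := by
  by_cases h1 : (x.1 : ℕ) = y.1
  · have h2 : (x.2 : ℕ) ≠ y.2 := by
      intro h2
      exact h (Prod.ext (Fin.ext h1) (Fin.ext h2))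
    rcases Nat.lt_or_gt_of_ne h2 with h3 | h3
    · refine ⟨(x.1, ⟨x.2 + 1, by omega⟩), ?_, ?_⟩ <;> simp only [dist1, Nat.dist] <;> omega
    · refine ⟨(x.1, ⟨x.2 - 1, by omega⟩), ?_, ?_⟩ <;> simp only [dist1, Nat.dist] <;> omega
  · rcases Nat.lt_or_gt_of_ne h1 with h3 | h3
    · refine ⟨(⟨x.1 + 1, by omega⟩, x.2), ?_, ?_⟩ <;> simp only [dist1, Nat.dist] <;> omega
    · refine ⟨(⟨x.1 - 1, by omega⟩, x.2), ?_, ?_⟩ <;> simp only [dist1, Nat.dist] <;> omega

/-- On the way from a site with property `P` to a site without it one meets an adjacent pair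
`(a, b)` with `P a` and `¬ P b`, and `a` is no further from the start than the end. -/
theorem exists_edge (P : Fin L × Fin L → Prop) (d : ℕ) :
    ∀ x y : Fin L × Fin L, P x → ¬ P y → dist1 x y ≤ d →
      ∃ a b : Fin L × Fin L, P a ∧ ¬ P b ∧ dist1 a b = 1 ∧ dist1 x a ≤ d ∧ dist1 x b ≤ d := by
  induction d with
  | zero =>
    intro x y hx hy hd
    have : x = y := eq_of_dist1_eq_zero (Nat.le_zero.mp hd)
    exact absurd (this ▸ hx) hy
  | succ d ih =>
    intro x y hx hy hd
    have hne : x ≠ y := fun e => hy (e ▸ hx)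
    obtain ⟨z, hz1, hz2⟩ := exists_closer hne
    by_cases hz : P z
    · obtain ⟨a, b, ha, hb, hab, hza, hzb⟩ := ih z y hz hy (by omega)
      refine ⟨a, b, ha, hb, hab, ?_, ?_⟩
      · have := dist1_triangle x z a
        omega
      · have := dist1_triangle x z b
        omega
    · refine ⟨x, z, hx, hz, hz1, ?_, ?_⟩
      · rw [dist1_self]; omega
      · omega

/-- The box of radius `r` around a site. -/
def box (z : Fin L × Fin L) (r : ℕ) : Finset (Fin L × Fin L) :=
  Finset.univ.filter fun x => dist1 x z ≤ r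

/-- The coordinates within `r` of `c`. -/
def seg (c : Fin L) (r : ℕ) : Finset (Fin L) :=
  Finset.univ.filter fun i : Fin L => (c : ℕ) ≤ (i : ℕ) + r ∧ (i : ℕ) ≤ (c : ℕ) + r

theorem card_seg_le (c : Fin L) (r : ℕ) : (seg c r).card ≤ 2 * r + 1 := by
  have hinj : Set.InjOn (fun i : Fin L => (i : ℕ) + r - (c : ℕ)) (seg c r : Set (Fin L)) := by
    intro i hi j hj hij
    have hi' : (c : ℕ) ≤ (i : ℕ) + r ∧ (i : ℕ) ≤ (c : ℕ) + r := by
      have := Finset.mem_coe.mp hi
      simpa [seg] using this
    have hj' : (c : ℕ) ≤ (j : ℕ) + r ∧ (j : ℕ) ≤ (c : ℕ) + r := by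
      have := Finset.mem_coe.mp hj
      simpa [seg] using this
    apply Fin.ext
    simp only at hij
    omega
  have hmaps : ∀ i ∈ seg c r,
      (fun i : Fin L => (i : ℕ) + r - (c : ℕ)) i ∈ Finset.range (2 * r + 1) := by
    intro i hi
    have hi' : (c : ℕ) ≤ (i : ℕ) + r ∧ (i : ℕ) ≤ (c : ℕ) + r := by simpa [seg] using hi
    simp only [Finset.mem_range]
    omega
  have := Finset.card_le_card_of_injOn _ hmaps hinj
  simpa using this

theorem card_box_le (z : Fin L × Fin L) (r : ℕ) : (box z r).card ≤ (2 * r + 1) ^ 2 := by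
  classical
  have hsub : box z r ⊆ seg z.1 r ×ˢ seg z.2 r := by
    intro x hx
    simp only [box, Finset.mem_filter, Finset.mem_univ, true_and] at hx
    simp only [Finset.mem_product, seg, Finset.mem_filter, Finset.mem_univ, true_and]
    unfold dist1 Nat.dist at hx
    omega
  calc (box z r).card ≤ (seg z.1 r ×ˢ seg z.2 r).card := Finset.card_le_card hsub
    _ = (seg z.1 r).card * (seg z.2 r).card := Finset.card_product _ _
    _ ≤ (2 * r + 1) * (2 * r + 1) := Nat.mul_le_mul (card_seg_le z.1 r) (card_seg_le z.2 r)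
    _ = (2 * r + 1) ^ 2 := by ring

/-- If every point of `N` lies in a set of `ℓ¹`-diameter at most `R` meeting both `A` and its
complement, then `N` has at most `2 (2R+1)² |∂A|` points. -/
theorem card_le_boundary (A N : Finset (Fin L × Fin L)) (R : ℕ)
    (hN : ∀ x ∈ N, ∃ u w : Fin L × Fin L, u ∈ A ∧ w ∉ A ∧ dist1 x u ≤ R ∧ dist1 x w ≤ R) :
    N.card ≤ 2 * (2 * R + 1) ^ 2 * (boundary A).card := by
  classical
  have hsub : N ⊆ (boundary A).biUnion fun p => box p.1 R ∪ box p.2 R := by
    intro x hx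
    obtain ⟨u, w, hu, hw, hxu, hxw⟩ := hN x hx
    simp only [Finset.mem_biUnion, Finset.mem_union, box, Finset.mem_filter, Finset.mem_univ,
      true_and]
    by_cases hxA : x ∈ A
    · obtain ⟨a, b, ha, hb, hab, hxa, -⟩ := exists_edge (fun s => s ∈ A) R x w hxA hw hxw
      refine ⟨(a, b), ?_, Or.inl ?_⟩
      · simp only [boundary, Finset.mem_filter, Finset.mem_univ, true_and]
        exact ⟨ha, hb, hab⟩
      · exact hxa
    · obtain ⟨a, b, ha, hb, hab, hxa, -⟩ := exists_edge (fun s => s ∉ A) R x u hxA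
        (by simpa using hu) hxu
      refine ⟨(b, a), ?_, Or.inr ?_⟩
      · simp only [boundary, Finset.mem_filter, Finset.mem_univ, true_and]
        refine ⟨by simpa using hb, ha, ?_⟩
        rw [dist1_comm]; exact hab
      · exact hxa
  calc N.card ≤ ((boundary A).biUnion fun p => box p.1 R ∪ box p.2 R).card :=
        Finset.card_le_card hsub
    _ ≤ ∑ p ∈ boundary A, (box p.1 R ∪ box p.2 R).card := Finset.card_biUnion_le
    _ ≤ ∑ _p ∈ boundary A, 2 * (2 * R + 1) ^ 2 := by
        apply Finset.sum_le_sum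
        intro p _
        have h1 := card_box_le p.1 R
        have h2 := card_box_le p.2 R
        have h3 := Finset.card_union_le (box p.1 R) (box p.2 R)
        omega
    _ = 2 * (2 * R + 1) ^ 2 * (boundary A).card := by
        rw [Finset.sum_const, smul_eq_mul, mul_comm]

end Vale.Agent.Helper7.AreaGeom
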