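import Mathlib

namespace Vale.Agent.Helper7.Pointer

open Finset

variable {k : ℕ}

theorem iter_le (p : Fin k → Fin k) (hp : ∀ x, p x ≤ x) (j : ℕ) (x : Fin k) : p^[j] x ≤ x := by
  induction j generalizing x with
  | zero => simp
  | succ j ih =>
    rw [Function.iterate_succ_apply]
    exact (ih (p x)).trans (hp x)

theorem iter_fixed (p : Fin k → Fin k) (hp : ∀ x, p x ≤ x) (x : Fin k) :
    p (p^[k] x) = p^[k] x := by
  have key : ∀ j, ((p^[j] x : Fin k) : ℕ) + j ≤ x ∨ p (p^[j] x) = p^[j] x := by
    intro j
    induction j with
    | zero => left; simp
    | succ j ih =>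
      rcases ih with h | h
      · by_cases hfix : p (p^[j] x) = p^[j] x
        · right
          rw [Function.iterate_succ_apply', hfix, hfix]
        · left
          rw [Function.iterate_succ_apply']
          have h1 : p (p^[j] x) < p^[j] x := lt_of_le_of_ne (hp _) hfix
          have h2 : ((p (p^[j] x) : Fin k) : ℕ) < (p^[j] x : Fin k) := h1
          omega
      · right
        rw [Function.iterate_succ_apply', h, h]
  rcases key k with h | h
  · have := x.2; omega
  · exact h

/-- the root of `x` under a decreasing pointer function -/
def root (p : Fin k → Fin k) (x : Fin k) : Fin k := p^[k] x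

theorem root_fixed {p : Fin k → Fin k} (hp : ∀ x, p x ≤ x) (x : Fin k) :
    p (root p x) = root p x := iter_fixed p hp x

theorem root_le {p : Fin k → Fin k} (hp : ∀ x, p x ≤ x) (x : Fin k) : root p x ≤ x :=
  iter_le p hp k x

theorem root_comp {p : Fin k → Fin k} (hp : ∀ x, p x ≤ x) (x : Fin k) :
    root p (p x) = root p x := by
  unfold root
  rw [← Function.iterate_succ_apply, Function.iterate_succ_apply', iter_fixed p hp x]

theorem root_of_fixed {p : Fin k → Fin k} {x : Fin k} (h : p x = x) : root p x = x :=
  Function.iterate_fixed h k

theorem root_idem {p : Fin k → Fin k} (hp : ∀ x, p x ≤ x) (x : Fin k) :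
    root p (root p x) = root p x := root_of_fixed (root_fixed hp x)

theorem fixed_iff {p : Fin k → Fin k} (hp : ∀ x, p x ≤ x) (x : Fin k) :
    p x = x ↔ ∀ z, root p z = root p x → x ≤ z := by
  constructor
  · intro h z hz
    rw [root_of_fixed h] at hz
    rw [← hz]; exact root_le hp z
  · intro h
    have h1 := h (root p x) (root_idem hp x)
    have h2 := root_le hp x
    have h3 : root p x = x := le_antisymm h2 h1
    have h4 := root_fixed hp x
    rw [h3] at h4
    exact h4

theorem rel_iter {E : Fin k → Fin k → Prop} (hE : Equivalence E) (p : Fin k → Fin k)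
    (h : ∀ x, E (p x) x) (j : ℕ) (x : Fin k) : E (p^[j] x) x := by
  induction j generalizing x with
  | zero => exact hE.refl x
  | succ j ih =>
    rw [Function.iterate_succ_apply]
    exact hE.trans (ih (p x)) (h x)

theorem sub_iff {E : Fin k → Fin k → Prop} (hE : Equivalence E) {p : Fin k → Fin k}
    (hp : ∀ x, p x ≤ x) :
    (∀ x, E (p x) x) ↔ (∀ x y, root p x = root p y → E x y) := by
  constructor
  · intro h x y hxy
    have h1 : E (root p x) x := rel_iter hE p h k x
    have h2 : E (root p y) y := rel_iter hE p h k y
    rw [hxy] at h1
    exact hE.trans (hE.symm h1) h2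
  · intro h x
    exact h _ _ (root_comp hp x)


open Classical in
theorem expand_sum {K : Type*} [Field K] (E : Fin k → Fin k → Prop) (hE : Equivalence E)
    (g : Fin k → Fin k) :
    (∑ p ∈ Fintype.piFinset (fun x : Fin k => Finset.Iic x),
        (∏ x, (if p x = x then (1:K) else -1)) * (if (∀ x, E (p x) x) then 1 else 0)
          * (if (∀ x, g (p x) = g x) then 1 else 0))
      = if (∀ x x', g x = g x' → E x x' → x = x') then 1 else 0 := by
  have h1 : ∀ p : Fin k → Fin k,
      (∏ x, (if p x = x then (1:K) else -1)) * (if (∀ x, E (p x) x) then 1 else 0)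
          * (if (∀ x, g (p x) = g x) then 1 else 0)
      = ∏ x, ((if p x = x then (1:K) else -1) * (if E (p x) x then 1 else 0)
          * (if g (p x) = g x then 1 else 0)) := by
    intro p
    rw [Finset.prod_mul_distrib, Finset.prod_mul_distrib, Finset.prod_boole, Finset.prod_boole]
    simp
  simp_rw [h1]
  rw [← Finset.prod_univ_sum (fun x : Fin k => Finset.Iic x)
    (fun x z => (if z = x then (1:K) else -1) * (if E z x then 1 else 0)
      * (if g z = g x then 1 else 0))]
  have h2 : ∀ x : Fin k,
      (∑ z ∈ Finset.Iic x, (if z = x then (1:K) else -1) * (if E z x then 1 else 0)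
          * (if g z = g x then 1 else 0))
      = 1 - ((Finset.univ.filter (fun z => z < x ∧ E z x ∧ g z = g x)).card : K) := by
    intro x
    have hI : Finset.Iic x = insert x (Finset.Iio x) := by
      ext z; simp [le_iff_lt_or_eq, or_comm]
    rw [hI, Finset.sum_insert (by simp)]
    have hx := hE.refl x
    simp only [if_true, hx, mul_one]
    have h3 : ∑ z ∈ Finset.Iio x, (if z = x then (1:K) else -1) * (if E z x then 1 else 0)
          * (if g z = g x then 1 else 0)
        = ∑ z ∈ Finset.Iio x, (if (E z x ∧ g z = g x) then (-1:K) else 0) := by
      apply Finset.sum_congr rfl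
      intro z hz
      have hne : z ≠ x := ne_of_lt (Finset.mem_Iio.mp hz)
      by_cases h1 : E z x <;> by_cases h2 : g z = g x <;> simp [hne, h1, h2]
    rw [h3, ← Finset.sum_filter, Finset.sum_const]
    have h4 : (Finset.Iio x).filter (fun z => E z x ∧ g z = g x)
        = Finset.univ.filter (fun z => z < x ∧ E z x ∧ g z = g x) := by
      ext z; simp
    rw [h4]
    simp [sub_eq_add_neg]
  simp_rw [h2]
  by_cases horth : ∀ x x', g x = g x' → E x x' → x = x'
  · rw [if_pos horth]
    apply Finset.prod_eq_one
    intro x _
    have : Finset.univ.filter (fun z => z < x ∧ E z x ∧ g z = g x) = ∅ := by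
      apply Finset.filter_eq_empty_iff.mpr
      intro z _ hz
      exact (ne_of_lt hz.1) (horth z x hz.2.2 hz.2.1)
    rw [this]; simp
  · rw [if_neg horth]
    -- the set of x having a smaller mate is nonempty
    have hex : ∃ x : Fin k, ∃ z, z < x ∧ E z x ∧ g z = g x := by
      by_contra hcon
      apply horth
      intro x x' hg hEx
      by_contra hne
      rcases lt_or_gt_of_ne hne with hlt | hlt
      · exact hcon ⟨x', x, hlt, hEx, hg⟩
      · exact hcon ⟨x, x', hlt, hE.symm hEx, hg.symm⟩
    -- take x minimal
    obtain ⟨x, hxmem, hxmin⟩ := Finset.exists_minimal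
      (s := Finset.univ.filter (fun x : Fin k => ∃ z, z < x ∧ E z x ∧ g z = g x))
      (by obtain ⟨x, hx⟩ := hex; exact ⟨x, by simp [hx]⟩)
    apply Finset.prod_eq_zero (Finset.mem_univ x)
    obtain ⟨z0, hz0, hz0E, hz0g⟩ := (Finset.mem_filter.mp hxmem).2
    have hcard : (Finset.univ.filter (fun z => z < x ∧ E z x ∧ g z = g x)) = {z0} := by
      ext z
      simp only [Finset.mem_filter, Finset.mem_univ, true_and, Finset.mem_singleton]
      constructor
      · rintro ⟨hz, hzE, hzg⟩
        by_contra hne
        rcases lt_or_gt_of_ne hne with hlt | hlt
        · have hmem : z0 ∈ Finset.univ.filter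
              (fun x : Fin k => ∃ z, z < x ∧ E z x ∧ g z = g x) := by
            simp only [Finset.mem_filter, Finset.mem_univ, true_and]
            exact ⟨z, hlt, hE.trans hzE (hE.symm hz0E), hzg.trans hz0g.symm⟩
          have := hxmin hmem (le_of_lt hz0)
          exact absurd hz0 (not_lt_of_ge this)
        · have hmem : z ∈ Finset.univ.filter
              (fun x : Fin k => ∃ z, z < x ∧ E z x ∧ g z = g x) := by
            simp only [Finset.mem_filter, Finset.mem_univ, true_and]
            exact ⟨z0, hlt, hE.trans hz0E (hE.symm hzE), hz0g.trans hzg.symm⟩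
          have := hxmin hmem (le_of_lt hz)
          exact absurd hz (not_lt_of_ge this)
      · rintro rfl; exact ⟨hz0, hz0E, hz0g⟩
    rw [hcard]; simp

open Classical in
theorem nonsing {K : Type*} [Field K] [CharZero K] {ι : Type*} (s : Finset ι)
    (E : ι → Fin k → Fin k → Prop) (hE : ∀ i ∈ s, Equivalence (E i))
    (hinj : ∀ i ∈ s, ∀ j ∈ s, (∀ x y, E i x y ↔ E j x y) → i = j)
    (y : ι → K) (β : (Fin k → Fin k) → K) (hβ : ∀ g, β g ≠ 0)
    (N : ι → (Fin k → Fin k) → K)
    (h1 : ∀ i ∈ s, ∀ g, (∀ x x', g x = g x' → E i x x' → x = x') → N i g = y i * β g)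
    (h0 : ∀ i ∈ s, ∀ g, ¬(∀ x x', g x = g x' → E i x x' → x = x') → N i g = 0)
    (h : ∀ g, ∑ i ∈ s, N i g = 0) : ∀ i ∈ s, y i = 0 := by
  have hA : ∀ g : Fin k → Fin k, ∑ i ∈ s,
      y i * (if (∀ x x', g x = g x' → E i x x' → x = x') then (1:K) else 0) = 0 := by
    intro g
    have hg := h g
    have h2 : ∑ i ∈ s, N i g = (∑ i ∈ s,
        y i * (if (∀ x x', g x = g x' → E i x x' → x = x') then (1:K) else 0)) * β g := by
      rw [Finset.sum_mul]
      apply Finset.sum_congr rfl
      intro i hi
      by_cases ho : ∀ x x', g x = g x' → E i x x' → x = x'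
      · rw [h1 i hi g ho, if_pos ho, mul_one]
      · rw [h0 i hi g ho, if_neg ho, mul_zero, zero_mul]
    rw [h2] at hg
    exact (mul_eq_zero.mp hg).resolve_right (hβ g)
  set P := Fintype.piFinset (fun x : Fin k => Finset.Iic x) with hP
  set U : (Fin k → Fin k) → K := fun p => ∑ i ∈ s, if (∀ x, E i (p x) x) then y i else 0 with hU
  set sg : (Fin k → Fin k) → K := fun p => ∏ x, (if p x = x then (1:K) else -1) with hsg
  have hB : ∀ g : Fin k → Fin k,
      ∑ p ∈ P, sg p * (if (∀ x, g (p x) = g x) then U p else 0) = 0 := by
    intro g
    have hg := hA g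
    have h2 : ∑ i ∈ s, y i * (if (∀ x x', g x = g x' → E i x x' → x = x') then (1:K) else 0)
        = ∑ i ∈ s, y i * ∑ p ∈ P, sg p * (if (∀ x, E i (p x) x) then 1 else 0)
            * (if (∀ x, g (p x) = g x) then 1 else 0) := by
      apply Finset.sum_congr rfl
      intro i hi
      rw [expand_sum (E i) (hE i hi) g]
    rw [h2] at hg
    refine Eq.trans ?_ hg
    have h3 : ∀ i ∈ s, y i * ∑ p ∈ P, sg p * (if (∀ x, E i (p x) x) then 1 else 0)
            * (if (∀ x, g (p x) = g x) then 1 else 0)
        = ∑ p ∈ P, y i * (sg p * (if (∀ x, E i (p x) x) then 1 else 0)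
            * (if (∀ x, g (p x) = g x) then 1 else 0)) := fun i _ => Finset.mul_sum _ _ _
    rw [Finset.sum_congr rfl h3, Finset.sum_comm]
    apply Finset.sum_congr rfl
    intro p _
    by_cases hc : ∀ x, g (p x) = g x
    · simp only [if_pos hc, mul_one]
      change sg p * (∑ i ∈ s, if (∀ x, E i (p x) x) then y i else 0) = _
      rw [Finset.mul_sum]
      apply Finset.sum_congr rfl
      intro i _
      by_cases he : ∀ x, E i (p x) x
      · simp only [if_pos he]; ring
      · simp only [if_neg he]; ring
    · simp only [if_neg hc, mul_zero, Finset.sum_const_zero]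
  have hp_of_mem : ∀ p ∈ P, ∀ x, p x ≤ x := by
    intro p hp x
    have := (Fintype.mem_piFinset.mp hp) x
    exact Finset.mem_Iic.mp this
  have hC : ∀ n : ℕ, ∀ p ∈ P,
      (Finset.univ.filter (fun q : Fin k × Fin k => root p q.1 = root p q.2)).card = n →
        U p = 0 := by
    intro n
    induction n using Nat.strong_induction_on with
    | _ n ih =>
      intro p0 hp0 hn
      have hp0' := hp_of_mem p0 hp0
      have hsum := hB (root p0)
      have hterm : ∀ p ∈ P, sg p * (if (∀ x, root p0 (p x) = root p0 x) then U p else 0)
          = if (∀ x y, root p x = root p y ↔ root p0 x = root p0 y)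
              then sg p0 * U p0 else 0 := by
        intro p hp
        have hp' := hp_of_mem p hp
        by_cases heq : ∀ x y, root p x = root p y ↔ root p0 x = root p0 y
        · rw [if_pos heq]
          have hc : ∀ x, root p0 (p x) = root p0 x := fun x => (heq _ _).mp (root_comp hp' x)
          rw [if_pos hc]
          have hs : sg p = sg p0 := by
            rw [hsg]
            apply Finset.prod_congr rfl
            intro x _
            have : p x = x ↔ p0 x = x := by
              rw [fixed_iff hp' x, fixed_iff hp0' x]
              constructor
              · intro h z hz; exact h z ((heq _ _).mpr hz)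
              · intro h z hz; exact h z ((heq _ _).mp hz)
            simp only [this]
          have hu : U p = U p0 := by
            rw [hU]
            apply Finset.sum_congr rfl
            intro i hi
            have : (∀ x, E i (p x) x) ↔ (∀ x, E i (p0 x) x) := by
              rw [sub_iff (hE i hi) hp', sub_iff (hE i hi) hp0']
              constructor
              · intro h x y hxy; exact h x y ((heq _ _).mpr hxy)
              · intro h x y hxy; exact h x y ((heq _ _).mp hxy)
            simp only [this]
          rw [hs, hu]
        · rw [if_neg heq]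
          by_cases hc : ∀ x, root p0 (p x) = root p0 x
          · rw [if_pos hc]
            have hle : ∀ x y, root p x = root p y → root p0 x = root p0 y := by
              have hEq : Equivalence (fun x y : Fin k => root p0 x = root p0 y) :=
                ⟨fun _ => rfl, fun h => h.symm, fun h1 h2 => h1.trans h2⟩
              exact (sub_iff hEq hp').mp hc
            have hlt : (Finset.univ.filter
                (fun q : Fin k × Fin k => root p q.1 = root p q.2)).card < n := by
              rw [← hn]
              apply Finset.card_lt_card
              rw [Finset.ssubset_iff_of_subset]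
              · by_contra hcon
                push Not at hcon
                apply heq
                intro x y
                refine ⟨hle x y, fun hxy => ?_⟩
                have := hcon (x, y) (by simp [hxy])
                simpa using this
              · intro q hq
                simp only [Finset.mem_filter, Finset.mem_univ, true_and] at hq ⊢
                exact hle _ _ hq
            rw [ih _ hlt p hp rfl, mul_zero]
          · rw [if_neg hc, mul_zero]
      rw [Finset.sum_congr rfl hterm, ← Finset.sum_filter, Finset.sum_const] at hsum
      have hcard : (P.filter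
          (fun p => ∀ x y, root p x = root p y ↔ root p0 x = root p0 y)).card ≠ 0 := by
        apply Finset.card_ne_zero_of_mem (a := p0)
        simp [hp0]
      have hsg0 : sg p0 ≠ 0 := by
        rw [hsg]
        apply Finset.prod_ne_zero_iff.mpr
        intro x _
        split_ifs <;> simp
      rw [nsmul_eq_mul] at hsum
      rcases mul_eq_zero.mp hsum with h | h
      · exact absurd (Nat.cast_eq_zero.mp h) hcard
      · exact (mul_eq_zero.mp h).resolve_left hsg0
  have hD : ∀ n : ℕ, ∀ i ∈ s,
      (Finset.univ.filter (fun q : Fin k × Fin k => ¬ E i q.1 q.2)).card = n → y i = 0 := by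
    intro n
    induction n using Nat.strong_induction_on with
    | _ n ih =>
      intro i0 hi0 hn
      have hE0 := hE i0 hi0
      have hmin : ∀ x : Fin k, ∃ m, E i0 m x ∧ ∀ z, E i0 z x → m ≤ z := by
        intro x
        obtain ⟨m, hm, hmin⟩ := Finset.exists_minimal
          (s := Finset.univ.filter (fun z => E i0 z x)) ⟨x, by simp [hE0.refl x]⟩
        refine ⟨m, (Finset.mem_filter.mp hm).2, fun z hz => ?_⟩
        by_contra hlt
        push Not at hlt
        have := hmin (by simp [hz] : z ∈ Finset.univ.filter (fun z => E i0 z x)) (le_of_lt hlt)
        exact absurd hlt (not_lt_of_ge this)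
      choose m hm1 hm2 using hmin
      have hmP : m ∈ P := by
        rw [hP, Fintype.mem_piFinset]
        intro x
        exact Finset.mem_Iic.mpr (hm2 x x (hE0.refl x))
      have hUm : ∑ i ∈ s, (if (∀ x, E i (m x) x) then y i else 0) = 0 := hC _ m hmP rfl
      have hmeq : ∀ x y, E i0 x y → m x = m y := by
        intro x y hxy
        apply le_antisymm
        · exact hm2 x (m y) (hE0.trans (hm1 y) (hE0.symm hxy))
        · exact hm2 y (m x) (hE0.trans (hm1 x) hxy)
      have hterm : ∀ i ∈ s, (if (∀ x, E i (m x) x) then y i else 0)
          = if i = i0 then y i0 else 0 := by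
        intro i hi
        by_cases hii : i = i0
        · subst hii; rw [if_pos hm1, if_pos rfl]
        · rw [if_neg hii]
          by_cases hc : ∀ x, E i (m x) x
          · rw [if_pos hc]
            have hEi := hE i hi
            have hle : ∀ x y, E i0 x y → E i x y := by
              intro x y hxy
              have hxy' := hmeq x y hxy
              have h1 := hc x
              rw [hxy'] at h1
              exact hEi.trans (hEi.symm h1) (hc y)
            apply ih _ _ i hi rfl
            rw [← hn]
            apply Finset.card_lt_card
            rw [Finset.ssubset_iff_of_subset]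
            · by_contra hcon
              push Not at hcon
              apply hii
              apply hinj i hi i0 hi0
              intro x y
              refine ⟨fun hxy => ?_, hle x y⟩
              by_contra hnot
              have := hcon (x, y) (by simp [hnot])
              simp at this
              exact this hxy
            · intro q hq
              simp only [Finset.mem_filter, Finset.mem_univ, true_and] at hq ⊢
              exact fun h => hq (hle _ _ h)
          · rw [if_neg hc]
      rw [Finset.sum_congr rfl hterm, Finset.sum_ite_eq' s i0, if_pos hi0] at hUm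
      exact hUm
  intro i hi
  exact hD _ i hi rfl

open Classical in
theorem nonsing_top {K : Type*} [Field K] [CharZero K] {ι : Type*} (s : Finset ι)
    (E : ι → Fin k → Fin k → Prop) (hE : ∀ i ∈ s, Equivalence (E i))
    (hinj : ∀ i ∈ s, ∀ j ∈ s, (∀ x y, E i x y ↔ E j x y) → i = j)
    (hnt : ∀ i ∈ s, ¬ ∀ x x', E i x x')
    (y : ι → K) (β : (Fin k → Fin k) → K)
    (hβ : ∀ g, ¬ Function.Injective g → β g ≠ 0)
    (N : ι → (Fin k → Fin k) → K)
    (h1 : ∀ i ∈ s, ∀ g, ¬ Function.Injective g →
      (∀ x x', g x = g x' → E i x x' → x = x') → N i g = y i * β g)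
    (h0 : ∀ i ∈ s, ∀ g, ¬ Function.Injective g →
      ¬(∀ x x', g x = g x' → E i x x' → x = x') → N i g = 0)
    (h : ∀ g, ¬ Function.Injective g → ∑ i ∈ s, N i g = 0) : ∀ i ∈ s, y i = 0 := by
  have key := nonsing (K := K) (Finset.insertNone s)
    (fun o => match o with
      | some i => E i
      | none => fun _ _ => True)
    (by
      intro o ho
      cases o with
      | none => exact ⟨fun _ => trivial, fun _ => trivial, fun _ _ => trivial⟩
      | some i => exact hE i (Finset.some_mem_insertNone.mp ho))
    (by
      intro o ho o' ho' heq
      cases o with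
      | none =>
        cases o' with
        | none => rfl
        | some j =>
          exfalso
          exact hnt j (Finset.some_mem_insertNone.mp ho') (fun x x' => (heq x x').mp trivial)
      | some i =>
        cases o' with
        | none =>
          exfalso
          exact hnt i (Finset.some_mem_insertNone.mp ho) (fun x x' => (heq x x').mpr trivial)
        | some j =>
          rw [hinj i (Finset.some_mem_insertNone.mp ho) j (Finset.some_mem_insertNone.mp ho') heq])
    (fun o => match o with
      | some i => y i
      | none => - ∑ i ∈ s, y i)
    (fun g => if Function.Injective g then 1 else β g)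
    (by
      intro g
      by_cases hg : Function.Injective g
      · rw [if_pos hg]; exact one_ne_zero
      · rw [if_neg hg]; exact hβ g hg)
    (fun o g => match o with
      | some i => if Function.Injective g then y i else N i g
      | none => if Function.Injective g then - ∑ i ∈ s, y i else 0)
    (by
      intro o ho g horth
      cases o with
      | none =>
        have hg : Function.Injective g := fun x x' hxx => horth x x' hxx trivial
        simp only [if_pos hg, mul_one]
      | some i =>
        by_cases hg : Function.Injective g
        · simp only [if_pos hg, mul_one]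
        · simp only [if_neg hg]
          exact h1 i (Finset.some_mem_insertNone.mp ho) g hg horth)
    (by
      intro o ho g horth
      cases o with
      | none =>
        have hg : ¬ Function.Injective g := fun hg => horth (fun x x' hxx _ => hg hxx)
        simp only [if_neg hg]
      | some i =>
        have hg : ¬ Function.Injective g := fun hg => horth (fun x x' hxx _ => hg hxx)
        simp only [if_neg hg]
        exact h0 i (Finset.some_mem_insertNone.mp ho) g hg horth)
    (by
      intro g
      rw [Finset.sum_insertNone]
      by_cases hg : Function.Injective g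
      · simp only [if_pos hg]
        rw [neg_add_cancel]
      · simp only [if_neg hg, zero_add]
        exact h g hg)
  intro i hi
  exact key (some i) (Finset.some_mem_insertNone.mpr hi)


end Vale.Agent.Helper7.Pointer
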