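import Vale.Agent.Helper7.FoulkesDefs
import Vale.Agent.Helper7.Pointer

namespace Vale.Agent.Helper7.FoulkesAux

open Finset Vale.Agent.Helper7.FoulkesDefs

theorem ofFn_val {α : Type*} {n : ℕ} (f : Fin n → α) :
    (ofFn f).1 = Finset.univ.val.map f := rfl

theorem mem_ofFn {α : Type*} {n : ℕ} (f : Fin n → α) (x : α) :
    x ∈ ofFn f ↔ ∃ i, f i = x := by
  change x ∈ (ofFn f).1 ↔ _
  rw [ofFn_val]
  simp

theorem ofFn_surj {α : Type*} {n : ℕ} (s : Sym α n) : ∃ f : Fin n → α, ofFn f = s := by
  obtain ⟨m, hm⟩ := s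
  induction m using Quotient.inductionOn with
  | _ l =>
    have hl : l.length = n := by simpa using hm
    subst hl
    refine ⟨fun i => l.get i, ?_⟩
    apply Subtype.ext
    rw [ofFn_val, Fin.univ_val_map]
    simp

theorem rowsOf_surj {α : Type*} {a b : ℕ} (m : Sym (Sym α b) a) :
    ∃ A : Fin a → Fin b → α, rowsOf A = m := by
  obtain ⟨R, hR⟩ := ofFn_surj m
  choose A hA using fun i => ofFn_surj (R i)
  refine ⟨A, ?_⟩
  rw [← hR]
  unfold rowsOf
  congr 1
  funext i
  exact hA i

theorem ofFn_comp_perm {α : Type*} {n : ℕ} (f : Fin n → α) (π : Equiv.Perm (Fin n)) :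
    ofFn (fun i => f (π i)) = ofFn f := by
  apply Subtype.ext
  rw [ofFn_val, ofFn_val]
  have : (fun i => f (π i)) = f ∘ π := rfl
  rw [this, ← Multiset.map_map, Multiset.map_univ_val_equiv]

theorem ofFn_eq {α : Type*} {n : ℕ} (f g : Fin n → α) (h : ofFn f = ofFn g) :
    ∃ π : Equiv.Perm (Fin n), ∀ i, g i = f (π i) := by
  classical
  have hv : Finset.univ.val.map f = Finset.univ.val.map g := congrArg Subtype.val h
  have hc : ∀ c : α, Fintype.card {i // g i = c} = Fintype.card {i // f i = c} := by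
    intro c
    have h1 := congrArg (Multiset.count c) hv
    rw [Multiset.count_map, Multiset.count_map] at h1
    rw [Fintype.card_subtype, Fintype.card_subtype]
    have e1 : (Finset.univ.filter (fun i => g i = c)).card
        = Multiset.card (Multiset.filter (fun i => c = g i) Finset.univ.val) := by
      rw [← Finset.filter_val, Finset.card_def]
      congr 2
      ext i; simp [eq_comm]
    have e2 : (Finset.univ.filter (fun i => f i = c)).card
        = Multiset.card (Multiset.filter (fun i => c = f i) Finset.univ.val) := by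
      rw [← Finset.filter_val, Finset.card_def]
      congr 2
      ext i; simp [eq_comm]
    rw [e1, e2, h1]
  refine ⟨Equiv.ofFiberEquiv (fun c => Fintype.equivOfCardEq (hc c)), fun i => ?_⟩
  exact (Equiv.ofFiberEquiv_map (fun c => Fintype.equivOfCardEq (hc c)) i).symm

theorem count_weight_rowsOf {α : Type*} [DecidableEq α] {a b : ℕ} (A : Fin a → Fin b → α)
    (l : α) :
    (weight (rowsOf A)).count l
      = (Finset.univ.filter (fun p : Fin a × Fin b => A p.1 p.2 = l)).card := by
  unfold weight rowsOf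
  rw [ofFn_val, Multiset.map_map]
  have h1 : (Multiset.map ((fun s : Sym α b => s.1) ∘ fun i => ofFn (A i)) Finset.univ.val).sum
      = ∑ i : Fin a, Finset.univ.val.map (A i) := rfl
  rw [h1, Multiset.count_sum', Finset.card_filter, Fintype.sum_prod_type]
  apply Finset.sum_congr rfl
  intro i _
  rw [Multiset.count_map, ← Finset.card_filter]
  rw [← Finset.filter_val, ← Finset.card_def]
  congr 1
  ext j; simp [eq_comm]

/-- data of a hook array: positions of the non-filler letters -/
theorem hook_pos {a b k : ℕ} (A : Fin a → Fin b → Option (Fin k))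
    (hA : ∀ z : Fin k, (weight (rowsOf A)).count (some z) = 1) :
    ∃ r : Fin k → Fin a, ∃ q : Fin k → Fin b, (∀ z, A (r z) (q z) = some z) ∧
      (∀ z i j, A i j = some z → i = r z ∧ j = q z) := by
  have h : ∀ z : Fin k, ∃ p : Fin a × Fin b, A p.1 p.2 = some z ∧
      ∀ i j, A i j = some z → i = p.1 ∧ j = p.2 := by
    intro z
    have hz := hA z
    rw [count_weight_rowsOf, Finset.card_eq_one] at hz
    obtain ⟨p, hp⟩ := hz
    have hmem : ∀ p' : Fin a × Fin b, A p'.1 p'.2 = some z ↔ p' = p := by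
      intro p'
      have := Finset.ext_iff.mp hp p'
      simpa using this
    refine ⟨p, (hmem p).mpr rfl, fun i j hij => ?_⟩
    have := (hmem (i, j)).mp hij
    rw [← this]
    exact ⟨rfl, rfl⟩
  choose p hp1 hp2 using h
  exact ⟨fun z => (p z).1, fun z => (p z).2, hp1, hp2⟩

/-- the relation on non-filler letters: lying in a common part of the monomial -/
def letRel {k n n' : ℕ} (m : Sym (Sym (Option (Fin k)) n) n') (z z' : Fin k) : Prop :=
  ∃ s ∈ m, some z ∈ s ∧ some z' ∈ s

theorem letRel_rowsOf {a b k : ℕ} (A : Fin a → Fin b → Option (Fin k)) (z z' : Fin k) :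
    letRel (rowsOf A) z z' ↔ ∃ i, (∃ j, A i j = some z) ∧ (∃ j, A i j = some z') := by
  unfold letRel rowsOf
  constructor
  · rintro ⟨s, hs, h1, h2⟩
    rw [mem_ofFn] at hs
    obtain ⟨i, rfl⟩ := hs
    rw [mem_ofFn] at h1 h2
    exact ⟨i, h1, h2⟩
  · rintro ⟨i, h1, h2⟩
    refine ⟨ofFn (A i), (mem_ofFn _ _).mpr ⟨i, rfl⟩, (mem_ofFn _ _).mpr h1, (mem_ofFn _ _).mpr h2⟩

theorem letRel_colsOf {a b k : ℕ} (A : Fin a → Fin b → Option (Fin k)) (z z' : Fin k) :
    letRel (colsOf A) z z' ↔ ∃ j, (∃ i, A i j = some z) ∧ (∃ i, A i j = some z') := by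
  unfold letRel colsOf
  constructor
  · rintro ⟨s, hs, h1, h2⟩
    rw [mem_ofFn] at hs
    obtain ⟨j, rfl⟩ := hs
    rw [mem_ofFn] at h1 h2
    exact ⟨j, h1, h2⟩
  · rintro ⟨j, h1, h2⟩
    refine ⟨ofFn (fun i => A i j), (mem_ofFn _ _).mpr ⟨j, rfl⟩, (mem_ofFn _ _).mpr h1,
      (mem_ofFn _ _).mpr h2⟩

theorem letRel_rowsOf_hook {a b k : ℕ} (A : Fin a → Fin b → Option (Fin k))
    (r : Fin k → Fin a) (q : Fin k → Fin b) (h1 : ∀ z, A (r z) (q z) = some z)
    (h2 : ∀ z i j, A i j = some z → i = r z ∧ j = q z) (z z' : Fin k) :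
    letRel (rowsOf A) z z' ↔ r z = r z' := by
  rw [letRel_rowsOf]
  constructor
  · rintro ⟨i, ⟨j, hj⟩, ⟨j', hj'⟩⟩
    rw [← (h2 z i j hj).1, ← (h2 z' i j' hj').1]
  · intro h
    exact ⟨r z, ⟨q z, h1 z⟩, ⟨q z', by rw [h]; exact h1 z'⟩⟩


theorem multiset_option_ext {β : Type*} [Fintype β] [DecidableEq β] (s t : Multiset (Option β))
    (hc : Multiset.card s = Multiset.card t)
    (h : ∀ x : β, s.count (some x) = t.count (some x)) : s = t := by
  have hs : ∑ l : Option β, s.count l = Multiset.card s :=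
    Multiset.sum_count_eq_card (fun a _ => Finset.mem_univ a)
  have ht : ∑ l : Option β, t.count l = Multiset.card t :=
    Multiset.sum_count_eq_card (fun a _ => Finset.mem_univ a)
  rw [Fintype.sum_option] at hs ht
  have hsum : ∑ x : β, s.count (some x) = ∑ x : β, t.count (some x) :=
    Finset.sum_congr rfl (fun x _ => h x)
  ext l
  cases l with
  | none => omega
  | some x => exact h x

theorem count_row_hook {a b k : ℕ} (A : Fin a → Fin b → Option (Fin k))
    (r : Fin k → Fin a) (q : Fin k → Fin b) (h1 : ∀ z, A (r z) (q z) = some z)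
    (h2 : ∀ z i j, A i j = some z → i = r z ∧ j = q z) (i : Fin a) (z : Fin k) :
    (Finset.univ.val.map (A i)).count (some z) = if r z = i then 1 else 0 := by
  rw [Multiset.count_map, ← Finset.filter_val, ← Finset.card_def]
  split_ifs with hi
  · rw [Finset.card_eq_one]
    refine ⟨q z, ?_⟩
    ext j
    simp only [Finset.mem_filter, Finset.mem_univ, true_and, Finset.mem_singleton]
    constructor
    · intro hj; exact (h2 z i j hj.symm).2
    · rintro rfl; rw [← hi]; exact (h1 z).symm
  · rw [Finset.card_eq_zero]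
    apply Finset.filter_eq_empty_iff.mpr
    intro j _ hj
    exact hi (h2 z i j hj.symm).1.symm

theorem rowsOf_eq_of_rel {a b k : ℕ} (A A' : Fin a → Fin b → Option (Fin k))
    (r : Fin k → Fin a) (q : Fin k → Fin b) (r' : Fin k → Fin a) (q' : Fin k → Fin b)
    (h1 : ∀ z, A (r z) (q z) = some z)
    (h2 : ∀ z i j, A i j = some z → i = r z ∧ j = q z)
    (h1' : ∀ z, A' (r' z) (q' z) = some z)
    (h2' : ∀ z i j, A' i j = some z → i = r' z ∧ j = q' z)
    (hker : ∀ z z', r z = r z' ↔ r' z = r' z') : rowsOf A = rowsOf A' := by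
  obtain ⟨σ, hσ⟩ := Equiv.Perm.exists_extending_pair (α := Quotient (Setoid.ker r))
      (Quotient.lift r (fun _ _ h => h)) (Quotient.lift r' (fun x y h => (hker x y).mp h))
      (by rintro ⟨x⟩ ⟨y⟩ h; exact Quotient.sound h)
      (by rintro ⟨x⟩ ⟨y⟩ h; exact Quotient.sound ((hker x y).mpr h))
  have hσ' : ∀ z, σ (r z) = r' z := fun z => hσ (Quotient.mk _ z)
  have hrow : ∀ i, ofFn (A i) = ofFn (A' (σ i)) := by
    intro i
    apply Subtype.ext
    rw [ofFn_val, ofFn_val]
    apply multiset_option_ext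
    · simp
    · intro z
      rw [count_row_hook A r q h1 h2, count_row_hook A' r' q' h1' h2']
      have : r z = i ↔ r' z = σ i := by
        rw [← hσ' z]; exact ⟨fun h => by rw [h], fun h => σ.injective h⟩
      simp only [this]
  unfold rowsOf
  rw [← ofFn_comp_perm (fun i => ofFn (A' i)) σ]
  congr 1
  funext i
  exact hrow i

open Classical in
theorem coeff_count {a b k : ℕ} (A : Fin a → Fin b → Option (Fin k))
    (hA : ∀ z : Fin k, (weight (rowsOf A)).count (some z) = 1) :
    ∃ α : ℕ, α ≠ 0 ∧ ∀ g0 : Fin k → Fin b,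
      (Finset.univ.filter (fun τ : Fin a → Equiv.Perm (Fin b) =>
          ∀ z z', letRel (colsOf fun i j => A i (τ i j)) z z' ↔ g0 z = g0 z')).card
        = if (∀ z z', g0 z = g0 z' → letRel (rowsOf A) z z' → z = z') then
            α * (Finset.univ.filter
              (fun g : Fin k → Fin b => ∀ z z', g z = g z' ↔ g0 z = g0 z')).card
          else 0 := by
  obtain ⟨r, q, h1, h2⟩ := hook_pos A hA
  refine ⟨(Finset.univ.filter
    (fun τ : Fin a → Equiv.Perm (Fin b) => ∀ z, τ (r z) (q z) = q z)).card, ?_, ?_⟩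
  · apply Finset.card_ne_zero_of_mem (a := 1)
    simp
  intro g0
  have hrel : ∀ (τ : Fin a → Equiv.Perm (Fin b)) z z',
      letRel (colsOf fun i j => A i (τ i j)) z z'
        ↔ (τ (r z)).symm (q z) = (τ (r z')).symm (q z') := by
    intro τ z z'
    rw [letRel_colsOf]
    constructor
    · rintro ⟨j, ⟨i, hi⟩, ⟨i', hi'⟩⟩
      obtain ⟨e1, e2⟩ := h2 z i (τ i j) hi
      obtain ⟨e1', e2'⟩ := h2 z' i' (τ i' j) hi'
      subst e1; subst e1'
      rw [← e2, ← e2']; simp
    · intro h
      refine ⟨(τ (r z)).symm (q z), ⟨r z, by simp [h1]⟩, ⟨r z', by rw [h]; simp [h1]⟩⟩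
  have hre : (Finset.univ.filter (fun τ : Fin a → Equiv.Perm (Fin b) =>
          ∀ z z', letRel (colsOf fun i j => A i (τ i j)) z z' ↔ g0 z = g0 z')).card
      = (Finset.univ.filter (fun τ : Fin a → Equiv.Perm (Fin b) =>
          ∀ z z', τ (r z) (q z) = τ (r z') (q z') ↔ g0 z = g0 z')).card := by
    apply Finset.card_equiv (Equiv.inv (Fin a → Equiv.Perm (Fin b)))
    intro τ
    simp only [Finset.mem_filter, Finset.mem_univ, true_and, Equiv.inv_apply, Pi.inv_apply]
    constructor
    · intro h z z'; rw [← h z z', hrel]; rfl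
    · intro h z z'; rw [hrel, ← h z z']; rfl
  rw [hre]
  have hqinj : ∀ z z', r z = r z' → q z = q z' → z = z' := by
    intro z z' hr hq
    have := h1 z
    rw [hr, hq, h1 z'] at this
    exact (Option.some.inj this).symm
  have hC1 : ∀ (τ : Fin a → Equiv.Perm (Fin b)) z z',
      τ (r z) (q z) = τ (r z') (q z') → r z = r z' → z = z' := by
    intro τ z z' h hr
    rw [hr] at h
    exact hqinj z z' hr ((τ (r z')).injective h)
  have hrowrel : ∀ z z', letRel (rowsOf A) z z' ↔ r z = r z' :=
    letRel_rowsOf_hook A r q h1 h2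
  by_cases horth : ∀ z z', g0 z = g0 z' → letRel (rowsOf A) z z' → z = z'
  · rw [if_pos horth]
    set G := Finset.univ.filter
      (fun g : Fin k → Fin b => ∀ z z', g z = g z' ↔ g0 z = g0 z') with hG
    set S := Finset.univ.filter (fun τ : Fin a → Equiv.Perm (Fin b) =>
      ∀ z z', τ (r z) (q z) = τ (r z') (q z') ↔ g0 z = g0 z') with hS
    have hfib := Finset.card_eq_sum_card_fiberwise (s := S) (t := G)
      (f := fun τ z => τ (r z) (q z))
      (by
        intro τ hτ
        refine Finset.mem_coe.mpr ?_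
        rw [hG, Finset.mem_filter]
        have hτ' := Finset.mem_coe.mp hτ
        rw [hS, Finset.mem_filter] at hτ'
        exact ⟨Finset.mem_univ _, hτ'.2⟩)
    rw [hfib]
    have hfibre : ∀ g ∈ G, (S.filter (fun τ => (fun z => τ (r z) (q z)) = g)).card
        = (Finset.univ.filter
            (fun τ : Fin a → Equiv.Perm (Fin b) => ∀ z, τ (r z) (q z) = q z)).card := by
      intro g hg
      simp only [hG, Finset.mem_filter, Finset.mem_univ, true_and] at hg
      have hginj : ∀ z z', r z = r z' → g z = g z' → z = z' := fun z z' hr hgz =>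
        horth z z' ((hg z z').mp hgz) ((hrowrel z z').mpr hr)
      have hθ : ∀ i : Fin a, ∃ θ : Equiv.Perm (Fin b),
          ∀ x : {z // r z = i}, θ (q x.1) = g x.1 := by
        intro i
        apply Equiv.Perm.exists_extending_pair (fun x : {z // r z = i} => q x.1)
          (fun x => g x.1)
        · intro x x' h; exact Subtype.ext (hqinj x.1 x'.1 (x.2.trans x'.2.symm) h)
        · intro x x' h; exact Subtype.ext (hginj x.1 x'.1 (x.2.trans x'.2.symm) h)
      choose θ hθ using hθ
      symm
      apply Finset.card_equiv (Equiv.mulLeft θ)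
      intro τ
      simp only [hS, Finset.mem_filter, Finset.mem_univ, true_and, Equiv.coe_mulLeft,
        Pi.mul_apply, Equiv.Perm.coe_mul, Function.comp_apply]
      constructor
      · intro hτ
        have hfun : (fun z => θ (r z) (τ (r z) (q z))) = g := by
          funext z; rw [hτ z]; exact hθ (r z) ⟨z, rfl⟩
        refine ⟨?_, hfun⟩
        intro z z'
        have e1 : θ (r z) (τ (r z) (q z)) = g z := congrFun hfun z
        have e2 : θ (r z') (τ (r z') (q z')) = g z' := congrFun hfun z'
        rw [e1, e2]; exact hg z z'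
      · rintro ⟨_, hfun⟩ z
        have e1 : θ (r z) (τ (r z) (q z)) = g z := congrFun hfun z
        have := hθ (r z) ⟨z, rfl⟩
        exact (θ (r z)).injective (e1.trans this.symm)
    rw [Finset.sum_congr rfl hfibre, Finset.sum_const, smul_eq_mul, mul_comm]
  · rw [if_neg horth]
    rw [Finset.card_eq_zero]
    apply Finset.filter_eq_empty_iff.mpr
    intro τ _ hτ
    apply horth
    intro z z' hg hrel'
    exact hC1 τ z z' ((hτ z z').mpr hg) ((hrowrel z z').mp hrel')

theorem wd {α : Type*} {a b : ℕ} (K : Type*) [Semiring K] (A A' : Fin a → Fin b → α)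
    (h : rowsOf A = rowsOf A') :
    (∑ τ : Fin a → Equiv.Perm (Fin b), Finsupp.single (colsOf fun i j => A' i (τ i j)) (1:K))
      = ∑ τ : Fin a → Equiv.Perm (Fin b),
          Finsupp.single (colsOf fun i j => A i (τ i j)) (1:K) := by
  obtain ⟨π, hπ⟩ := ofFn_eq (fun i => ofFn (A i)) (fun i => ofFn (A' i)) h
  have hθ : ∀ i, ∃ θ : Equiv.Perm (Fin b), ∀ j, A' i j = A (π i) (θ j) := by
    intro i
    exact ofFn_eq (A (π i)) (A' i) (hπ i).symm
  choose θ hθ using hθ
  let e : (Fin a → Equiv.Perm (Fin b)) ≃ (Fin a → Equiv.Perm (Fin b)) :=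
    (Equiv.arrowCongr π (Equiv.refl _)).trans (Equiv.mulLeft (fun i' => θ (π.symm i')))
  apply Fintype.sum_equiv e
  intro τ
  congr 1
  unfold colsOf
  congr 1
  funext j
  rw [← ofFn_comp_perm (fun i => A i ((e τ) i j)) π]
  congr 1
  funext i
  simp [e, hθ]

theorem exists_psi (K : Type*) [Field K] (a b : ℕ) (α : Type*) :
    ∃ Ψ : (Sym (Sym α b) a →₀ K) →ₗ[K] (Sym (Sym α a) b →₀ K),
      ∀ A : Fin a → Fin b → α, Ψ (Finsupp.single (rowsOf A) 1)
        = ∑ τ : Fin a → Equiv.Perm (Fin b),
            Finsupp.single (colsOf fun i j => A i (τ i j)) 1 := by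
  classical
  choose arr harr using (rowsOf_surj (α := α) (a := a) (b := b))
  refine ⟨Finsupp.linearCombination K (fun m => ∑ τ : Fin a → Equiv.Perm (Fin b),
    Finsupp.single (colsOf fun i j => arr m i (τ i j)) (1:K)), fun A => ?_⟩
  rw [Finsupp.linearCombination_single, one_smul]
  exact wd K A (arr (rowsOf A)) (harr (rowsOf A)).symm

theorem main_inj (K : Type*) [Field K] [CharZero K] (a b k : ℕ) (hk : k ≤ b)
    (Ψ : (Sym (Sym (Option (Fin k)) b) a →₀ K) →ₗ[K] (Sym (Sym (Option (Fin k)) a) b →₀ K))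
    (hΨ : ∀ A : Fin a → Fin b → Option (Fin k), Ψ (Finsupp.single (rowsOf A) 1)
        = ∑ τ : Fin a → Equiv.Perm (Fin b),
            Finsupp.single (colsOf fun i j => A i (τ i j)) 1)
    (x : Sym (Sym (Option (Fin k)) b) a →₀ K)
    (hx : ∀ m ∈ x.support, ∀ i : Fin k, (weight m).count (some i) = 1)
    (h0 : Ψ x = 0) : x = 0 := by
  classical
  choose arr harr using (rowsOf_surj (α := Option (Fin k)) (a := a) (b := b))
  have hα : ∀ m : Sym (Sym (Option (Fin k)) b) a, ∃ α : ℕ, m ∈ x.support →
      (α ≠ 0 ∧ ∀ g0 : Fin k → Fin b,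
      (Finset.univ.filter (fun τ : Fin a → Equiv.Perm (Fin b) =>
          ∀ z z', letRel (colsOf fun i j => arr m i (τ i j)) z z' ↔ g0 z = g0 z')).card
        = if (∀ z z', g0 z = g0 z' → letRel (rowsOf (arr m)) z z' → z = z') then
            α * (Finset.univ.filter
              (fun g : Fin k → Fin b => ∀ z z', g z = g z' ↔ g0 z = g0 z')).card
          else 0) := by
    intro m
    by_cases hm : m ∈ x.support
    · obtain ⟨α, h1, h2⟩ := coeff_count (arr m) (by rw [harr m]; exact hx m hm)
      exact ⟨α, fun _ => ⟨h1, h2⟩⟩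
    · exact ⟨0, fun h => absurd h hm⟩
  choose α hα using hα
  have hkey : ∀ g0 : Fin k → Fin b, ∑ m ∈ x.support, x m *
      (((Finset.univ.filter (fun τ : Fin a → Equiv.Perm (Fin b) =>
          ∀ z z', letRel (colsOf fun i j => arr m i (τ i j)) z z' ↔ g0 z = g0 z')).card : ℕ) : K)
        = 0 := by
    intro g0
    let v : Sym (Sym (Option (Fin k)) a) b → K :=
      fun c => if (∀ z z', letRel c z z' ↔ g0 z = g0 z') then 1 else 0
    have h := congrArg (Finsupp.linearCombination K v) h0
    rw [map_zero] at h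
    rw [← h]
    conv_rhs => rw [← Finsupp.sum_single x]
    rw [Finsupp.sum, map_sum, map_sum]
    apply Finset.sum_congr rfl
    intro m hm
    have hsm : Finsupp.single m (x m) = x m • Finsupp.single (rowsOf (arr m)) (1:K) := by
      rw [harr m, Finsupp.smul_single, smul_eq_mul, mul_one]
    rw [hsm, map_smul, map_smul, hΨ, map_sum, smul_eq_mul]
    congr 1
    simp only [Finsupp.linearCombination_single, one_smul, v]
    rw [Finset.sum_boole]
  have hrel : ∀ m ∈ x.support, ∃ r : Fin k → Fin a, ∃ q : Fin k → Fin b,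
      (∀ z, arr m (r z) (q z) = some z) ∧
      (∀ z i j, arr m i j = some z → i = r z ∧ j = q z) ∧
      (∀ z z', letRel m z z' ↔ r z = r z') := by
    intro m hm
    obtain ⟨r, q, h1, h2⟩ := hook_pos (arr m) (by rw [harr m]; exact hx m hm)
    refine ⟨r, q, h1, h2, fun z z' => ?_⟩
    have := letRel_rowsOf_hook (arr m) r q h1 h2 z z'
    rwa [harr m] at this
  have hns := Pointer.nonsing (K := K) x.support (fun m => letRel m)
    (by
      intro m hm
      obtain ⟨r, q, h1, h2, h3⟩ := hrel m hm
      exact ⟨fun z => (h3 z z).mpr rfl, fun h => (h3 _ _).mpr ((h3 _ _).mp h).symm,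
        fun h h' => (h3 _ _).mpr (((h3 _ _).mp h).trans ((h3 _ _).mp h'))⟩)
    (by
      intro m hm m' hm' heq
      obtain ⟨r, q, h1, h2, h3⟩ := hrel m hm
      obtain ⟨r', q', h1', h2', h3'⟩ := hrel m' hm'
      have := rowsOf_eq_of_rel (arr m) (arr m') r q r' q' h1 h2 h1' h2'
        (fun z z' => by rw [← h3, ← h3', heq])
      rwa [harr, harr] at this)
    (fun m => x m * (α m : K))
    (fun g => (((Finset.univ.filter (fun g' : Fin k → Fin b =>
      ∀ z z', g' z = g' z' ↔ Fin.castLE hk (g z) = Fin.castLE hk (g z'))).card : ℕ) : K))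
    (by
      intro g
      apply Nat.cast_ne_zero.mpr
      apply Finset.card_ne_zero_of_mem (a := fun z => Fin.castLE hk (g z))
      simp)
    (fun m g => x m * (((Finset.univ.filter (fun τ : Fin a → Equiv.Perm (Fin b) =>
          ∀ z z', letRel (colsOf fun i j => arr m i (τ i j)) z z'
            ↔ Fin.castLE hk (g z) = Fin.castLE hk (g z'))).card : ℕ) : K))
    (by
      intro m hm g horth
      have hc := (hα m hm).2 (fun z => Fin.castLE hk (g z))
      rw [harr m] at hc
      rw [if_pos (fun z z' h hr => horth z z' (Fin.castLE_injective hk h) hr)] at hc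
      rw [hc]
      push_cast
      ring)
    (by
      intro m hm g horth
      have hc := (hα m hm).2 (fun z => Fin.castLE hk (g z))
      rw [harr m] at hc
      rw [if_neg (fun h => horth (fun z z' hg hr => h z z' (by rw [hg]) hr))] at hc
      rw [hc]
      simp)
    (fun g => hkey _)
  apply Finsupp.support_eq_empty.mp
  apply Finset.eq_empty_of_forall_notMem
  intro m hm
  have h1 := hns m hm
  have h2 : (α m : K) ≠ 0 := Nat.cast_ne_zero.mpr (hα m hm).1
  have h3 : x m = 0 := (mul_eq_zero.mp h1).resolve_right h2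
  exact (Finsupp.mem_support_iff.mp hm) h3

theorem main_inj_succ (K : Type*) [Field K] [CharZero K] (a b : ℕ)
    (Ψ : (Sym (Sym (Option (Fin (b + 1))) b) a →₀ K) →ₗ[K]
      (Sym (Sym (Option (Fin (b + 1))) a) b →₀ K))
    (hΨ : ∀ A : Fin a → Fin b → Option (Fin (b + 1)), Ψ (Finsupp.single (rowsOf A) 1)
        = ∑ τ : Fin a → Equiv.Perm (Fin b),
            Finsupp.single (colsOf fun i j => A i (τ i j)) 1)
    (x : Sym (Sym (Option (Fin (b + 1))) b) a →₀ K)
    (hx : ∀ m ∈ x.support, ∀ i : Fin (b + 1), (weight m).count (some i) = 1)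
    (h0 : Ψ x = 0) : x = 0 := by
  classical
  by_contra hxne
  obtain ⟨m0, hm0⟩ : x.support.Nonempty := Finsupp.support_nonempty_iff.mpr hxne
  choose arr harr using (rowsOf_surj (α := Option (Fin (b + 1))) (a := a) (b := b))
  obtain ⟨r0, q0, -, -⟩ := hook_pos (arr m0) (by rw [harr m0]; exact hx m0 hm0)
  have hcol : ∀ g : Fin (b + 1) → Fin (b + 1), ∃ g0 : Fin (b + 1) → Fin b,
      ¬ Function.Injective g → ∀ z z', g0 z = g0 z' ↔ g z = g z' := by
    intro g
    by_cases hg : Function.Injective g
    · exact ⟨q0, fun h => absurd hg h⟩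
    · have hns : ¬ Function.Surjective g :=
        fun hs => hg (Finite.injective_iff_surjective.mpr hs)
      simp only [Function.Surjective, not_forall, not_exists] at hns
      obtain ⟨y0, hy0⟩ := hns
      have hex : ∀ z, ∃ j : Fin b, y0.succAbove j = g z :=
        fun z => Fin.exists_succAbove_eq (hy0 z)
      choose g0 hg0 using hex
      refine ⟨g0, fun _ z z' => ⟨fun h => by rw [← hg0 z, ← hg0 z', h],
        fun h => Fin.succAbove_right_injective (by rw [hg0 z, hg0 z', h])⟩⟩
  choose col hcol using hcol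
  have hα : ∀ m : Sym (Sym (Option (Fin (b + 1))) b) a, ∃ α : ℕ, m ∈ x.support →
      (α ≠ 0 ∧ ∀ g0 : Fin (b + 1) → Fin b,
      (Finset.univ.filter (fun τ : Fin a → Equiv.Perm (Fin b) =>
          ∀ z z', letRel (colsOf fun i j => arr m i (τ i j)) z z' ↔ g0 z = g0 z')).card
        = if (∀ z z', g0 z = g0 z' → letRel (rowsOf (arr m)) z z' → z = z') then
            α * (Finset.univ.filter
              (fun g : Fin (b + 1) → Fin b => ∀ z z', g z = g z' ↔ g0 z = g0 z')).card
          else 0) := by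
    intro m
    by_cases hm : m ∈ x.support
    · obtain ⟨α, h1, h2⟩ := coeff_count (arr m) (by rw [harr m]; exact hx m hm)
      exact ⟨α, fun _ => ⟨h1, h2⟩⟩
    · exact ⟨0, fun h => absurd h hm⟩
  choose α hα using hα
  have hkey : ∀ g0 : Fin (b + 1) → Fin b, ∑ m ∈ x.support, x m *
      (((Finset.univ.filter (fun τ : Fin a → Equiv.Perm (Fin b) =>
          ∀ z z', letRel (colsOf fun i j => arr m i (τ i j)) z z' ↔ g0 z = g0 z')).card : ℕ) : K)
        = 0 := by
    intro g0
    let v : Sym (Sym (Option (Fin (b + 1))) a) b → K :=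
      fun c => if (∀ z z', letRel c z z' ↔ g0 z = g0 z') then 1 else 0
    have h := congrArg (Finsupp.linearCombination K v) h0
    rw [map_zero] at h
    rw [← h]
    conv_rhs => rw [← Finsupp.sum_single x]
    rw [Finsupp.sum, map_sum, map_sum]
    apply Finset.sum_congr rfl
    intro m hm
    have hsm : Finsupp.single m (x m) = x m • Finsupp.single (rowsOf (arr m)) (1:K) := by
      rw [harr m, Finsupp.smul_single, smul_eq_mul, mul_one]
    rw [hsm, map_smul, map_smul, hΨ, map_sum, smul_eq_mul]
    congr 1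
    simp only [Finsupp.linearCombination_single, one_smul, v]
    rw [Finset.sum_boole]
  have hrel : ∀ m ∈ x.support, ∃ r : Fin (b + 1) → Fin a, ∃ q : Fin (b + 1) → Fin b,
      (∀ z, arr m (r z) (q z) = some z) ∧
      (∀ z i j, arr m i j = some z → i = r z ∧ j = q z) ∧
      (∀ z z', letRel m z z' ↔ r z = r z') := by
    intro m hm
    obtain ⟨r, q, h1, h2⟩ := hook_pos (arr m) (by rw [harr m]; exact hx m hm)
    refine ⟨r, q, h1, h2, fun z z' => ?_⟩
    have := letRel_rowsOf_hook (arr m) r q h1 h2 z z'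
    rwa [harr m] at this
  have hns := Pointer.nonsing_top (K := K) x.support (fun m => letRel m)
    (by
      intro m hm
      obtain ⟨r, q, h1, h2, h3⟩ := hrel m hm
      exact ⟨fun z => (h3 z z).mpr rfl, fun h => (h3 _ _).mpr ((h3 _ _).mp h).symm,
        fun h h' => (h3 _ _).mpr (((h3 _ _).mp h).trans ((h3 _ _).mp h'))⟩)
    (by
      intro m hm m' hm' heq
      obtain ⟨r, q, h1, h2, h3⟩ := hrel m hm
      obtain ⟨r', q', h1', h2', h3'⟩ := hrel m' hm'
      have := rowsOf_eq_of_rel (arr m) (arr m') r q r' q' h1 h2 h1' h2'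
        (fun z z' => by rw [← h3, ← h3', heq])
      rwa [harr, harr] at this)
    (by
      intro m hm hall
      obtain ⟨r, q, h1, h2, h3⟩ := hrel m hm
      have hq : Function.Injective q := by
        intro z z' hzz
        have hr : r z = r z' := (h3 z z').mp (hall z z')
        have e := h1 z
        rw [hr, hzz, h1 z'] at e
        exact (Option.some.inj e).symm
      have := Fintype.card_le_of_injective q hq
      simp at this)
    (fun m => x m * (α m : K))
    (fun g => (((Finset.univ.filter (fun g' : Fin (b + 1) → Fin b =>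
      ∀ z z', g' z = g' z' ↔ col g z = col g z')).card : ℕ) : K))
    (by
      intro g _
      apply Nat.cast_ne_zero.mpr
      apply Finset.card_ne_zero_of_mem (a := col g)
      simp)
    (fun m g => x m * (((Finset.univ.filter (fun τ : Fin a → Equiv.Perm (Fin b) =>
          ∀ z z', letRel (colsOf fun i j => arr m i (τ i j)) z z'
            ↔ col g z = col g z')).card : ℕ) : K))
    (by
      intro m hm g hg horth
      have hc := (hα m hm).2 (col g)
      rw [harr m] at hc
      rw [if_pos (fun z z' h hr => horth z z' ((hcol g hg z z').mp h) hr)] at hc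
      rw [hc]
      push_cast
      ring)
    (by
      intro m hm g hg horth
      have hc := (hα m hm).2 (col g)
      rw [harr m] at hc
      rw [if_neg (fun h => horth (fun z z' hgz hr => h z z' ((hcol g hg z z').mpr hgz) hr))] at hc
      rw [hc]
      simp)
    (fun g _ => hkey _)
  have h1 := hns m0 hm0
  have h2 : (α m0 : K) ≠ 0 := Nat.cast_ne_zero.mpr (hα m0 hm0).1
  have h3 : x m0 = 0 := (mul_eq_zero.mp h1).resolve_right h2
  exact (Finsupp.mem_support_iff.mp hm0) h3

theorem main_inj' (K : Type*) [Field K] [CharZero K] (a b k : ℕ) (hk : k ≤ b + 1)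
    (Ψ : (Sym (Sym (Option (Fin k)) b) a →₀ K) →ₗ[K] (Sym (Sym (Option (Fin k)) a) b →₀ K))
    (hΨ : ∀ A : Fin a → Fin b → Option (Fin k), Ψ (Finsupp.single (rowsOf A) 1)
        = ∑ τ : Fin a → Equiv.Perm (Fin b),
            Finsupp.single (colsOf fun i j => A i (τ i j)) 1)
    (x : Sym (Sym (Option (Fin k)) b) a →₀ K)
    (hx : ∀ m ∈ x.support, ∀ i : Fin k, (weight m).count (some i) = 1)
    (h0 : Ψ x = 0) : x = 0 := by
  rcases Nat.lt_or_ge k (b + 1) with h | h
  · exact main_inj K a b k (by omega) Ψ hΨ x hx h0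
  · have hkb : k = b + 1 := by omega
    subst hkb
    exact main_inj_succ K a b Ψ hΨ x hx h0

end Vale.Agent.Helper7.FoulkesAux
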