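import Mathlib

namespace Vale.Agent.Helper7.FoulkesDefs

/-- The multiset of values of a function on `Fin n`, as an element of `Sym α n`
(the monomial `f 0 * f 1 * ... * f (n-1)` in commuting letters). -/
def ofFn {α : Type*} {n : ℕ} (f : Fin n → α) : Sym α n :=
  ⟨Finset.univ.val.map f, by simp⟩

/-- Rows of an `a × b` array `A` of letters: the monomial `∏_i (∏_j A i j)`,
a basis element of `Sym^a (Sym^b V)` when the letters are a basis of `V`. -/
def rowsOf {α : Type*} {a b : ℕ} (A : Fin a → Fin b → α) : Sym (Sym α b) a :=
  ofFn fun i => ofFn (A i)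

/-- Columns of an `a × b` array `A` of letters: the monomial `∏_j (∏_i A i j)`,
a basis element of `Sym^b (Sym^a V)`. -/
def colsOf {α : Type*} {a b : ℕ} (A : Fin a → Fin b → α) : Sym (Sym α a) b :=
  ofFn fun j => ofFn fun i => A i j

/-- The weight of a monomial of `Sym^a (Sym^b V)`: the multiset of all its letters. -/
def weight {α : Type*} {a b : ℕ} (m : Sym (Sym α b) a) : Multiset α :=
  (m.1.map fun s => s.1).sum

end Vale.Agent.Helper7.FoulkesDefs
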