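import Vale.Agent.Helper7.FoulkesDefs

namespace Vale.Agent.Helper7.FoulkesHWDefs

open Vale.Agent.Helper7.FoulkesDefs

/-- The array `A` with the entry at position `p` replaced by the letter `l`. -/
def upd {α : Type*} {a b : ℕ} (A : Fin a → Fin b → α) (p : Fin a × Fin b) (l : α) :
    Fin a → Fin b → α :=
  fun i j => if i = p.1 ∧ j = p.2 then l else A i j

/-- `E` is the action on `Sym^a (Sym^b V)` of the elementary matrix `E_{i j}` of `gl(V)`
(sending the basis vector `j` to `i` and every other basis vector to `0`), which acts as a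
derivation: a monomial is sent to the sum of the monomials obtained by replacing one
occurrence of the letter `j` by the letter `i`. -/
def IsRaise {α : Type*} [DecidableEq α] {a b : ℕ} (K : Type*) [Field K] (i j : α)
    (E : (Sym (Sym α b) a →₀ K) →ₗ[K] (Sym (Sym α b) a →₀ K)) : Prop :=
  ∀ A : Fin a → Fin b → α, E (Finsupp.single (rowsOf A) 1)
    = ∑ p : Fin a × Fin b,
        if A p.1 p.2 = j then Finsupp.single (rowsOf (upd A p i)) 1 else 0

/-- The space of highest weight vectors of weight `μ`: vectors supported on monomials of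
weight `μ` that are killed by all raising operators `E i j`, `i < j`. -/
noncomputable def hwSpace {n a b : ℕ} (K : Type*) [Field K]
    (E : Fin n → Fin n → ((Sym (Sym (Fin n) b) a →₀ K) →ₗ[K] (Sym (Sym (Fin n) b) a →₀ K)))
    (μ : Multiset (Fin n)) : Submodule K (Sym (Sym (Fin n) b) a →₀ K) :=
  Finsupp.supported K K {m | weight m = μ} ⊓
    ⨅ (i : Fin n) (j : Fin n) (_ : i < j), LinearMap.ker (E i j)

end Vale.Agent.Helper7.FoulkesHWDefs
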