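import Vale.Agent.Helper7.FoulkesWeights
import Vale.Agent.Helper7.FoulkesHWDefs

namespace Vale.Agent.Helper7.FoulkesHW

open Finset Vale.Agent.Helper7.FoulkesDefs Vale.Agent.Helper7.FoulkesAux
  Vale.Agent.Helper7.FoulkesWeights Vale.Agent.Helper7.FoulkesHWDefs

theorem rowsOf_comp {α : Type*} {a b : ℕ} (B : Fin a → Fin b → α) (π : Equiv.Perm (Fin a))
    (θ : Fin a → Equiv.Perm (Fin b)) :
    rowsOf (fun i j => B (π i) (θ i j)) = rowsOf B := by
  unfold rowsOf
  rw [← ofFn_comp_perm (fun i => ofFn (B i)) π]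
  congr 1
  funext i
  exact ofFn_comp_perm (B (π i)) (θ i)

theorem raise_wd {α : Type*} [DecidableEq α] {a b : ℕ} (K : Type*) [Field K] (i j : α)
    (A A' : Fin a → Fin b → α) (h : rowsOf A = rowsOf A') :
    (∑ p : Fin a × Fin b,
        if A' p.1 p.2 = j then Finsupp.single (rowsOf (upd A' p i)) (1:K) else 0)
      = ∑ p : Fin a × Fin b,
        if A p.1 p.2 = j then Finsupp.single (rowsOf (upd A p i)) (1:K) else 0 := by
  obtain ⟨π, hπ⟩ := ofFn_eq (fun i => ofFn (A i)) (fun i => ofFn (A' i)) h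
  have hθ : ∀ i, ∃ θ : Equiv.Perm (Fin b), ∀ j, A' i j = A (π i) (θ j) :=
    fun i => ofFn_eq (A (π i)) (A' i) (hπ i).symm
  choose θ hθ using hθ
  let e : Fin a × Fin b ≃ Fin a × Fin b :=
    ⟨fun p => (π p.1, θ p.1 p.2), fun p => (π.symm p.1, (θ (π.symm p.1)).symm p.2),
      fun p => by simp, fun p => by simp⟩
  apply Fintype.sum_equiv e
  intro p
  have h1 : A' p.1 p.2 = A (e p).1 (e p).2 := hθ p.1 p.2
  rw [h1]
  by_cases hc : A (e p).1 (e p).2 = j
  · rw [if_pos hc, if_pos hc]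
    congr 1
    have h2 : upd A' p i = fun i' j' => upd A (e p) i (π i') (θ i' j') := by
      funext i' j'
      unfold upd
      by_cases hc' : i' = p.1 ∧ j' = p.2
      · obtain ⟨rfl, rfl⟩ := hc'
        simp [e]
      · rw [if_neg hc', if_neg, hθ]
        rintro ⟨h3, h4⟩
        have h5 : i' = p.1 := π.injective h3
        subst h5
        exact hc' ⟨rfl, (θ _).injective h4⟩
    rw [h2, rowsOf_comp]
  · rw [if_neg hc, if_neg hc]

theorem exists_raise {α : Type*} [DecidableEq α] (K : Type*) [Field K] (a b : ℕ) (i j : α) :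
    ∃ E : (Sym (Sym α b) a →₀ K) →ₗ[K] (Sym (Sym α b) a →₀ K), IsRaise K i j E := by
  choose arr harr using (rowsOf_surj (α := α) (a := a) (b := b))
  refine ⟨Finsupp.linearCombination K (fun m => ∑ p : Fin a × Fin b,
    if arr m p.1 p.2 = j then Finsupp.single (rowsOf (upd (arr m) p i)) (1:K) else 0),
    fun A => ?_⟩
  rw [Finsupp.linearCombination_single, one_smul]
  exact raise_wd K i j A (arr (rowsOf A)) (harr (rowsOf A)).symm

theorem raise_comm {α : Type*} [DecidableEq α] {a b : ℕ} (K : Type*) [Field K] (i j : α)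
    (Ψ : (Sym (Sym α b) a →₀ K) →ₗ[K] (Sym (Sym α a) b →₀ K)) (hΨ : IsFH K Ψ)
    (ER : (Sym (Sym α b) a →₀ K) →ₗ[K] (Sym (Sym α b) a →₀ K)) (hER : IsRaise K i j ER)
    (EC : (Sym (Sym α a) b →₀ K) →ₗ[K] (Sym (Sym α a) b →₀ K)) (hEC : IsRaise K i j EC)
    (x : Sym (Sym α b) a →₀ K) : Ψ (ER x) = EC (Ψ x) := by
  have key : Ψ ∘ₗ ER = EC ∘ₗ Ψ := by
    apply Finsupp.lhom_ext
    intro m r
    obtain ⟨A, rfl⟩ := rowsOf_surj m
    have hs : Finsupp.single (rowsOf A) r = r • Finsupp.single (rowsOf A) (1:K) := by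
      rw [Finsupp.smul_single, smul_eq_mul, mul_one]
    rw [hs]
    simp only [LinearMap.comp_apply, map_smul]
    congr 1
    rw [hER A, hΨ A, map_sum, map_sum]
    have hL : ∀ p : Fin a × Fin b,
        Ψ (if A p.1 p.2 = j then Finsupp.single (rowsOf (upd A p i)) (1:K) else 0)
        = ∑ τ : Fin a → Equiv.Perm (Fin b),
            if A p.1 p.2 = j then
              Finsupp.single (colsOf fun i' j' => upd A p i i' (τ i' j')) (1:K) else 0 := by
      intro p
      by_cases hc : A p.1 p.2 = j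
      · simp only [if_pos hc]; exact hΨ _
      · simp only [if_neg hc, map_zero, Finset.sum_const_zero]
    have hR : ∀ τ : Fin a → Equiv.Perm (Fin b),
        EC (Finsupp.single (colsOf fun i' j' => A i' (τ i' j')) (1:K))
        = ∑ p : Fin a × Fin b,
            if A p.1 p.2 = j then
              Finsupp.single (colsOf fun i' j' => upd A p i i' (τ i' j')) (1:K) else 0 := by
      intro τ
      have hcr : ∀ B : Fin a → Fin b → α, colsOf B = rowsOf (fun j' i' => B i' j') :=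
        fun B => rfl
      rw [hcr, hEC]
      let e : Fin b × Fin a ≃ Fin a × Fin b :=
        ⟨fun p' => (p'.2, τ p'.2 p'.1), fun p => ((τ p.1).symm p.2, p.1),
          fun p' => by simp, fun p => by simp⟩
      apply Fintype.sum_equiv e
      intro p'
      by_cases hc : A p'.2 (τ p'.2 p'.1) = j
      · have hc2 : A (e p').1 (e p').2 = j := hc
        rw [if_pos hc, if_pos hc2]
        congr 1
        rw [hcr]
        congr 1
        funext j' i'
        unfold upd
        by_cases hc' : j' = p'.1 ∧ i' = p'.2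
        · obtain ⟨rfl, rfl⟩ := hc'
          simp [e]
        · rw [if_neg hc', if_neg]
          rintro ⟨h1, h2⟩
          have h3 : i' = p'.2 := h1
          subst h3
          exact hc' ⟨(τ _).injective h2, rfl⟩
      · have hc2 : ¬ A (e p').1 (e p').2 = j := hc
        rw [if_neg hc, if_neg hc2]
    rw [Finset.sum_congr rfl (fun p _ => hL p), Finset.sum_congr rfl (fun τ _ => hR τ),
      Finset.sum_comm]
  exact LinearMap.congr_fun key x

theorem hw_maps (K : Type*) [Field K] (n a b : ℕ)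
    (Ψ : (Sym (Sym (Fin n) b) a →₀ K) →ₗ[K] (Sym (Sym (Fin n) a) b →₀ K))
    (hΨ : IsFH K Ψ)
    (ER : Fin n → Fin n →
      ((Sym (Sym (Fin n) b) a →₀ K) →ₗ[K] (Sym (Sym (Fin n) b) a →₀ K)))
    (hER : ∀ i j, IsRaise K i j (ER i j))
    (EC : Fin n → Fin n →
      ((Sym (Sym (Fin n) a) b →₀ K) →ₗ[K] (Sym (Sym (Fin n) a) b →₀ K)))
    (hEC : ∀ i j, IsRaise K i j (EC i j))
    (μ : Multiset (Fin n)) :
    ∀ x ∈ hwSpace K ER μ, Ψ x ∈ hwSpace K EC μ := by
  intro x hx
  unfold hwSpace at hx ⊢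
  rw [Submodule.mem_inf] at hx ⊢
  obtain ⟨hx1, hx2⟩ := hx
  constructor
  · rw [Finsupp.mem_supported] at hx1 ⊢
    intro c hc
    have hc' : Ψ x c ≠ 0 := Finsupp.mem_support_iff.mp (Finset.mem_coe.mp hc)
    rw [fh_apply] at hc'
    obtain ⟨m, hm, hne⟩ := Finset.exists_ne_zero_of_sum_ne_zero hc'
    have hw := fh_weight Ψ hΨ m c (right_ne_zero_of_mul hne)
    have hmμ : weight m = μ := hx1 (Finset.mem_coe.mpr hm)
    change weight c = μ
    rw [hw, hmμ]
  · simp only [Submodule.mem_iInf, LinearMap.mem_ker] at hx2 ⊢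
    intro i j hij
    rw [← raise_comm K i j Ψ hΨ (ER i j) (hER i j) (EC i j) (hEC i j) x, hx2 i j hij,
      map_zero]

theorem hw_finrank (K : Type*) [Field K] [CharZero K] (n a b : ℕ)
    (Ψ : (Sym (Sym (Fin n) b) a →₀ K) →ₗ[K] (Sym (Sym (Fin n) a) b →₀ K))
    (hΨ : IsFH K Ψ)
    (ER : Fin n → Fin n →
      ((Sym (Sym (Fin n) b) a →₀ K) →ₗ[K] (Sym (Sym (Fin n) b) a →₀ K)))
    (hER : ∀ i j, IsRaise K i j (ER i j))
    (EC : Fin n → Fin n →
      ((Sym (Sym (Fin n) a) b →₀ K) →ₗ[K] (Sym (Sym (Fin n) a) b →₀ K)))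
    (hEC : ∀ i j, IsRaise K i j (EC i j))
    (z0 : Fin n) (μ : Multiset (Fin n)) (hμ : a * b ≤ μ.count z0 + b + 1) :
    Module.finrank K (hwSpace K ER μ) ≤ Module.finrank K (hwSpace K EC μ) := by
  have hmaps := hw_maps K n a b Ψ hΨ ER hER EC hEC μ
  apply LinearMap.finrank_le_finrank_of_injective (f := Ψ.restrict hmaps)
  rw [injective_iff_map_eq_zero]
  intro x hx
  have h1 : Ψ x.1 = 0 := by
    have := congrArg Subtype.val hx
    simpa using this
  have hx1 : x.1 ∈ Finsupp.supported K K {m : Sym (Sym (Fin n) b) a | weight m = μ} := by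
    have := x.2
    unfold hwSpace at this
    exact (Submodule.mem_inf.mp this).1
  rw [Finsupp.mem_supported] at hx1
  have h2 : x.1 = 0 := by
    apply inj_all_weights K a b z0 Ψ hΨ x.1 _ h1
    intro m hm
    have hmμ : weight m = μ := hx1 (Finset.mem_coe.mpr hm)
    rw [hmμ]
    exact hμ
  exact Subtype.ext h2

theorem exists_all (K : Type*) [Field K] (n a b : ℕ) :
    ∃ (Ψ : (Sym (Sym (Fin n) b) a →₀ K) →ₗ[K] (Sym (Sym (Fin n) a) b →₀ K))
      (ER : Fin n → Fin n →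
        ((Sym (Sym (Fin n) b) a →₀ K) →ₗ[K] (Sym (Sym (Fin n) b) a →₀ K)))
      (EC : Fin n → Fin n →
        ((Sym (Sym (Fin n) a) b →₀ K) →ₗ[K] (Sym (Sym (Fin n) a) b →₀ K))),
      IsFH K Ψ ∧ (∀ i j, IsRaise K i j (ER i j)) ∧ (∀ i j, IsRaise K i j (EC i j)) := by
  obtain ⟨Ψ, hΨ⟩ := exists_psi K a b (Fin n)
  choose ER hER using fun (i j : Fin n) => exists_raise K a b i j
  choose EC hEC using fun (i j : Fin n) => exists_raise K b a i j
  exact ⟨Ψ, ER, EC, hΨ, hER, hEC⟩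

theorem hw_finrank' (K : Type*) [Field K] [CharZero K] (n a b : ℕ)
    (ER : Fin n → Fin n →
      ((Sym (Sym (Fin n) b) a →₀ K) →ₗ[K] (Sym (Sym (Fin n) b) a →₀ K)))
    (hER : ∀ i j, IsRaise K i j (ER i j))
    (EC : Fin n → Fin n →
      ((Sym (Sym (Fin n) a) b →₀ K) →ₗ[K] (Sym (Sym (Fin n) a) b →₀ K)))
    (hEC : ∀ i j, IsRaise K i j (EC i j))
    (z0 : Fin n) (μ : Multiset (Fin n)) (hμ : a * b ≤ μ.count z0 + b + 1) :
    Module.finrank K (hwSpace K ER μ) ≤ Module.finrank K (hwSpace K EC μ) := by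
  obtain ⟨Ψ, hΨ⟩ := exists_psi K a b (Fin n)
  exact hw_finrank K n a b Ψ hΨ ER hER EC hEC z0 μ hμ

theorem exists_raises (K : Type*) [Field K] (n a b : ℕ) :
    ∃ (ER : Fin n → Fin n →
        ((Sym (Sym (Fin n) b) a →₀ K) →ₗ[K] (Sym (Sym (Fin n) b) a →₀ K)))
      (EC : Fin n → Fin n →
        ((Sym (Sym (Fin n) a) b →₀ K) →ₗ[K] (Sym (Sym (Fin n) a) b →₀ K))),
      (∀ i j, IsRaise K i j (ER i j)) ∧ (∀ i j, IsRaise K i j (EC i j)) := by
  choose ER hER using fun (i j : Fin n) => exists_raise K a b i j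
  choose EC hEC using fun (i j : Fin n) => exists_raise K b a i j
  exact ⟨ER, EC, hER, hEC⟩

end Vale.Agent.Helper7.FoulkesHW
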