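import Vale.Agent.Helper7.FoulkesAux

namespace Vale.Agent.Helper7.FoulkesWeights

open Finset Vale.Agent.Helper7.FoulkesDefs Vale.Agent.Helper7.FoulkesAux

theorem map_univ_eq {ι κ α : Type*} [Fintype ι] [Fintype κ] (f : ι → α) (g : κ → α)
    (h : Finset.univ.val.map f = Finset.univ.val.map g) : ∃ e : κ ≃ ι, ∀ x, g x = f (e x) := by
  classical
  have hc : ∀ c : α, Fintype.card {i // g i = c} = Fintype.card {i // f i = c} := by
    intro c
    have h1 := congrArg (Multiset.count c) h
    rw [Multiset.count_map, Multiset.count_map] at h1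
    rw [Fintype.card_subtype, Fintype.card_subtype]
    have e1 : (Finset.univ.filter (fun i => g i = c)).card
        = Multiset.card (Multiset.filter (fun i => c = g i) Finset.univ.val) := by
      rw [← Finset.filter_val, Finset.card_def]
      congr 2
      ext i; simp [eq_comm]
    have e2 : (Finset.univ.filter (fun i => f i = c)).card
        = Multiset.card (Multiset.filter (fun i => c = f i) Finset.univ.val) := by
      rw [← Finset.filter_val, Finset.card_def]
      congr 2
      ext i; simp [eq_comm]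
    rw [e1, e2, h1]
  exact ⟨Equiv.ofFiberEquiv (fun c => Fintype.equivOfCardEq (hc c)),
    fun i => (Equiv.ofFiberEquiv_map (fun c => Fintype.equivOfCardEq (hc c)) i).symm⟩

theorem map_ofFn {α β : Type*} {n : ℕ} (f : α → β) (g : Fin n → α) :
    Sym.map f (ofFn g) = ofFn (fun i => f (g i)) := by
  apply Subtype.ext
  change Multiset.map f (Finset.univ.val.map g) = Finset.univ.val.map (fun i => f (g i))
  rw [Multiset.map_map]
  rfl

theorem map_rowsOf {α β : Type*} {a b : ℕ} (f : α → β) (A : Fin a → Fin b → α) :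
    Sym.map (Sym.map f) (rowsOf A) = rowsOf (fun i j => f (A i j)) := by
  unfold rowsOf
  rw [map_ofFn]
  congr 1
  funext i
  rw [map_ofFn]

theorem map_colsOf {α β : Type*} {a b : ℕ} (f : α → β) (A : Fin a → Fin b → α) :
    Sym.map (Sym.map f) (colsOf A) = colsOf (fun i j => f (A i j)) := by
  unfold colsOf
  rw [map_ofFn]
  congr 1
  funext j
  rw [map_ofFn]

theorem weight_rowsOf {α : Type*} {a b : ℕ} (A : Fin a → Fin b → α) :
    weight (rowsOf A) = (Finset.univ : Finset (Fin a × Fin b)).val.map (fun p => A p.1 p.2) := by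
  classical
  ext l
  rw [count_weight_rowsOf, Multiset.count_map, ← Finset.filter_val, ← Finset.card_def]
  congr 1
  ext p; simp [eq_comm]

theorem weight_colsOf {α : Type*} {a b : ℕ} (A : Fin a → Fin b → α) :
    weight (colsOf A) = weight (rowsOf A) := by
  have h : colsOf A = rowsOf (fun j i => A i j) := rfl
  rw [h, weight_rowsOf, weight_rowsOf]
  rw [← Multiset.map_univ_val_equiv (Equiv.prodComm (Fin a) (Fin b)), Multiset.map_map]
  rfl

theorem weight_twist {α : Type*} {a b : ℕ} (A : Fin a → Fin b → α)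
    (τ : Fin a → Equiv.Perm (Fin b)) :
    weight (rowsOf fun i j => A i (τ i j)) = weight (rowsOf A) := by
  rw [weight_rowsOf, weight_rowsOf]
  let e : Fin a × Fin b ≃ Fin a × Fin b :=
    ⟨fun p => (p.1, τ p.1 p.2), fun p => (p.1, (τ p.1).symm p.2),
      fun p => by simp, fun p => by simp⟩
  have h1 : (fun p : Fin a × Fin b => A p.1 (τ p.1 p.2)) = (fun p => A p.1 p.2) ∘ e := rfl
  rw [h1, ← Multiset.map_map, Multiset.map_univ_val_equiv]

theorem weight_map {α β : Type*} {a b : ℕ} (f : α → β) (m : Sym (Sym α b) a) :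
    weight (Sym.map (Sym.map f) m) = (weight m).map f := by
  obtain ⟨A, rfl⟩ := rowsOf_surj m
  rw [map_rowsOf, weight_rowsOf, weight_rowsOf, Multiset.map_map]
  rfl

/-- the Foulkes-Howe formula for a linear map -/
def IsFH {α : Type*} {a b : ℕ} (K : Type*) [Field K]
    (Ψ : (Sym (Sym α b) a →₀ K) →ₗ[K] (Sym (Sym α a) b →₀ K)) : Prop :=
  ∀ A : Fin a → Fin b → α, Ψ (Finsupp.single (rowsOf A) 1)
    = ∑ τ : Fin a → Equiv.Perm (Fin b), Finsupp.single (colsOf fun i j => A i (τ i j)) 1

theorem fh_weight {α : Type*} {a b : ℕ} {K : Type*} [Field K]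
    (Ψ : (Sym (Sym α b) a →₀ K) →ₗ[K] (Sym (Sym α a) b →₀ K)) (hΨ : IsFH K Ψ)
    (m : Sym (Sym α b) a) (c : Sym (Sym α a) b) (h : Ψ (Finsupp.single m 1) c ≠ 0) :
    weight c = weight m := by
  classical
  obtain ⟨A, rfl⟩ := rowsOf_surj m
  rw [hΨ A, Finsupp.finsetSum_apply] at h
  obtain ⟨τ, -, hτ⟩ := Finset.exists_ne_zero_of_sum_ne_zero h
  rw [Finsupp.single_apply] at hτ
  have hc : colsOf (fun i j => A i (τ i j)) = c := by
    by_contra hne
    rw [if_neg hne] at hτ
    exact hτ rfl
  rw [← hc, weight_colsOf, weight_twist]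

theorem fh_apply {α : Type*} {a b : ℕ} {K : Type*} [Field K]
    (Ψ : (Sym (Sym α b) a →₀ K) →ₗ[K] (Sym (Sym α a) b →₀ K))
    (y : Sym (Sym α b) a →₀ K) (c : Sym (Sym α a) b) :
    Ψ y c = ∑ m ∈ y.support, y m * Ψ (Finsupp.single m 1) c := by
  conv_lhs => rw [← Finsupp.sum_single y]
  rw [Finsupp.sum, map_sum, Finsupp.finsetSum_apply]
  apply Finset.sum_congr rfl
  intro m _
  have hsm : Finsupp.single m (y m) = y m • Finsupp.single m (1:K) := by
    rw [Finsupp.smul_single, smul_eq_mul, mul_one]
  rw [hsm, map_smul, Finsupp.smul_apply, smul_eq_mul]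

theorem fh_comm {α β : Type*} {a b : ℕ} {K : Type*} [Field K] (f : α → β)
    (Ψ1 : (Sym (Sym α b) a →₀ K) →ₗ[K] (Sym (Sym α a) b →₀ K)) (h1 : IsFH K Ψ1)
    (Ψ2 : (Sym (Sym β b) a →₀ K) →ₗ[K] (Sym (Sym β a) b →₀ K)) (h2 : IsFH K Ψ2)
    (y : Sym (Sym α b) a →₀ K) :
    Ψ2 (Finsupp.mapDomain (Sym.map (Sym.map f)) y)
      = Finsupp.mapDomain (Sym.map (Sym.map f)) (Ψ1 y) := by
  have key : Ψ2 ∘ₗ (Finsupp.lmapDomain K K (Sym.map (Sym.map f)))
      = (Finsupp.lmapDomain K K (Sym.map (Sym.map f))) ∘ₗ Ψ1 := by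
    apply Finsupp.lhom_ext
    intro m r
    obtain ⟨A, rfl⟩ := rowsOf_surj m
    simp only [LinearMap.comp_apply, Finsupp.lmapDomain_apply, Finsupp.mapDomain_single]
    have hs : Finsupp.single (rowsOf A) r = r • Finsupp.single (rowsOf A) (1:K) := by
      rw [Finsupp.smul_single, smul_eq_mul, mul_one]
    have hs' : Finsupp.single (Sym.map (Sym.map f) (rowsOf A)) r
        = r • Finsupp.single (rowsOf fun i j => f (A i j)) (1:K) := by
      rw [map_rowsOf, Finsupp.smul_single, smul_eq_mul, mul_one]
    rw [hs', hs, map_smul, map_smul, h2, h1, Finsupp.mapDomain_smul,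
      Finsupp.mapDomain_finsetSum]
    congr 1
    apply Finset.sum_congr rfl
    intro τ _
    rw [Finsupp.mapDomain_single, map_colsOf]
  exact LinearMap.congr_fun key y

theorem exists_hook_lift {L : Type*} {a b k : ℕ} (z0 : L) (φ : Fin k → L)
    (m : Sym (Sym L b) a) (n0 : ℕ)
    (hw : weight m = Multiset.replicate n0 z0 + Finset.univ.val.map φ) :
    ∃ m' : Sym (Sym (Option (Fin k)) b) a, (∀ i : Fin k, (weight m').count (some i) = 1) ∧
      Sym.map (Sym.map (fun o : Option (Fin k) => o.elim z0 φ)) m' = m := by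
  classical
  obtain ⟨A, rfl⟩ := rowsOf_surj m
  rw [weight_rowsOf] at hw
  have hg : Finset.univ.val.map (Sum.elim φ (fun _ : Fin n0 => z0))
      = Multiset.replicate n0 z0 + Finset.univ.val.map φ := by
    rw [← Finset.univ_disjSum_univ, Finset.val_disjSum, Multiset.disjSum, Multiset.map_add,
      Multiset.map_map, Multiset.map_map, add_comm]
    congr 1
    simp
  obtain ⟨e, he⟩ := map_univ_eq (fun p : Fin a × Fin b => A p.1 p.2)
    (Sum.elim φ (fun _ : Fin n0 => z0)) (hw.trans hg.symm)
  refine ⟨rowsOf (fun i j => Sum.elim (fun z => some z) (fun _ => none) (e.symm (i, j))),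
    ?_, ?_⟩
  · intro z
    rw [count_weight_rowsOf, Finset.card_eq_one]
    refine ⟨e (Sum.inl z), ?_⟩
    ext p
    simp only [Finset.mem_filter, Finset.mem_univ, true_and, Finset.mem_singleton]
    constructor
    · intro hp
      have hp' : e.symm p = Sum.inl z := by
        cases h : e.symm p with
        | inl z' =>
          have : e.symm (p.1, p.2) = Sum.inl z' := h
          rw [this] at hp
          simp only [Sum.elim_inl, Option.some.injEq] at hp
          rw [hp]
        | inr j =>
          have : e.symm (p.1, p.2) = Sum.inr j := h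
          rw [this] at hp
          simp at hp
      rw [← hp']; simp
    · rintro rfl; simp
  · rw [map_rowsOf]
    congr 1
    funext i j
    have h1 := he (e.symm (i, j))
    simp only [Equiv.apply_symm_apply] at h1
    rw [← h1]
    cases e.symm (i, j) <;> rfl

theorem hook_fibre {L : Type*} {a b k : ℕ} (z0 : L) (φ : Fin k → L) (hφ : ∀ z, φ z ≠ z0)
    (c c0 : Sym (Sym (Option (Fin k)) b) a)
    (hc : ∀ i : Fin k, (weight c).count (some i) = 1)
    (hc0 : ∀ i : Fin k, (weight c0).count (some i) = 1)
    (h : Sym.map (Sym.map (fun o : Option (Fin k) => o.elim z0 φ)) c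
      = Sym.map (Sym.map (fun o : Option (Fin k) => o.elim z0 φ)) c0) :
    ∃ η : Equiv.Perm (Fin k), (∀ z, φ (η z) = φ z) ∧
      Sym.map (Sym.map (Option.map η)) c0 = c := by
  obtain ⟨B, rfl⟩ := rowsOf_surj c
  obtain ⟨B0, rfl⟩ := rowsOf_surj c0
  rw [map_rowsOf, map_rowsOf] at h
  obtain ⟨π, hπ⟩ := ofFn_eq (fun i => ofFn (fun j => (B i j).elim z0 φ))
    (fun i => ofFn (fun j => (B0 i j).elim z0 φ)) h
  have hθ : ∀ i, ∃ θ : Equiv.Perm (Fin b),
      ∀ j, (B0 i j).elim z0 φ = (B (π i) (θ j)).elim z0 φ :=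
    fun i => ofFn_eq _ _ (hπ i).symm
  choose θ hθ using hθ
  have hrows : rowsOf (fun i j => B (π i) (θ i j)) = rowsOf B := by
    unfold rowsOf
    rw [← ofFn_comp_perm (fun i => ofFn (B i)) π]
    congr 1
    funext i
    exact ofFn_comp_perm (B (π i)) (θ i)
  have hc1 : ∀ i : Fin k, (weight (rowsOf (fun i j => B (π i) (θ i j)))).count (some i) = 1 := by
    rw [hrows]; exact hc
  obtain ⟨r0, q0, h01, h02⟩ := hook_pos B0 hc0
  obtain ⟨r1, q1, h11, h12⟩ := hook_pos (fun i j => B (π i) (θ i j)) hc1
  have hex : ∀ z : Fin k, ∃ w : Fin k, B (π (r0 z)) (θ (r0 z) (q0 z)) = some w := by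
    intro z
    have e := hθ (r0 z) (q0 z)
    rw [h01 z] at e
    cases hB : B (π (r0 z)) (θ (r0 z) (q0 z)) with
    | none => exfalso; rw [hB] at e; exact hφ z e
    | some w => exact ⟨w, rfl⟩
  choose h' hh using hex
  have hinj : Function.Injective h' := by
    intro z z' hzz
    have e1 := h12 (h' z) (r0 z) (q0 z) (hh z)
    have e2 := h12 (h' z') (r0 z') (q0 z') (hh z')
    rw [hzz] at e1
    have hr : r0 z = r0 z' := e1.1.trans e2.1.symm
    have hq : q0 z = q0 z' := e1.2.trans e2.2.symm
    have e3 := h01 z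
    rw [hr, hq, h01 z'] at e3
    exact (Option.some.inj e3).symm
  refine ⟨Equiv.ofBijective h' ⟨hinj, Finite.injective_iff_surjective.mp hinj⟩, ?_, ?_⟩
  · intro z
    have e := hθ (r0 z) (q0 z)
    rw [h01 z, hh z] at e
    exact e.symm
  · rw [map_rowsOf, ← hrows]
    congr 1
    funext i j
    cases hB : B0 i j with
    | none =>
      have e := hθ i j
      rw [hB] at e
      cases hB' : B (π i) (θ i j) with
      | none => rfl
      | some w => rw [hB'] at e; exact absurd e.symm (hφ w)
    | some z =>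
      obtain ⟨ei, ej⟩ := h02 z i j hB
      subst ei; subst ej
      rw [hh z]
      rfl

theorem card_weight {α : Type*} {a b : ℕ} (m : Sym (Sym α b) a) :
    Multiset.card (weight m) = a * b := by
  obtain ⟨A, rfl⟩ := rowsOf_surj m
  rw [weight_rowsOf]
  simp

theorem mapDomain_apply_fintype {α β : Type*} [Fintype α] [DecidableEq β] {K : Type*} [Field K]
    (f : α → β) (v : α →₀ K) (y : β) :
    Finsupp.mapDomain f v y = ∑ x : α, if f x = y then v x else 0 := by
  classical
  conv_lhs => rw [← Finsupp.univ_sum_single v]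
  rw [Finsupp.mapDomain_finsetSum, Finsupp.finsetSum_apply]
  apply Finset.sum_congr rfl
  intro x _
  rw [Finsupp.mapDomain_single, Finsupp.single_apply]

theorem map_map_inv {a b k : ℕ} (η : Equiv.Perm (Fin k)) (m : Sym (Sym (Option (Fin k)) b) a) :
    Sym.map (Sym.map (Option.map η)) (Sym.map (Sym.map (Option.map η.symm)) m) = m := by
  rw [Sym.map_map]
  have h1 : (Sym.map (Option.map η) : Sym (Option (Fin k)) b → Sym (Option (Fin k)) b)
      ∘ Sym.map (Option.map η.symm) = id := by
    funext s
    have h2 : (fun x : Option (Fin k) => Option.map (⇑η) (Option.map (⇑(Equiv.symm η)) x))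
        = id := by
      funext o; cases o <;> simp
    simp only [Function.comp_apply, Sym.map_map, id]
    rw [h2, Sym.map_id]
  rw [h1, Sym.map_id]

theorem map_map_inv' {a b k : ℕ} (η : Equiv.Perm (Fin k)) (m : Sym (Sym (Option (Fin k)) b) a) :
    Sym.map (Sym.map (Option.map η.symm)) (Sym.map (Sym.map (Option.map η)) m) = m := by
  have := map_map_inv (a := a) (b := b) η.symm m
  simp only [Equiv.symm_symm] at this
  exact this

theorem hook_map_iff {a b k : ℕ} (η : Equiv.Perm (Fin k)) (m : Sym (Sym (Option (Fin k)) b) a) :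
    (∀ i : Fin k, (weight (Sym.map (Sym.map (Option.map η)) m)).count (some i) = 1)
      ↔ (∀ i : Fin k, (weight m).count (some i) = 1) := by
  have key : ∀ i : Fin k, (weight (Sym.map (Sym.map (Option.map η)) m)).count (some i)
      = (weight m).count (some (η.symm i)) := by
    intro i
    rw [weight_map]
    have hinj : Function.Injective (Option.map η) := Option.map_injective η.injective
    have := Multiset.count_map_eq_count' (Option.map η) (weight m) hinj (some (η.symm i))
    simpa using this
  constructor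
  · intro h i
    have := h (η i)
    rw [key] at this
    simpa using this
  · intro h i
    rw [key]
    exact h _

theorem inj_single_weight {L : Type*} [DecidableEq L] (K : Type*) [Field K] [CharZero K]
    (a b : ℕ) (z0 : L)
    (Ψ : (Sym (Sym L b) a →₀ K) →ₗ[K] (Sym (Sym L a) b →₀ K)) (hΨ : IsFH K Ψ)
    (μ : Multiset L) (hμ : a * b ≤ μ.count z0 + b + 1)
    (y : Sym (Sym L b) a →₀ K) (hy : ∀ m ∈ y.support, weight m = μ) (h0 : Ψ y = 0) :
    y = 0 := by
  classical
  by_contra hyne
  obtain ⟨m1, hm1⟩ : y.support.Nonempty := Finsupp.support_nonempty_iff.mpr hyne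
  have hcard : Multiset.card μ = a * b := by rw [← hy m1 hm1]; exact card_weight m1
  have hφex : ∃ (k : ℕ) (φ : Fin k → L),
      Finset.univ.val.map φ = μ.filter (fun l => l ≠ z0) := by
    obtain ⟨φ, hφ⟩ := ofFn_surj
      (⟨μ.filter (fun l => l ≠ z0), rfl⟩ : Sym L (Multiset.card (μ.filter (fun l => l ≠ z0))))
    exact ⟨_, φ, congrArg Subtype.val hφ⟩
  obtain ⟨k, φ, hφv⟩ := hφex
  have hφ0 : ∀ z, φ z ≠ z0 := by
    intro z
    have hmem : φ z ∈ μ.filter (fun l => l ≠ z0) := by
      rw [← hφv]; exact Multiset.mem_map_of_mem φ (Finset.mem_univ_val z)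
    exact (Multiset.mem_filter.mp hmem).2
  have hμdec : μ = Multiset.replicate (μ.count z0) z0 + Finset.univ.val.map φ := by
    rw [hφv, ← Multiset.filter_eq' μ z0]
    exact (Multiset.filter_add_not _ μ).symm
  have hkb : k ≤ b + 1 := by
    have h1 : Multiset.card μ = μ.count z0 + k := by
      conv_lhs => rw [hμdec]
      simp
    omega
  obtain ⟨Ψk, hΨk⟩ := exists_psi K a b (Option (Fin k))
  have hyt : ∃ yt : Sym (Sym (Option (Fin k)) b) a →₀ K, ∀ m', yt m' =
      if (∀ i : Fin k, (weight m').count (some i) = 1) then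
        y (Sym.map (Sym.map (fun o : Option (Fin k) => o.elim z0 φ)) m') /
          (((Finset.univ.filter (fun m'' : Sym (Sym (Option (Fin k)) b) a =>
            (∀ i : Fin k, (weight m'').count (some i) = 1) ∧
            Sym.map (Sym.map (fun o : Option (Fin k) => o.elim z0 φ)) m''
              = Sym.map (Sym.map (fun o : Option (Fin k) => o.elim z0 φ)) m')).card : ℕ) : K)
      else 0 :=
    ⟨Finsupp.equivFunOnFinite.symm _, fun m' => rfl⟩
  obtain ⟨yt, hyt⟩ := hyt
  have hmap : Finsupp.mapDomain (Sym.map (Sym.map (fun o : Option (Fin k) => o.elim z0 φ))) yt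
      = y := by
    ext m
    rw [mapDomain_apply_fintype]
    have hterm : ∀ m' : Sym (Sym (Option (Fin k)) b) a,
        (if Sym.map (Sym.map (fun o : Option (Fin k) => o.elim z0 φ)) m' = m then yt m' else 0)
        = if ((∀ i : Fin k, (weight m').count (some i) = 1) ∧
            Sym.map (Sym.map (fun o : Option (Fin k) => o.elim z0 φ)) m' = m) then
          y m / (((Finset.univ.filter (fun m'' : Sym (Sym (Option (Fin k)) b) a =>
            (∀ i : Fin k, (weight m'').count (some i) = 1) ∧
            Sym.map (Sym.map (fun o : Option (Fin k) => o.elim z0 φ)) m'' = m)).card : ℕ) : K)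
          else 0 := by
      intro m'
      by_cases h1 : Sym.map (Sym.map (fun o : Option (Fin k) => o.elim z0 φ)) m' = m
      · rw [if_pos h1, hyt]
        by_cases h2 : ∀ i : Fin k, (weight m').count (some i) = 1
        · rw [if_pos h2, if_pos ⟨h2, h1⟩, h1]
        · rw [if_neg h2, if_neg (fun h => h2 h.1)]
      · rw [if_neg h1, if_neg (fun h => h1 h.2)]
    rw [Finset.sum_congr rfl (fun m' _ => hterm m'), ← Finset.sum_filter, Finset.sum_const,
      nsmul_eq_mul]
    by_cases hd : (Finset.univ.filter (fun m'' : Sym (Sym (Option (Fin k)) b) a =>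
            (∀ i : Fin k, (weight m'').count (some i) = 1) ∧
            Sym.map (Sym.map (fun o : Option (Fin k) => o.elim z0 φ)) m'' = m)).card = 0
    · rw [hd]
      simp only [Nat.cast_zero, zero_mul]
      by_contra hne
      have hm : m ∈ y.support := Finsupp.mem_support_iff.mpr (fun h => hne h.symm)
      obtain ⟨m', hm'1, hm'2⟩ := exists_hook_lift z0 φ m (μ.count z0) ((hy m hm).trans hμdec)
      have : m' ∈ Finset.univ.filter (fun m'' : Sym (Sym (Option (Fin k)) b) a =>
            (∀ i : Fin k, (weight m'').count (some i) = 1) ∧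
            Sym.map (Sym.map (fun o : Option (Fin k) => o.elim z0 φ)) m'' = m) := by
        simp only [Finset.mem_filter, Finset.mem_univ, true_and]
        exact ⟨hm'1, hm'2⟩
      rw [Finset.card_eq_zero] at hd
      rw [hd] at this
      simp at this
    · have hd' : (((Finset.univ.filter (fun m'' : Sym (Sym (Option (Fin k)) b) a =>
            (∀ i : Fin k, (weight m'').count (some i) = 1) ∧
            Sym.map (Sym.map (fun o : Option (Fin k) => o.elim z0 φ)) m'' = m)).card : ℕ) : K)
          ≠ 0 := Nat.cast_ne_zero.mpr hd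
      field_simp
  have hCw : Finsupp.mapDomain (Sym.map (Sym.map (fun o : Option (Fin k) => o.elim z0 φ)))
      (Ψk yt) = 0 := by
    rw [← fh_comm (fun o : Option (Fin k) => o.elim z0 φ) Ψk hΨk Ψ hΨ yt, hmap, h0]
  have hwt_hook : ∀ c', Ψk yt c' ≠ 0 → ∀ i : Fin k, (weight c').count (some i) = 1 := by
    intro c' hc'
    rw [fh_apply] at hc'
    obtain ⟨m', hm', hne⟩ := Finset.exists_ne_zero_of_sum_ne_zero hc'
    have h1 : Ψk (Finsupp.single m' 1) c' ≠ 0 := right_ne_zero_of_mul hne
    have h2 : yt m' ≠ 0 := left_ne_zero_of_mul hne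
    have hw := fh_weight Ψk hΨk m' c' h1
    have hH : ∀ i : Fin k, (weight m').count (some i) = 1 := by
      by_contra hn
      rw [hyt, if_neg hn] at h2; exact h2 rfl
    intro i; rw [hw]; exact hH i
  have hinv : ∀ η : Equiv.Perm (Fin k), (∀ z, φ (η z) = φ z) →
      ∀ c', Ψk yt (Sym.map (Sym.map (Option.map η)) c') = Ψk yt c' := by
    intro η hη c'
    have hφη : (fun x : Option (Fin k) => (Option.map (⇑η) x).elim z0 φ)
        = (fun o : Option (Fin k) => o.elim z0 φ) := by
      funext o
      cases o with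
      | none => rfl
      | some z => exact hη z
    have hS : ∀ m' : Sym (Sym (Option (Fin k)) b) a,
        Sym.map (Sym.map (fun o : Option (Fin k) => o.elim z0 φ))
          (Sym.map (Sym.map (Option.map η)) m')
        = Sym.map (Sym.map (fun o : Option (Fin k) => o.elim z0 φ)) m' := by
      intro m'
      rw [Sym.map_map]
      have : (Sym.map (fun o : Option (Fin k) => o.elim z0 φ) : Sym (Option (Fin k)) b → Sym L b)
          ∘ Sym.map (Option.map η) = Sym.map (fun o : Option (Fin k) => o.elim z0 φ) := by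
        funext s
        simp only [Function.comp_apply, Sym.map_map]
        rw [hφη]
      rw [this]
    have hyinv : Finsupp.mapDomain (Sym.map (Sym.map (Option.map η))) yt = yt := by
      ext m'
      have hinjη : Function.Injective
          (Sym.map (Sym.map (Option.map η)) :
            Sym (Sym (Option (Fin k)) b) a → Sym (Sym (Option (Fin k)) b) a) :=
        Function.LeftInverse.injective (map_map_inv' η)
      rw [← map_map_inv η m', Finsupp.mapDomain_apply hinjη]
      rw [hyt, hyt, hS, if_congr (hook_map_iff η _) rfl rfl]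
    have hcomm := fh_comm (Option.map η) Ψk hΨk Ψk hΨk yt
    rw [hyinv] at hcomm
    have hinjC : Function.Injective
        (Sym.map (Sym.map (Option.map η)) :
          Sym (Sym (Option (Fin k)) a) b → Sym (Sym (Option (Fin k)) a) b) :=
      Function.LeftInverse.injective (map_map_inv' η)
    conv_lhs => rw [hcomm]
    rw [Finsupp.mapDomain_apply hinjC]
  have hwt0 : Ψk yt = 0 := by
    ext c0
    rw [Finsupp.zero_apply]
    by_contra hne
    have hc0 := hwt_hook c0 hne
    have hsum := congrArg (fun v => v (Sym.map (Sym.map (fun o : Option (Fin k) => o.elim z0 φ)) c0))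
      hCw
    simp only [Finsupp.zero_apply] at hsum
    rw [mapDomain_apply_fintype] at hsum
    have hterm : ∀ c' : Sym (Sym (Option (Fin k)) a) b,
        (if Sym.map (Sym.map (fun o : Option (Fin k) => o.elim z0 φ)) c'
            = Sym.map (Sym.map (fun o : Option (Fin k) => o.elim z0 φ)) c0 then Ψk yt c' else 0)
        = if (Sym.map (Sym.map (fun o : Option (Fin k) => o.elim z0 φ)) c'
            = Sym.map (Sym.map (fun o : Option (Fin k) => o.elim z0 φ)) c0 ∧ Ψk yt c' ≠ 0)
          then Ψk yt c0 else 0 := by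
      intro c'
      by_cases h1 : Sym.map (Sym.map (fun o : Option (Fin k) => o.elim z0 φ)) c'
            = Sym.map (Sym.map (fun o : Option (Fin k) => o.elim z0 φ)) c0
      · rw [if_pos h1]
        by_cases h2 : Ψk yt c' = 0
        · rw [if_neg (fun h => h.2 h2), h2]
        · rw [if_pos ⟨h1, h2⟩]
          obtain ⟨η, hη1, hη2⟩ := hook_fibre z0 φ hφ0 c' c0 (hwt_hook c' h2) hc0 h1
          rw [← hη2]
          exact hinv η hη1 c0
      · rw [if_neg h1, if_neg (fun h => h1 h.1)]
    rw [Finset.sum_congr rfl (fun c' _ => hterm c'), ← Finset.sum_filter, Finset.sum_const,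
      nsmul_eq_mul] at hsum
    have hN : (Finset.univ.filter (fun c' : Sym (Sym (Option (Fin k)) a) b =>
        Sym.map (Sym.map (fun o : Option (Fin k) => o.elim z0 φ)) c'
            = Sym.map (Sym.map (fun o : Option (Fin k) => o.elim z0 φ)) c0 ∧ Ψk yt c' ≠ 0)).card
        ≠ 0 := by
      apply Finset.card_ne_zero_of_mem (a := c0)
      exact Finset.mem_filter.mpr ⟨Finset.mem_univ _, rfl, hne⟩
    rcases mul_eq_zero.mp hsum with h | h
    · exact hN (Nat.cast_eq_zero.mp h)
    · exact hne h
  have hyt0 : yt = 0 := by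
    apply main_inj' K a b k hkb Ψk hΨk yt _ hwt0
    intro m' hm'
    by_contra hn
    have := Finsupp.mem_support_iff.mp hm'
    rw [hyt, if_neg hn] at this
    exact this rfl
  rw [hyt0, Finsupp.mapDomain_zero] at hmap
  exact hyne hmap.symm

theorem fh_filter_weight {L : Type*} [DecidableEq L] {K : Type*} [Field K] {a b : ℕ}
    (Ψ : (Sym (Sym L b) a →₀ K) →ₗ[K] (Sym (Sym L a) b →₀ K)) (hΨ : IsFH K Ψ)
    (x : Sym (Sym L b) a →₀ K) (h0 : Ψ x = 0) (μ : Multiset L) :
    Ψ (x.filter (fun m' => weight m' = μ)) = 0 := by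
  classical
  ext c
  rw [Finsupp.zero_apply]
  by_cases hc : weight c = μ
  · have hsplit : x = x.filter (fun m' => weight m' = μ)
        + x.filter (fun m' => ¬ weight m' = μ) :=
      (Finsupp.filter_add_filter_not x _).symm
    have h1 : Ψ x c = Ψ (x.filter (fun m' => weight m' = μ)) c
        + Ψ (x.filter (fun m' => ¬ weight m' = μ)) c := by
      conv_lhs => rw [hsplit]
      rw [map_add, Finsupp.add_apply]
    have h2 : Ψ (x.filter (fun m' => ¬ weight m' = μ)) c = 0 := by
      rw [fh_apply]
      apply Finset.sum_eq_zero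
      intro m' hm'
      rw [Finsupp.support_filter, Finset.mem_filter] at hm'
      by_contra hne'
      have hw := fh_weight Ψ hΨ m' c (right_ne_zero_of_mul hne')
      exact hm'.2 (hw ▸ hc)
    rw [h0, Finsupp.zero_apply, h2, add_zero] at h1
    exact h1.symm
  · rw [fh_apply]
    apply Finset.sum_eq_zero
    intro m' hm'
    rw [Finsupp.support_filter, Finset.mem_filter] at hm'
    by_contra hne'
    have hw := fh_weight Ψ hΨ m' c (right_ne_zero_of_mul hne')
    exact hc (hw.trans hm'.2)

theorem inj_all_weights {L : Type*} [DecidableEq L] (K : Type*) [Field K] [CharZero K]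
    (a b : ℕ) (z0 : L)
    (Ψ : (Sym (Sym L b) a →₀ K) →ₗ[K] (Sym (Sym L a) b →₀ K)) (hΨ : IsFH K Ψ)
    (x : Sym (Sym L b) a →₀ K)
    (hx : ∀ m ∈ x.support, a * b ≤ (weight m).count z0 + b + 1) (h0 : Ψ x = 0) : x = 0 := by
  classical
  ext m
  rw [Finsupp.zero_apply]
  by_contra hne
  have hy : x.filter (fun m' => weight m' = weight m) = 0 := by
    apply inj_single_weight K a b z0 Ψ hΨ (weight m)
      (hx m (Finsupp.mem_support_iff.mpr hne)) _ _ (fh_filter_weight Ψ hΨ x h0 (weight m))
    intro m' hm'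
    rw [Finsupp.support_filter, Finset.mem_filter] at hm'
    exact hm'.2
  have hm : (x.filter (fun m' => weight m' = weight m)) m = 0 := by rw [hy]; rfl
  rw [Finsupp.filter_apply_pos (fun m' => weight m' = weight m) x (rfl : weight m = weight m)] at hm
  exact hne hm

end Vale.Agent.Helper7.FoulkesWeights
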