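import Mathlib

/-! Definitions for the space of unimodular lattices in `ℝ⁴` and the lattices of torus packets
(P007). -/

namespace Vale.Agent.Helper7.PacketDefs

open Matrix

/-- The lattice `ℤ⁴ g` spanned over `ℤ` by the rows of the matrix `g`. -/
def rowLattice (g : Matrix (Fin 4) (Fin 4) ℝ) : Set (Fin 4 → ℝ) :=
  (Submodule.span ℤ (Set.range fun k : Fin 4 => g k) : Set (Fin 4 → ℝ))

/-- The set `σ(I) · diag(t)`: the image of the additive subgroup `I` of `K` under
`x ↦ (σ₁(x) t₁, …, σ₄(x) t₄)`. -/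
def embLattice {K : Type} [Field K] (σ : Fin 4 → (K →+* ℝ)) (I : AddSubgroup K)
    (t : Fin 4 → ℝ) : Set (Fin 4 → ℝ) :=
  {v | ∃ x ∈ I, ∀ j, v j = σ j x * t j}

/-- The subgroup `SL₄(ℤ)` of `SL₄(ℝ)`. -/
def Gam : Subgroup (Matrix.SpecialLinearGroup (Fin 4) ℝ) :=
  (Matrix.SpecialLinearGroup.map (Int.castRingHom ℝ)).range

/-- The space `X₄` of unimodular lattices in `ℝ⁴`, realised as the coset space
`SL₄(ℝ) / SL₄(ℤ)` with the quotient topology; `SL₄(ℝ)` acts by left multiplication. -/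
abbrev X4 : Type := Matrix.SpecialLinearGroup (Fin 4) ℝ ⧸ Gam

/-- `X₄` carries its Borel σ-algebra. -/
instance : MeasurableSpace X4 := borel X4

instance : BorelSpace X4 := ⟨rfl⟩

/-- The point `g SL₄(ℤ)` of `X₄` is the lattice `ℤ⁴ g⁻¹`. -/
def HasLattice (x : X4) (Λ : Set (Fin 4 → ℝ)) : Prop :=
  ∃ g : Matrix.SpecialLinearGroup (Fin 4) ℝ, (QuotientGroup.mk g : X4) = x ∧
    rowLattice ((g⁻¹ : Matrix.SpecialLinearGroup (Fin 4) ℝ) : Matrix (Fin 4) (Fin 4) ℝ) = Λ

/-- `x` is a point of a torus packet of an order containing a square root of `2`: its lattice is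
`σ(I) · diag(t)` for some field `K`, ring homomorphisms `σ j : K → ℝ`, a subring `O` of the ring
of integers of `K` containing some `s` with `s * s = 2`, an additive subgroup `I` of `K` stable
under multiplication by `O`, and some `t`. -/
def SqrtTwoPacketPoint (x : X4) : Prop :=
  ∃ (K : Type) (_ : Field K) (O : Subring (NumberField.RingOfIntegers K))
    (s : NumberField.RingOfIntegers K) (σ : Fin 4 → (K →+* ℝ)) (I : AddSubgroup K)
    (t : Fin 4 → ℝ),
    s ∈ O ∧ s * s = 2 ∧ (∀ a ∈ O, ∀ y ∈ I, (a : K) * y ∈ I) ∧ HasLattice x (embLattice σ I t)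

end Vale.Agent.Helper7.PacketDefs
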