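import Mathlib
import Vale.Agent.Helper7.PacketDefs

/-! A compactly supported test function on `X₄` that vanishes on all torus packets of orders
containing a square root of `2` (P007). -/

namespace Vale.Agent.Helper7.PacketMain

open Matrix MeasureTheory
open Vale.Agent.Helper7.PacketDefs

theorem slSecond : SecondCountableTopology (Matrix.SpecialLinearGroup (Fin 4) ℝ) := by
  have : SecondCountableTopology (Matrix (Fin 4) (Fin 4) ℝ) :=
    inferInstanceAs (SecondCountableTopology (Fin 4 → Fin 4 → ℝ))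
  exact (Matrix.SpecialLinearGroup.isClosedEmbedding_val (n := Fin 4)
    (R := ℝ)).isEmbedding.secondCountableTopology

theorem slLC : LocallyCompactSpace (Matrix.SpecialLinearGroup (Fin 4) ℝ) := by
  have : LocallyCompactSpace (Matrix (Fin 4) (Fin 4) ℝ) :=
    inferInstanceAs (LocallyCompactSpace (Fin 4 → Fin 4 → ℝ))
  exact (Matrix.SpecialLinearGroup.isClosedEmbedding_val (n := Fin 4)
    (R := ℝ)).locallyCompactSpace

theorem gam_closed : IsClosed (Gam : Set (Matrix.SpecialLinearGroup (Fin 4) ℝ)) := by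
  have h : Topology.IsClosedEmbedding
      (Matrix.SpecialLinearGroup.map (n := Fin 4) (Int.castRingHom ℝ)) :=
    Topology.IsClosedEmbedding.specialLinearGroup_map Int.isClosedEmbedding_coe_real
  exact h.isClosed_range

theorem x4Second : SecondCountableTopology X4 := by
  have := slSecond
  infer_instance

theorem x4LC : LocallyCompactSpace X4 := by
  have := slLC
  infer_instance

theorem x4T2 : T2Space X4 := by
  have : IsClosed (Gam : Set (Matrix.SpecialLinearGroup (Fin 4) ℝ)) := gam_closed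
  infer_instance

theorem x4Reg : RegularSpace X4 := by
  have := x4T2
  have := x4LC
  infer_instance

/-- Matrices with integer entries. -/
def IntMat (B : Matrix (Fin 4) (Fin 4) ℝ) : Prop := ∀ i j, ∃ z : ℤ, B i j = z

theorem intMat_mul {A B : Matrix (Fin 4) (Fin 4) ℝ} (hA : IntMat A) (hB : IntMat B) :
    IntMat (A * B) := by
  intro i j
  choose a ha using hA
  choose b hb using hB
  refine ⟨∑ k, a i k * b k j, ?_⟩
  rw [Matrix.mul_apply]
  push_cast
  exact Finset.sum_congr rfl fun k _ => by rw [ha, hb]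

theorem isClosed_intMat : IsClosed {B : Matrix (Fin 4) (Fin 4) ℝ | IntMat B} := by
  have h : {B : Matrix (Fin 4) (Fin 4) ℝ | IntMat B}
      = ⋂ i : Fin 4, ⋂ j : Fin 4,
        {B : Matrix (Fin 4) (Fin 4) ℝ | B i j ∈ Set.range ((↑) : ℤ → ℝ)} := by
    ext B
    simp only [IntMat, Set.mem_setOf_eq, Set.mem_iInter, Set.mem_range]
    constructor
    · intro hB i j
      obtain ⟨z, hz⟩ := hB i j
      exact ⟨z, hz.symm⟩
    · intro hB i j
      obtain ⟨z, hz⟩ := hB i j
      exact ⟨z, hz.symm⟩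
  rw [h]
  apply isClosed_iInter
  intro i
  apply isClosed_iInter
  intro j
  exact Int.isClosedEmbedding_coe_real.isClosed_range.preimage (continuous_id.matrix_elem i j)

theorem intMat_of_mem_gam {γ : Matrix.SpecialLinearGroup (Fin 4) ℝ} (h : γ ∈ Gam) :
    IntMat (γ : Matrix (Fin 4) (Fin 4) ℝ) := by
  obtain ⟨γ', rfl⟩ := h
  intro i j
  exact ⟨(γ' : Matrix (Fin 4) (Fin 4) ℤ) i j, by simp⟩

/-- The diagonal matrix with entries `± √2`. -/
noncomputable def dmat (ε : Fin 4 → Bool) : Matrix (Fin 4) (Fin 4) ℝ :=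
  Matrix.diagonal fun j => if ε j then Real.sqrt 2 else -Real.sqrt 2

/-- The `g` such that the lattice `ℤ⁴ g⁻¹` is stable under right multiplication by `dmat ε`. -/
def stab (ε : Fin 4 → Bool) : Set (Matrix.SpecialLinearGroup (Fin 4) ℝ) :=
  {h | IntMat (((h⁻¹ : Matrix.SpecialLinearGroup (Fin 4) ℝ) : Matrix (Fin 4) (Fin 4) ℝ)
    * dmat ε * (h : Matrix (Fin 4) (Fin 4) ℝ))}

theorem stab_closed (ε : Fin 4 → Bool) : IsClosed (stab ε) := by
  have hc : Continuous fun h : Matrix.SpecialLinearGroup (Fin 4) ℝ =>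
      ((h⁻¹ : Matrix.SpecialLinearGroup (Fin 4) ℝ) : Matrix (Fin 4) (Fin 4) ℝ)
        * dmat ε * (h : Matrix (Fin 4) (Fin 4) ℝ) := by
    apply Continuous.matrix_mul
    · apply Continuous.matrix_mul
      · exact continuous_subtype_val.comp continuous_inv
      · exact continuous_const
    · exact continuous_subtype_val
  exact isClosed_intMat.preimage hc

theorem stab_sat (ε : Fin 4 → Bool) (h γ : Matrix.SpecialLinearGroup (Fin 4) ℝ)
    (hh : h ∈ stab ε) (hγ : γ ∈ Gam) : h * γ ∈ stab ε := by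
  have h1 : IntMat ((γ⁻¹ : Matrix.SpecialLinearGroup (Fin 4) ℝ) : Matrix (Fin 4) (Fin 4) ℝ) :=
    intMat_of_mem_gam (Gam.inv_mem hγ)
  have h2 : IntMat (γ : Matrix (Fin 4) (Fin 4) ℝ) := intMat_of_mem_gam hγ
  have e : (((h * γ)⁻¹ : Matrix.SpecialLinearGroup (Fin 4) ℝ) : Matrix (Fin 4) (Fin 4) ℝ)
      * dmat ε * ((h * γ : Matrix.SpecialLinearGroup (Fin 4) ℝ) : Matrix (Fin 4) (Fin 4) ℝ)
      = ((γ⁻¹ : Matrix.SpecialLinearGroup (Fin 4) ℝ) : Matrix (Fin 4) (Fin 4) ℝ)
        * (((h⁻¹ : Matrix.SpecialLinearGroup (Fin 4) ℝ) : Matrix (Fin 4) (Fin 4) ℝ)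
          * dmat ε * (h : Matrix (Fin 4) (Fin 4) ℝ)) * (γ : Matrix (Fin 4) (Fin 4) ℝ) := by
    rw [_root_.mul_inv_rev, Matrix.SpecialLinearGroup.coe_mul, Matrix.SpecialLinearGroup.coe_mul]
    simp only [Matrix.mul_assoc]
  show IntMat _
  rw [e]
  exact intMat_mul (intMat_mul h1 hh) h2

theorem one_not_mem_stab (ε : Fin 4 → Bool) :
    (1 : Matrix.SpecialLinearGroup (Fin 4) ℝ) ∉ stab ε := by
  intro h
  have h' : IntMat (dmat ε) := by
    have e : (((1 : Matrix.SpecialLinearGroup (Fin 4) ℝ)⁻¹ :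
        Matrix.SpecialLinearGroup (Fin 4) ℝ) : Matrix (Fin 4) (Fin 4) ℝ) * dmat ε
        * ((1 : Matrix.SpecialLinearGroup (Fin 4) ℝ) : Matrix (Fin 4) (Fin 4) ℝ) = dmat ε := by
      simp
    rw [← e]
    exact h
  obtain ⟨z, hz⟩ := h' 0 0
  simp only [dmat, Matrix.diagonal_apply_eq] at hz
  by_cases hε : ε 0
  · rw [if_pos hε] at hz
    exact irrational_sqrt_two.ne_int z hz
  · rw [if_neg hε] at hz
    exact irrational_sqrt_two.neg.ne_int z hz

/-- The closed set of lattices stable under some `dmat ε`. -/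
def bad : Set X4 := ⋃ ε : Fin 4 → Bool, (QuotientGroup.mk '' stab ε)

theorem preimage_image_stab (ε : Fin 4 → Bool) :
    (QuotientGroup.mk : Matrix.SpecialLinearGroup (Fin 4) ℝ → X4) ⁻¹'
      ((QuotientGroup.mk : Matrix.SpecialLinearGroup (Fin 4) ℝ → X4) '' stab ε) = stab ε := by
  ext g
  constructor
  · rintro ⟨h, hh, hg⟩
    have hmem : h⁻¹ * g ∈ Gam := QuotientGroup.eq.mp hg
    have e : g = h * (h⁻¹ * g) := by group
    rw [e]
    exact stab_sat ε h _ hh hmem
  · intro hg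
    exact ⟨g, hg, rfl⟩

theorem bad_closed : IsClosed bad := by
  apply isClosed_iUnion_of_finite
  intro ε
  rw [← (QuotientGroup.isQuotientMap_mk Gam).isClosed_preimage, preimage_image_stab]
  exact stab_closed ε

theorem one_not_mem_bad :
    (QuotientGroup.mk (1 : Matrix.SpecialLinearGroup (Fin 4) ℝ) : X4) ∉ bad := by
  intro h
  obtain ⟨ε, hε⟩ := Set.mem_iUnion.mp h
  have h1 : (1 : Matrix.SpecialLinearGroup (Fin 4) ℝ) ∈
      (QuotientGroup.mk : Matrix.SpecialLinearGroup (Fin 4) ℝ → X4) ⁻¹'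
        ((QuotientGroup.mk : Matrix.SpecialLinearGroup (Fin 4) ℝ → X4) '' stab ε) := hε
  rw [preimage_image_stab] at h1
  exact one_not_mem_stab ε h1

/-- Every lattice of the form `σ(I) diag(t)`, with `I` stable under multiplication by a square
root of `2`, lies in the closed set `bad`. -/
theorem packet_mem_bad {K : Type} [Field K] (s : K) (hs : s * s = 2)
    (σ : Fin 4 → (K →+* ℝ)) (I : AddSubgroup K) (hI : ∀ y ∈ I, s * y ∈ I) (t : Fin 4 → ℝ)
    (x : X4) (hx : HasLattice x (embLattice σ I t)) : x ∈ bad := by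
  classical
  obtain ⟨g, rfl, hlat⟩ := hx
  have hd : ∀ j, σ j s * σ j s = 2 := by
    intro j
    rw [← map_mul, hs, map_ofNat]
  have hd' : ∀ j, σ j s = Real.sqrt 2 ∨ σ j s = -Real.sqrt 2 := by
    intro j
    have h2 : Real.sqrt 2 * Real.sqrt 2 = 2 := Real.mul_self_sqrt (by norm_num)
    have h3 : (σ j s - Real.sqrt 2) * (σ j s + Real.sqrt 2) = 0 := by
      nlinarith [hd j]
    rcases mul_eq_zero.mp h3 with h | h
    · left; linarith
    · right; linarith
  let ε : Fin 4 → Bool := fun j => decide (σ j s = Real.sqrt 2)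
  have hdm : dmat ε = Matrix.diagonal fun j => σ j s := by
    unfold dmat
    congr 1
    funext j
    by_cases h : σ j s = Real.sqrt 2
    · simp [ε, h]
    · rcases hd' j with h' | h'
      · exact absurd h' h
      · have hne : ¬ (-Real.sqrt 2 = Real.sqrt 2) := by
          rw [← h']
          exact h
        simp [ε, h', hne]
  refine Set.mem_iUnion.mpr ⟨ε, g, ?_, rfl⟩
  show IntMat _
  rw [hdm]
  intro i k
  have hrow : ((g⁻¹ : Matrix.SpecialLinearGroup (Fin 4) ℝ) : Matrix (Fin 4) (Fin 4) ℝ) i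
      ∈ embLattice σ I t := by
    rw [← hlat]
    exact Submodule.subset_span ⟨i, rfl⟩
  obtain ⟨y, hy, hyr⟩ := hrow
  have hv : (fun j => ((g⁻¹ : Matrix.SpecialLinearGroup (Fin 4) ℝ) :
      Matrix (Fin 4) (Fin 4) ℝ) i j * σ j s) ∈ rowLattice
        ((g⁻¹ : Matrix.SpecialLinearGroup (Fin 4) ℝ) : Matrix (Fin 4) (Fin 4) ℝ) := by
    rw [hlat]
    refine ⟨s * y, hI y hy, fun j => ?_⟩
    have e := hyr j
    simp only [map_mul]
    rw [e]
    ring
  obtain ⟨c, hc⟩ := (Submodule.mem_span_range_iff_exists_fun ℤ).mp hv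
  refine ⟨c k, ?_⟩
  have hc' : ∀ j, ∑ l, (c l : ℝ) * ((g⁻¹ : Matrix.SpecialLinearGroup (Fin 4) ℝ) :
      Matrix (Fin 4) (Fin 4) ℝ) l j = ((g⁻¹ : Matrix.SpecialLinearGroup (Fin 4) ℝ) :
      Matrix (Fin 4) (Fin 4) ℝ) i j * σ j s := by
    intro j
    have := congrFun hc j
    simpa [Finset.sum_apply, zsmul_eq_mul] using this
  have hinv : ((g⁻¹ : Matrix.SpecialLinearGroup (Fin 4) ℝ) : Matrix (Fin 4) (Fin 4) ℝ)
      * (g : Matrix (Fin 4) (Fin 4) ℝ) = 1 := by
    rw [← Matrix.SpecialLinearGroup.coe_mul, inv_mul_cancel, Matrix.SpecialLinearGroup.coe_one]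
  calc (((g⁻¹ : Matrix.SpecialLinearGroup (Fin 4) ℝ) : Matrix (Fin 4) (Fin 4) ℝ)
        * (Matrix.diagonal fun j => σ j s) * (g : Matrix (Fin 4) (Fin 4) ℝ)) i k
      = ∑ j, (((g⁻¹ : Matrix.SpecialLinearGroup (Fin 4) ℝ) : Matrix (Fin 4) (Fin 4) ℝ) i j
          * σ j s) * (g : Matrix (Fin 4) (Fin 4) ℝ) j k := by
        rw [Matrix.mul_apply]
        exact Finset.sum_congr rfl fun j _ => by rw [Matrix.mul_diagonal]
    _ = ∑ j, (∑ l, (c l : ℝ) * ((g⁻¹ : Matrix.SpecialLinearGroup (Fin 4) ℝ) :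
          Matrix (Fin 4) (Fin 4) ℝ) l j) * (g : Matrix (Fin 4) (Fin 4) ℝ) j k := by
        exact Finset.sum_congr rfl fun j _ => by rw [hc' j]
    _ = ∑ l, (c l : ℝ) * ∑ j, ((g⁻¹ : Matrix.SpecialLinearGroup (Fin 4) ℝ) :
          Matrix (Fin 4) (Fin 4) ℝ) l j * (g : Matrix (Fin 4) (Fin 4) ℝ) j k := by
        simp only [Finset.sum_mul, Finset.mul_sum]
        rw [Finset.sum_comm]
        exact Finset.sum_congr rfl fun l _ => Finset.sum_congr rfl fun j _ => by ring
    _ = ∑ l, (c l : ℝ) * (1 : Matrix (Fin 4) (Fin 4) ℝ) l k := by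
        refine Finset.sum_congr rfl fun l _ => ?_
        rw [← Matrix.mul_apply, hinv]
    _ = (c k : ℝ) := by
        simp [Matrix.one_apply]

/-- An invariant probability measure on `X₄` gives positive mass to every nonempty open set. -/
theorem measure_pos_of_open (m : Measure X4) [IsProbabilityMeasure m]
    (hinv : ∀ (g : Matrix.SpecialLinearGroup (Fin 4) ℝ) (E : Set X4), MeasurableSet E →
      m ((fun x : X4 => g • x) ⁻¹' E) = m E)
    (W : Set X4) (hW : IsOpen W) (hne : W.Nonempty) : 0 < m W := by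
  have := x4Second
  by_contra h0
  have h0' : m W = 0 := by simpa using h0
  obtain ⟨x0, hx0⟩ := hne
  obtain ⟨g0, rfl⟩ := QuotientGroup.mk_surjective x0
  have hcov : (⋃ g : Matrix.SpecialLinearGroup (Fin 4) ℝ, (fun x : X4 => g • x) ⁻¹' W)
      = Set.univ := by
    apply Set.eq_univ_of_forall
    intro x
    obtain ⟨h, rfl⟩ := QuotientGroup.mk_surjective x
    refine Set.mem_iUnion.mpr ⟨g0 * h⁻¹, ?_⟩
    show (g0 * h⁻¹) • (QuotientGroup.mk h : X4) ∈ W
    have e : (g0 * h⁻¹) • (QuotientGroup.mk h : X4) = (QuotientGroup.mk g0 : X4) := by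
      rw [MulAction.Quotient.smul_mk]
      congr 1
      simp
    rw [e]
    exact hx0
  obtain ⟨T, hT, hTeq⟩ := TopologicalSpace.isOpen_iUnion_countable
    (fun g : Matrix.SpecialLinearGroup (Fin 4) ℝ => (fun x : X4 => g • x) ⁻¹' W)
    (fun g => hW.preimage (continuous_const_smul g))
  have hzero : m Set.univ = 0 := by
    rw [← hcov, ← hTeq]
    apply (measure_biUnion_null_iff hT).mpr
    intro g _
    rw [hinv g W hW.measurableSet]
    exact h0'
  simp at hzero

theorem integral_pos_of (f : X4 → ℝ) (hf : Continuous f) (hc : HasCompactSupport f)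
    (h0 : ∀ x, 0 ≤ f x) (x0 : X4) (hx0 : 0 < f x0) (m : Measure X4) [IsProbabilityMeasure m]
    (hinv : ∀ (g : Matrix.SpecialLinearGroup (Fin 4) ℝ) (E : Set X4), MeasurableSet E →
      m ((fun x : X4 => g • x) ⁻¹' E) = m E) : 0 < ∫ x, f x ∂m := by
  have hint : Integrable f m := hf.integrable_of_hasCompactSupport hc
  rw [integral_pos_iff_support_of_nonneg h0 hint]
  exact measure_pos_of_open m hinv _ hf.isOpen_support ⟨x0, hx0.ne'⟩

/-- The test function. -/
theorem exists_test :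
    ∃ f : X4 → ℝ, Continuous f ∧ HasCompactSupport f ∧ (∀ x, 0 ≤ f x) ∧
      (∀ x ∈ bad, f x = 0) ∧
      f (QuotientGroup.mk (1 : Matrix.SpecialLinearGroup (Fin 4) ℝ) : X4) = 1 := by
  have := x4Reg
  have := x4LC
  have hd : Disjoint ({(QuotientGroup.mk (1 : Matrix.SpecialLinearGroup (Fin 4) ℝ) : X4)} : Set X4)
      bad := Set.disjoint_singleton_left.mpr one_not_mem_bad
  obtain ⟨f, h1, h0, hc, hI⟩ := exists_continuous_one_zero_of_isCompact isCompact_singleton
    bad_closed hd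
  exact ⟨f, f.continuous, hc, fun x => (hI x).1, fun x hx => h0 hx, h1 (Set.mem_singleton _)⟩

end Vale.Agent.Helper7.PacketMain
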